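import Vale.Agent.P032.Words5.H227.Penta

/-!
# Graphs on five vertices with all degrees at most two

Such a graph is contained in a pentagon, or it contains a four cycle, or it is contained in a
triangle plus an edge.
-/

namespace Vale.Agent.P032.Words.G555

open Vale.Agent.P032.Words.G5

/-- `s` maps no side of the pentagon into `m` -/
def copen (m s : ℕ) : Bool :=
  (List.range 5).all fun i => !adjN m (dg s i) (dg s ((i + 1) % 5))

/-- `s` maps a four cycle into `m` -/
def four (m s : ℕ) : Bool :=
  adjN m (dg s 0) (dg s 1) && adjN m (dg s 1) (dg s 2) && adjN m (dg s 2) (dg s 3) &&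
    adjN m (dg s 3) (dg s 0)

/-- no edge between `{0, 1, 2}` and `{3, 4}` -/
def tri (m s : ℕ) : Bool :=
  (List.range 3).all fun i => (!adjN m (dg s i) (dg s 3)) && !adjN m (dg s i) (dg s 4)

/-- the classification -/
def chk3 : Bool :=
  (List.range 1024).all fun m => !degN m || perms.any fun s => copen m s || four m s || tri m s

theorem chk3_true : chk3 = true := by decide +kernel

/-- **Graphs on five vertices with all degrees at most two.** -/
theorem graph5 {P : Fin 5 → Fin 5 → Prop} (symm : ∀ i j, P i j → P j i) (irr : ∀ i, ¬ P i i)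
    (deg : ∀ i j k l, P i j → P i k → P i l → j = k ∨ k = l ∨ j = l) :
    ∃ c : Fin 5 → Fin 5, Function.Injective c ∧ ((∀ i, ¬ P (c i) (c (i + 1))) ∨
      (P (c 0) (c 1) ∧ P (c 1) (c 2) ∧ P (c 2) (c 3) ∧ P (c 3) (c 0)) ∨
      (∀ i : Fin 5, i.val < 3 → ¬ P (c i) (c 3) ∧ ¬ P (c i) (c 4))) := by
  classical
  -- the code of the graph
  set f : Fin 10 → Bool := fun t => match t with
    | 0 => decide (P 0 1) | 1 => decide (P 0 2) | 2 => decide (P 0 3) | 3 => decide (P 0 4)
    | 4 => decide (P 1 2) | 5 => decide (P 1 3) | 6 => decide (P 1 4) | 7 => decide (P 2 3)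
    | 8 => decide (P 2 4) | 9 => decide (P 3 4) with hf
  set m : ℕ := Nat.ofBits f with hm
  have hlt : m < 1024 := Nat.ofBits_lt_two_pow f
  have hbit : ∀ t : Fin 10, Nat.testBit m t.val = f t := fun t => Nat.testBit_ofBits_lt f t.val t.isLt
  have b0 : Nat.testBit m 0 = decide (P 0 1) := hbit 0
  have b1 : Nat.testBit m 1 = decide (P 0 2) := hbit 1
  have b2 : Nat.testBit m 2 = decide (P 0 3) := hbit 2
  have b3 : Nat.testBit m 3 = decide (P 0 4) := hbit 3
  have b4 : Nat.testBit m 4 = decide (P 1 2) := hbit 4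
  have b5 : Nat.testBit m 5 = decide (P 1 3) := hbit 5
  have b6 : Nat.testBit m 6 = decide (P 1 4) := hbit 6
  have b7 : Nat.testBit m 7 = decide (P 2 3) := hbit 7
  have b8 : Nat.testBit m 8 = decide (P 2 4) := hbit 8
  have b9 : Nat.testBit m 9 = decide (P 3 4) := hbit 9
  have b15 : Nat.testBit m 15 = false := Nat.testBit_lt_two_pow (lt_trans hlt (by norm_num))
  have hadj : ∀ i j : Fin 5, adjN m i.val j.val = true ↔ P i j := by
    have key : ∀ i j : Fin 5, P i j ↔ P j i := fun i j => ⟨symm i j, symm j i⟩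
    have kk : ∀ (i j : Fin 5) (n : ℕ), pIdx i.val j.val = n → (Nat.testBit m n = true ↔ P i j) →
        (adjN m i.val j.val = true ↔ P i j) := by
      intro i j n h1 h2
      unfold adjN
      rw [h1]
      exact h2
    have d : ∀ (i j : Fin 5) (n : ℕ), Nat.testBit m n = decide (P i j) →
        (Nat.testBit m n = true ↔ P i j) := by
      intro i j n h
      rw [h, decide_eq_true_iff]
    have d' : ∀ (i j : Fin 5) (n : ℕ), Nat.testBit m n = decide (P i j) →
        (Nat.testBit m n = true ↔ P j i) := by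
      intro i j n h
      rw [h, decide_eq_true_iff, key]
    have dd : ∀ (i : Fin 5), (Nat.testBit m 15 = true ↔ P i i) := by
      intro i
      rw [b15]
      constructor
      · intro h; exact absurd h (by decide)
      · intro h; exact absurd h (irr i)
    intro i j
    fin_cases i <;> fin_cases j
    · exact kk 0 0 15 (by decide) (dd 0)
    · exact kk 0 1 0 (by decide) (d 0 1 0 b0)
    · exact kk 0 2 1 (by decide) (d 0 2 1 b1)
    · exact kk 0 3 2 (by decide) (d 0 3 2 b2)
    · exact kk 0 4 3 (by decide) (d 0 4 3 b3)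
    · exact kk 1 0 0 (by decide) (d' 0 1 0 b0)
    · exact kk 1 1 15 (by decide) (dd 1)
    · exact kk 1 2 4 (by decide) (d 1 2 4 b4)
    · exact kk 1 3 5 (by decide) (d 1 3 5 b5)
    · exact kk 1 4 6 (by decide) (d 1 4 6 b6)
    · exact kk 2 0 1 (by decide) (d' 0 2 1 b1)
    · exact kk 2 1 4 (by decide) (d' 1 2 4 b4)
    · exact kk 2 2 15 (by decide) (dd 2)
    · exact kk 2 3 7 (by decide) (d 2 3 7 b7)
    · exact kk 2 4 8 (by decide) (d 2 4 8 b8)
    · exact kk 3 0 2 (by decide) (d' 0 3 2 b2)
    · exact kk 3 1 5 (by decide) (d' 1 3 5 b5)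
    · exact kk 3 2 7 (by decide) (d' 2 3 7 b7)
    · exact kk 3 3 15 (by decide) (dd 3)
    · exact kk 3 4 9 (by decide) (d 3 4 9 b9)
    · exact kk 4 0 3 (by decide) (d' 0 4 3 b3)
    · exact kk 4 1 6 (by decide) (d' 1 4 6 b6)
    · exact kk 4 2 8 (by decide) (d' 2 4 8 b8)
    · exact kk 4 3 9 (by decide) (d' 3 4 9 b9)
    · exact kk 4 4 15 (by decide) (dd 4)
  have hdeg : degN m = true := by
    unfold degN
    rw [List.all_eq_true]
    intro i hi
    rw [List.all_eq_true]
    intro j hj
    rw [List.mem_range] at hi hj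
    rw [Bool.or_eq_true, Bool.not_eq_true']
    by_cases h1 : adjN m i j = false
    · exact Or.inl h1
    rw [Bool.not_eq_false] at h1
    refine Or.inr ?_
    rw [List.all_eq_true]
    intro k hk
    rw [List.mem_range] at hk
    rw [Bool.or_eq_true, Bool.or_eq_true, Bool.not_eq_true', beq_iff_eq]
    by_cases h2 : adjN m i k = false
    · exact Or.inl (Or.inl h2)
    rw [Bool.not_eq_false] at h2
    by_cases h4 : j = k
    · exact Or.inl (Or.inr h4)
    refine Or.inr ?_
    rw [List.all_eq_true]
    intro l hl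
    rw [List.mem_range] at hl
    by_contra hc
    simp only [Bool.or_eq_true, Bool.not_eq_true', beq_iff_eq, not_or, Bool.not_eq_false] at hc
    obtain ⟨⟨h3, h5⟩, h6⟩ := hc
    have p1 := (hadj ⟨i, hi⟩ ⟨j, hj⟩).1 h1
    have p2 := (hadj ⟨i, hi⟩ ⟨k, hk⟩).1 h2
    have p3 := (hadj ⟨i, hi⟩ ⟨l, hl⟩).1 h3
    rcases deg _ _ _ _ p1 p2 p3 with h | h | h
    · exact h4 (congrArg Fin.val h)
    · exact h5 (congrArg Fin.val h)
    · exact h6 (congrArg Fin.val h)
  have hall := all_range chk3_true hlt
  rw [hdeg, Bool.not_true, Bool.false_or, List.any_eq_true] at hall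
  obtain ⟨s, hs, hcase⟩ := hall
  have hinj := List.all_eq_true.mp perms_inj s hs
  have hci : Function.Injective (la s) := by
    intro i j hij
    have h1 := all_range (all_range hinj i.isLt) j.isLt
    simp only [Bool.or_eq_true, beq_iff_eq, Bool.not_eq_true', beq_eq_false_iff_ne] at h1
    rcases h1 with h1 | h1
    · exact Fin.ext h1
    · exact absurd (congrArg Fin.val hij) h1
  have hcv : ∀ i : Fin 5, dg s i.val = (la s i).val := fun i => rfl
  refine ⟨la s, hci, ?_⟩
  simp only [Bool.or_eq_true] at hcase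
  rcases hcase with (h | h) | h
  · left
    intro i hP
    have h1 := all_range h i.isLt
    have e : (i + 1 : Fin 5).val = (i.val + 1) % 5 := by rw [Fin.val_add]; rfl
    rw [← e, hcv, hcv, (hadj _ _).2 hP] at h1
    exact absurd h1 (by decide)
  · right; left
    unfold four at h
    simp only [Bool.and_eq_true] at h
    obtain ⟨⟨⟨h1, h2⟩, h3⟩, h4⟩ := h
    exact ⟨(hadj (la s 0) (la s 1)).1 h1, (hadj (la s 1) (la s 2)).1 h2,
      (hadj (la s 2) (la s 3)).1 h3, (hadj (la s 3) (la s 0)).1 h4⟩
  · right; right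
    intro i hi
    have h1 := all_range h hi
    simp only [Bool.and_eq_true, Bool.not_eq_true'] at h1
    obtain ⟨h2, h3⟩ := h1
    constructor
    · intro hP
      have h4 : adjN m (dg s i.val) (dg s 3) = true := (hadj (la s i) (la s 3)).2 hP
      rw [h4] at h2
      exact absurd h2 (by decide)
    · intro hP
      have h4 : adjN m (dg s i.val) (dg s 4) = true := (hadj (la s i) (la s 4)).2 hP
      rw [h4] at h3
      exact absurd h3 (by decide)

end Vale.Agent.P032.Words.G555
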