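import Vale.Agent.P032.S5.H767.Five
import Vale.Agent.P032.S5.H767.Raw

/-!
# P032: a five-coloured point whose broken pairs lie in a triangle and an edge

`T z = A ∪ D`, `|A| = 3`, `|D| = 2`, all palettes of the unit circle about `z` have at most three
colours and all pairs of colours of `z` among them lie in `A` or in `D`: impossible.  Level of a
palette: `0` if it has two colours of `A`, `1` if it has the sixth colour, `2` if it contains `D`.
-/

open Set Filter Topology Metric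

noncomputable section

namespace Vale.Agent.P032.Six

open Vale.Agent.P032.S5.H767

/-- three levels on the line -/
theorem level555 {A B C : Set ℝ} (hA : IsClosed A) (hB : IsClosed B) (hC : IsClosed C)
    (hcov : ∀ u, u ∈ A ∨ u ∈ B ∨ u ∈ C)
    (fA : ∀ u, u ∈ A → u ∉ B → u ∉ C → u + 1 ∉ A)
    (fB : ∀ u, u ∈ B → u ∉ A → u ∉ C → u + 1 ∉ B)
    (fC : ∀ u, u ∈ C → u ∉ A → u ∉ B → u + 1 ∉ C)
    (bA : ∀ u, u + 1 ∈ A → u + 1 ∉ B → u + 1 ∉ C → u ∉ A)
    (bB : ∀ u, u + 1 ∈ B → u + 1 ∉ A → u + 1 ∉ C → u ∉ B)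
    (bC : ∀ u, u + 1 ∈ C → u + 1 ∉ A → u + 1 ∉ B → u ∉ C)
    (h01 : ∀ u, u ∈ A → u ∈ B → u + 1 ∈ A → u + 1 ∉ B)
    (h12 : ∀ u, u ∈ B → u ∈ C → u + 1 ∈ B → u + 1 ∉ C)
    (h02 : ∀ u, u ∈ A → u ∉ C) : False := by
  have hs : Continuous fun u : ℝ => u + 1 := by fun_prop
  have hA' : IsClosed {u : ℝ | u + 1 ∈ A} := hA.preimage hs
  have hB' : IsClosed {u : ℝ | u + 1 ∈ B} := hB.preimage hs
  have hC' : IsClosed {u : ℝ | u + 1 ∈ C} := hC.preimage hs
  obtain ⟨P, hP⟩ : ∃ P, P = (A ∩ {u : ℝ | u + 1 ∈ B}) ∪ (A ∩ {u : ℝ | u + 1 ∈ C}) ∪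
    (B ∩ {u : ℝ | u + 1 ∈ C}) := ⟨_, rfl⟩
  obtain ⟨N, hN⟩ : ∃ N, N = (B ∩ {u : ℝ | u + 1 ∈ A}) ∪ (C ∩ {u : ℝ | u + 1 ∈ A}) ∪
    (C ∩ {u : ℝ | u + 1 ∈ B}) := ⟨_, rfl⟩
  have hPc : IsClosed P := by
    rw [hP]; exact ((hA.inter hB').union (hA.inter hC')).union (hB.inter hC')
  have hNc : IsClosed N := by
    rw [hN]; exact ((hB.inter hA').union (hC.inter hA')).union (hC.inter hB')
  have memP : ∀ u, u ∈ P ↔ (u ∈ A ∧ u + 1 ∈ B) ∨ (u ∈ A ∧ u + 1 ∈ C) ∨ (u ∈ B ∧ u + 1 ∈ C) := by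
    intro u
    rw [hP]
    simp only [mem_union, mem_inter_iff, mem_ofPred_eq]
    tauto
  have memN : ∀ u, u ∈ N ↔ (u ∈ B ∧ u + 1 ∈ A) ∨ (u ∈ C ∧ u + 1 ∈ A) ∨ (u ∈ C ∧ u + 1 ∈ B) := by
    intro u
    rw [hN]
    simp only [mem_union, mem_inter_iff, mem_ofPred_eq]
    tauto
  have hcov2 : ∀ u, u ∈ P ∨ u ∈ N := by
    intro u
    rw [memP, memN]
    by_contra hcon
    rw [not_or] at hcon
    obtain ⟨hp, hn⟩ := hcon
    rcases hcov u with k | k | k
    · have k1 : u + 1 ∉ B := fun h => hp (Or.inl ⟨k, h⟩)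
      have k2 : u + 1 ∉ C := fun h => hp (Or.inr (Or.inl ⟨k, h⟩))
      have k3 : u + 1 ∈ A := by
        rcases hcov (u + 1) with h | h | h
        · exact h
        · exact absurd h k1
        · exact absurd h k2
      exact fA u k (fun h => hn (Or.inl ⟨h, k3⟩)) (fun h => hn (Or.inr (Or.inl ⟨h, k3⟩))) k3
    · have k1 : u + 1 ∉ A := fun h => hn (Or.inl ⟨k, h⟩)
      have k2 : u + 1 ∉ C := fun h => hp (Or.inr (Or.inr ⟨k, h⟩))
      have k3 : u + 1 ∈ B := by
        rcases hcov (u + 1) with h | h | h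
        · exact absurd h k1
        · exact h
        · exact absurd h k2
      exact fB u k (fun h => hp (Or.inl ⟨h, k3⟩)) (fun h => hn (Or.inr (Or.inr ⟨h, k3⟩))) k3
    · have k1 : u + 1 ∉ A := fun h => hn (Or.inr (Or.inl ⟨k, h⟩))
      have k2 : u + 1 ∉ B := fun h => hn (Or.inr (Or.inr ⟨k, h⟩))
      have k3 : u + 1 ∈ C := by
        rcases hcov (u + 1) with h | h | h
        · exact absurd h k1
        · exact absurd h k2
        · exact h
      exact fC u k (fun h => hp (Or.inr (Or.inl ⟨h, k3⟩))) (fun h => hp (Or.inr (Or.inr ⟨h, k3⟩)))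
        k3
  have hdis : ∀ u, u ∈ P → u ∉ N := by
    intro u
    rw [memP, memN]
    rintro (⟨k1, k2⟩ | ⟨k1, k2⟩ | ⟨k1, k2⟩) (⟨k3, k4⟩ | ⟨k3, k4⟩ | ⟨k3, k4⟩)
    · exact h01 u k1 k3 k4 k2
    · exact h02 u k1 k3
    · exact h02 u k1 k3
    · exact h02 (u + 1) k4 k2
    · exact h02 (u + 1) k4 k2
    · exact h02 u k1 k3
    · exact h02 (u + 1) k4 k2
    · exact h02 (u + 1) k4 k2
    · exact h12 u k1 k3 k4 k2
  -- one of the two sets is empty
  have hone : (∀ u, u ∉ N) ∨ ∀ u, u ∉ P := by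
    by_contra hcon
    rw [not_or] at hcon
    push Not at hcon
    obtain ⟨⟨u, hu⟩, v, hv⟩ := hcon
    obtain ⟨x, -, hx1, hx2⟩ := isPreconnected_closed_iff.1 (isPreconnected_univ (α := ℝ)) P N hPc
      hNc (fun x _ => hcov2 x) ⟨v, mem_univ _, hv⟩ ⟨u, mem_univ _, hu⟩
    exact hdis x hx1 hx2
  rcases hone with h1 | h1
  · have k1 : ∀ u, u ∉ C := by
      intro u hu
      have k2 : u + 1 ∉ A := fun h => h1 u ((memN u).2 (Or.inr (Or.inl ⟨hu, h⟩)))
      have k3 : u + 1 ∉ B := fun h => h1 u ((memN u).2 (Or.inr (Or.inr ⟨hu, h⟩)))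
      rcases hcov (u + 1) with h | h | h
      · exact k2 h
      · exact k3 h
      · exact bC u h k2 k3 hu
    have k5 : ∀ u, u ∉ B := by
      intro u hu
      have k2 : u + 1 ∉ A := fun h => h1 u ((memN u).2 (Or.inl ⟨hu, h⟩))
      rcases hcov (u + 1) with h | h | h
      · exact k2 h
      · exact bB u h k2 (k1 _) hu
      · exact k1 _ h
    have k6 : ∀ u, u ∈ A := by
      intro u
      rcases hcov u with h | h | h
      · exact h
      · exact absurd h (k5 u)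
      · exact absurd h (k1 u)
    exact fA 0 (k6 0) (k5 0) (k1 0) (k6 _)
  · have k1 : ∀ u, u ∉ A := by
      intro u hu
      have k2 : u + 1 ∉ B := fun h => h1 u ((memP u).2 (Or.inl ⟨hu, h⟩))
      have k3 : u + 1 ∉ C := fun h => h1 u ((memP u).2 (Or.inr (Or.inl ⟨hu, h⟩)))
      rcases hcov (u + 1) with h | h | h
      · exact bA u h k2 k3 hu
      · exact k2 h
      · exact k3 h
    have k5 : ∀ u, u ∉ B := by
      intro u hu
      have k2 : u + 1 ∉ C := fun h => h1 u ((memP u).2 (Or.inr (Or.inr ⟨hu, h⟩)))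
      rcases hcov (u + 1) with h | h | h
      · exact k1 _ h
      · exact bB u h (k1 _) k2 hu
      · exact k2 h
    have k6 : ∀ u, u ∈ C := by
      intro u
      rcases hcov u with h | h | h
      · exact absurd h (k1 u)
      · exact absurd h (k5 u)
      · exact h
    exact fC 0 (k6 0) (k1 0) (k5 0) (k6 _)

namespace Irr

variable {U : Fin 6 → Set ℂ} {T : ℂ → Set (Fin 6)}

/-- monotone conditions on the palette are closed on the circle -/
theorem closed_mono555 (h : Irr U T) (z : ℂ) {Φ : Set (Fin 6) → Prop}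
    (hΦ : ∀ S S', S ⊆ S' → Φ S → Φ S') : IsClosed {u : ℝ | Φ (T (pt z u))} := by
  rw [← isOpen_compl_iff, isOpen_iff_mem_nhds]
  intro u hu
  filter_upwards [(continuous_pt z).continuousAt.eventually (h.nhd (pt z u))] with v hv
  exact fun hc => hu (hΦ _ _ hv hc)

/-- **Level lemma.** -/
theorem no_level (h : Irr U T) {z : ℂ} {f : Fin 6} {A D : Set (Fin 6)} (hz : T z = A ∪ D)
    (hAD : Disjoint A D) (hA3 : A.ncard = 3) (hD2 : D.ncard = 2) (hf : f ∉ T z)
    (h3 : ∀ y, dist y z = 1 → (T y).ncard ≤ 3)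
    (hM : ∀ y, dist y z = 1 → (T y).ncard = 2 → T y ⊆ T z → T y ⊆ A ∨ T y ⊆ D) : False := by
  have hz5 : (T z).ncard = 5 := by
    rw [hz, Set.ncard_union_eq hAD (Set.toFinite _) (Set.toFinite _), hA3, hD2]
  have hfA : f ∉ A := fun h1 => hf (by rw [hz]; exact Or.inl h1)
  have hfD : f ∉ D := fun h1 => hf (by rw [hz]; exact Or.inr h1)
  have hfull : ∀ i, i = f ∨ i ∈ T z := by
    intro i
    have h1 : (insert f (T z)).ncard = 6 := by
      rw [Set.ncard_insert_of_notMem hf (Set.toFinite _), hz5]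
    have h2 : insert f (T z) = univ := by
      refine Set.eq_of_subset_of_ncard_le (subset_univ _) ?_ (Set.toFinite _)
      rw [h1, Set.ncard_univ, Nat.card_eq_fintype_card, Fintype.card_fin]
    have h3 : i ∈ insert f (T z) := by rw [h2]; exact mem_univ _
    exact h3
  have hsubz : ∀ S : Set (Fin 6), f ∉ S → S ⊆ T z := by
    intro S hS i hi
    rcases hfull i with h1 | h1
    · exact absurd (h1 ▸ hi) hS
    · exact h1
  have hcard : ∀ S : Set (Fin 6), f ∉ S → S.ncard = (S ∩ A).ncard + (S ∩ D).ncard := by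
    intro S hS
    have h1 : S = (S ∩ A) ∪ (S ∩ D) := by
      rw [← Set.inter_union_distrib_left, ← hz]
      exact (Set.inter_eq_left.2 (hsubz S hS)).symm
    have h2 : Disjoint (S ∩ A) (S ∩ D) :=
      hAD.mono inter_subset_right inter_subset_right
    calc S.ncard = ((S ∩ A) ∪ (S ∩ D)).ncard := by rw [← h1]
      _ = _ := Set.ncard_union_eq h2 (Set.toFinite _) (Set.toFinite _)
  have hDsub : ∀ S : Set (Fin 6), 2 ≤ (S ∩ D).ncard → D ⊆ S := by
    intro S hS
    have h1 : S ∩ D = D := Set.eq_of_subset_of_ncard_le inter_subset_right (by omega)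
      (Set.toFinite _)
    rw [← h1]; exact inter_subset_left
  -- classification
  have hcls : ∀ y, dist y z = 1 → f ∉ T y → 2 ≤ (T y ∩ A).ncard ∨ D ⊆ T y := by
    intro y hy hfy
    have h1 := h3 y hy
    have h2 := hcard _ hfy
    have h4 : 2 ≤ (T y).ncard := by
      have h5 : 0 < (T y).ncard := (Set.ncard_pos (Set.toFinite _)).2 (h.ne y)
      by_contra hcon
      have h6 : (T y).ncard = 1 := by omega
      obtain ⟨m, hm⟩ := Set.ncard_eq_one.1 h6
      have hmz : m ∈ T z := hsubz _ hfy (by rw [hm]; exact mem_singleton _)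
      exact h.mx.notMem' (h.mem_of_single (by rw [hm])) hy (h.sub z hmz)
    by_cases h5 : (T y).ncard = 2
    · rcases hM y hy h5 (hsubz _ hfy) with h6 | h6
      · left
        rw [Set.inter_eq_left.2 h6]; omega
      · right
        refine hDsub _ ?_
        rw [Set.inter_eq_left.2 h6]; omega
    · by_cases h6 : 2 ≤ (T y ∩ A).ncard
      · exact Or.inl h6
      · exact Or.inr (hDsub _ (by omega))
  have hmono : ∀ S S' : Set (Fin 6), S ⊆ S' → (S ∩ A).ncard ≤ (S' ∩ A).ncard := fun S S' h1 =>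
    Set.ncard_le_ncard (inter_subset_inter_left _ h1) (Set.toFinite _)
  -- the three exclusion rules
  have nA : ∀ y y', dist y z = 1 → dist y' z = 1 → dist y y' = 1 → 2 ≤ (T y ∩ A).ncard →
      f ∉ T y → ¬ D ⊆ T y → ¬ 2 ≤ (T y' ∩ A).ncard := by
    intro y y' hy hy' hyy h1 h2 h4 h5
    by_cases h6 : (T y ∩ A).ncard = 2
    · have hJ : ∀ s ∈ T y ∩ A, ∀ᶠ q in 𝓝[sphere z 1] y, s ∈ T q := by
        intro s hs
        filter_upwards [mem_nhdsWithin_of_mem_nhds (h.nhd y), self_mem_nhdsWithin] with q k1 k2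
        have k3 : 2 ≤ (T q ∩ A).ncard := by
          rcases hcls q k2 (fun k4 => h2 (k1 k4)) with k5 | k5
          · exact k5
          · exact absurd (k5.trans k1) h4
        have k4 : T q ∩ A = T y ∩ A := Set.eq_of_subset_of_ncard_le
          (inter_subset_inter_left _ k1) (by omega) (Set.toFinite _)
        have k5 : s ∈ T q ∩ A := by rw [k4]; exact hs
        exact k5.1
      have hno : ∀ s ∈ T y ∩ A, s ∉ T y' := fun s hs => arc_free h hy (hJ s hs) hy' hyy
      have h7 : Disjoint (T y ∩ A) (T y' ∩ A) := by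
        rw [Set.disjoint_left]
        exact fun s hs hs' => hno s hs hs'.1
      have h8 := Set.ncard_union_eq h7 (Set.toFinite _) (Set.toFinite _)
      have h9 : (T y ∩ A ∪ T y' ∩ A).ncard ≤ A.ncard :=
        Set.ncard_le_ncard (union_subset inter_subset_right inter_subset_right) (Set.toFinite _)
      omega
    · have h7 : (T y ∩ A).ncard ≤ A.ncard :=
        Set.ncard_le_ncard inter_subset_right (Set.toFinite _)
      have h8 : T y ∩ A = A := Set.eq_of_subset_of_ncard_le inter_subset_right (by omega)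
        (Set.toFinite _)
      obtain ⟨s, t, hs, ht, hst⟩ := Set.one_lt_ncard_iff (Set.toFinite _) |>.1
        (show 1 < (T y' ∩ A).ncard by omega)
      have hsy : s ∈ T y ∩ A := by rw [h8]; exact hs.2
      have hty : t ∈ T y ∩ A := by rw [h8]; exact ht.2
      exact hst (common_le_one h (by omega) hy hy' hyy (h3 y hy) (h3 y' hy') hsy.1 hs.1 hty.1 ht.1)
  have nB : ∀ y y', dist y z = 1 → dist y' z = 1 → dist y y' = 1 → f ∈ T y →
      ¬ 2 ≤ (T y ∩ A).ncard → ¬ D ⊆ T y → f ∉ T y' := by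
    intro y y' hy hy' hyy h1 h2 h4
    refine arc_free h hy ?_ hy' hyy
    filter_upwards [mem_nhdsWithin_of_mem_nhds (h.nhd y), self_mem_nhdsWithin] with q k1 k2
    by_contra hcon
    rcases hcls q k2 hcon with k5 | k5
    · exact h2 (k5.trans (hmono _ _ k1))
    · exact h4 (k5.trans k1)
  have nC : ∀ y y', dist y z = 1 → dist y' z = 1 → dist y y' = 1 → D ⊆ T y →
      ¬ 2 ≤ (T y ∩ A).ncard → f ∉ T y → ¬ D ⊆ T y' := by
    intro y y' hy hy' hyy h1 h2 h4 h5
    obtain ⟨d, hd⟩ : D.Nonempty := by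
      rw [← Set.ncard_pos (Set.toFinite _)]; omega
    refine arc_free h hy (t := d) ?_ hy' hyy (h5 hd)
    filter_upwards [mem_nhdsWithin_of_mem_nhds (h.nhd y), self_mem_nhdsWithin] with q k1 k2
    rcases hcls q k2 (fun k4 => h4 (k1 k4)) with k5 | k5
    · exact absurd (k5.trans (hmono _ _ k1)) h2
    · exact k5 hd
  have n01 : ∀ y y', dist y z = 1 → dist y' z = 1 → dist y y' = 1 → 2 ≤ (T y ∩ A).ncard →
      f ∈ T y → 2 ≤ (T y' ∩ A).ncard → f ∉ T y' := by
    intro y y' hy hy' hyy h1 h2 h4 h5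
    have h6 : ¬ Disjoint (T y ∩ A) (T y' ∩ A) := by
      intro h7
      have h8 := Set.ncard_union_eq h7 (Set.toFinite _) (Set.toFinite _)
      have h9 : (T y ∩ A ∪ T y' ∩ A).ncard ≤ A.ncard :=
        Set.ncard_le_ncard (union_subset inter_subset_right inter_subset_right) (Set.toFinite _)
      omega
    obtain ⟨s, hs, hs'⟩ := Set.not_disjoint_iff.1 h6
    have h7 := common_le_one h (by omega) hy hy' hyy (h3 y hy) (h3 y' hy') hs.1 hs'.1 h2 h5
    exact hfA (h7 ▸ hs.2)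
  have n12 : ∀ y y', dist y z = 1 → dist y' z = 1 → dist y y' = 1 → D ⊆ T y → ¬ D ⊆ T y' := by
    intro y y' hy hy' hyy h1 h2
    obtain ⟨s, t, hs, ht, hst⟩ := Set.one_lt_ncard_iff (Set.toFinite _) |>.1
      (show 1 < D.ncard by omega)
    exact hst (common_le_one h (by omega) hy hy' hyy (h3 y hy) (h3 y' hy') (h1 hs) (h2 hs) (h1 ht)
      (h2 ht))
  have n02 : ∀ y, dist y z = 1 → 2 ≤ (T y ∩ A).ncard → ¬ D ⊆ T y := by
    intro y hy h1 h2
    have h4 : Disjoint (T y ∩ A) D := hAD.mono_left inter_subset_right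
    have h5 := Set.ncard_union_eq h4 (Set.toFinite _) (Set.toFinite _)
    have h6 : (T y ∩ A ∪ D).ncard ≤ (T y).ncard :=
      Set.ncard_le_ncard (union_subset inter_subset_left h2) (Set.toFinite _)
    have h7 := h3 y hy
    omega
  have hd1 : ∀ u, dist (pt z u) z = 1 := dist_pt z
  have hd2 : ∀ u, dist (pt z u) (pt z (u + 1)) = 1 := dist_pt_one z
  have hd3 : ∀ u, dist (pt z (u + 1)) (pt z u) = 1 := fun u => by rw [dist_comm]; exact hd2 u
  refine level555 (A := {u : ℝ | 2 ≤ (T (pt z u) ∩ A).ncard}) (B := {u : ℝ | f ∈ T (pt z u)})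
    (C := {u : ℝ | D ⊆ T (pt z u)})
    (h.closed_mono555 z (Φ := fun S => 2 ≤ (S ∩ A).ncard) fun S S' k1 k2 =>
      k2.trans (hmono _ _ k1))
    (h.closed_mono555 z (Φ := fun S => f ∈ S) fun S S' k1 k2 => k1 k2)
    (h.closed_mono555 z (Φ := fun S => D ⊆ S) fun S S' k1 k2 => k2.trans k1)
    ?_ ?_ ?_ ?_ ?_ ?_ ?_ ?_ ?_ ?_
  · intro u
    by_cases k : f ∈ T (pt z u)
    · exact Or.inr (Or.inl k)
    · rcases hcls _ (hd1 u) k with k1 | k1
      · exact Or.inl k1
      · exact Or.inr (Or.inr k1)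
  · exact fun u k1 k2 k4 => nA _ _ (hd1 u) (hd1 _) (hd2 u) k1 k2 k4
  · exact fun u k1 k2 k4 => nB _ _ (hd1 u) (hd1 _) (hd2 u) k1 k2 k4
  · exact fun u k1 k2 k4 => nC _ _ (hd1 u) (hd1 _) (hd2 u) k1 k2 k4
  · exact fun u k1 k2 k4 => nA _ _ (hd1 _) (hd1 u) (hd3 u) k1 k2 k4
  · exact fun u k1 k2 k4 => nB _ _ (hd1 _) (hd1 u) (hd3 u) k1 k2 k4
  · exact fun u k1 k2 k4 => nC _ _ (hd1 _) (hd1 u) (hd3 u) k1 k2 k4
  · exact fun u k1 k2 k4 k5 => n01 _ _ (hd1 u) (hd1 _) (hd2 u) k1 k2 k4 k5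
  · exact fun u _ k2 _ k5 => n12 _ _ (hd1 u) (hd1 _) (hd2 u) k2 k5
  · exact fun u k1 k2 => n02 _ (hd1 u) k1 k2

end Irr

end Vale.Agent.P032.Six
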