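import Vale.Agent.P032.S5.H555.Cut
import Vale.Agent.P032.S5.H555.Level
import Vale.Agent.P032.S5.H555.Graph

/-!
# P032: the broken pairs of a five-coloured point are diagonals of a pentagon

`Irr.penta`: `|T z| = 5`, all palettes of the unit circle about `z` with at most three colours: the
colours of `z` have a cyclic order `c` such that every pair of colours of `z` on the unit circle is
`{c i, c (i + 2)}`.
-/

open Set Filter Topology Metric

noncomputable section

namespace Vale.Agent.P032.Six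

namespace Irr

variable {U : Fin 6 → Set ℂ} {T : ℂ → Set (Fin 6)}

theorem six_of_five555 {i j k l a b : Fin 5} (h1 : i ≠ j) (h2 : i ≠ k) (h3 : i ≠ l) (h4 : i ≠ a)
    (h5 : i ≠ b) (h6 : j ≠ k) (h7 : j ≠ l) (h8 : j ≠ a) (h9 : j ≠ b) (h10 : k ≠ l) (h11 : k ≠ a)
    (h12 : k ≠ b) (h13 : l ≠ a) (h14 : l ≠ b) (h15 : a ≠ b) : False := by
  have h : ({i, j, k, l, a, b} : Finset (Fin 5)).card = 6 := by
    rw [Finset.card_insert_of_notMem (by simp [h1, h2, h3, h4, h5]),
      Finset.card_insert_of_notMem (by simp [h6, h7, h8, h9]),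
      Finset.card_insert_of_notMem (by simp [h10, h11, h12]),
      Finset.card_insert_of_notMem (by simp [h13, h14]), Finset.card_pair h15]
  have h' := Finset.card_le_univ ({i, j, k, l, a, b} : Finset (Fin 5))
  rw [h, Fintype.card_fin] at h'
  omega

/-- **The graph of the broken pairs of a five-coloured point.** -/
theorem penta (h : Irr U T)
    (hmin : ∀ z, 4 ≤ (T z).ncard → ∀ s, s ⊆ T z → s ≠ T z →
      ¬ ∀ᶠ w in 𝓝 z, ∃ i ∈ s, w ∈ U i ∨ (w ∈ XX U ∧ i ∈ Pal U w)) {z : ℂ}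
    (h5 : (T z).ncard = 5) (h3 : ∀ y, dist y z = 1 → (T y).ncard ≤ 3) :
    ∃ c : Fin 5 → Fin 6, Function.Injective c ∧ T z = range c ∧
      ∀ q, dist q z = 1 → (T q).ncard = 2 → T q ⊆ T z → ∃ i, T q = {c i, c (i + 2)} := by
  have hcard : Nat.card (T z) = 5 := by rw [Nat.card_coe_set_eq]; exact h5
  obtain ⟨e⟩ : Nonempty (T z ≃ Fin 5) := ⟨Finite.equivFinOfCardEq hcard⟩
  obtain ⟨g, hg⟩ : ∃ g : Fin 5 → Fin 6, g = fun i => (e.symm i).val := ⟨_, rfl⟩
  have hginj : Function.Injective g := by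
    rw [hg]
    intro i j hij
    exact e.symm.injective (Subtype.ext hij)
  have hgr : T z = range g := by
    rw [hg]
    ext x
    constructor
    · intro hx
      exact ⟨e ⟨x, hx⟩, by simp⟩
    · rintro ⟨i, rfl⟩
      exact (e.symm i).2
  have hgz : ∀ i, g i ∈ T z := fun i => by rw [hgr]; exact mem_range_self i
  obtain ⟨P, hP⟩ : ∃ P : Fin 5 → Fin 5 → Prop, P = fun i j => i ≠ j ∧
      ∃ q, dist q z = 1 ∧ T q = {g i, g j} := ⟨_, rfl⟩
  have hPi : ∀ i j, P i j ↔ i ≠ j ∧ ∃ q, dist q z = 1 ∧ T q = {g i, g j} := by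
    intro i j; rw [hP]
  have symm : ∀ i j, P i j → P j i := by
    intro i j hij
    rw [hPi] at hij ⊢
    obtain ⟨h1, q, h2, h4⟩ := hij
    exact ⟨h1.symm, q, h2, by rw [h4, Set.pair_comm]⟩
  have irr : ∀ i, ¬ P i i := by
    intro i hii
    rw [hPi] at hii
    exact hii.1 rfl
  have deg : ∀ i j k l, P i j → P i k → P i l → j = k ∨ k = l ∨ j = l := by
    intro i j k l h1 h2 h4
    by_contra hcon
    rw [not_or, not_or] at hcon
    obtain ⟨hjk, hkl, hjl⟩ := hcon
    rw [hPi] at h1 h2 h4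
    obtain ⟨hij, q1, hq1, hT1⟩ := h1
    obtain ⟨hik, q2, hq2, hT2⟩ := h2
    obtain ⟨hil, q3, hq3, hT3⟩ := h4
    obtain ⟨d, e', hd, he, hdi, hei, hde, hdq, heq⟩ := h.two_contacts hmin (by omega) (hgz i)
    rw [hgr] at hd he
    obtain ⟨a, rfl⟩ := hd
    obtain ⟨b, rfl⟩ := he
    refine six_of_five555 hij hik hil (a := a) (b := b) (fun h1 => hdi (by rw [h1]))
      (fun h1 => hei (by rw [h1])) hjk hjl ?_ ?_ hkl ?_ ?_ ?_ ?_ (fun h1 => hde (by rw [h1]))
    · rintro rfl; exact hdq q1 hq1 hT1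
    · rintro rfl; exact heq q1 hq1 hT1
    · rintro rfl; exact hdq q2 hq2 hT2
    · rintro rfl; exact heq q2 hq2 hT2
    · rintro rfl; exact hdq q3 hq3 hT3
    · rintro rfl; exact heq q3 hq3 hT3
  obtain ⟨s, hs, hcase⟩ := Words.G555.graph5 symm irr deg
  have hss : Function.Surjective s := Finite.surjective_of_injective hs
  obtain ⟨c, hc⟩ : ∃ c : Fin 5 → Fin 6, c = fun i => g (s i) := ⟨_, rfl⟩
  have hci : ∀ i, c i = g (s i) := fun i => by rw [hc]
  have hcinj : Function.Injective c := by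
    intro i j hij
    rw [hci, hci] at hij
    exact hs (hginj hij)
  have hcr : T z = range c := by
    rw [hgr]
    ext x
    constructor
    · rintro ⟨i, rfl⟩
      obtain ⟨j, rfl⟩ := hss i
      exact ⟨j, hci j⟩
    · rintro ⟨i, rfl⟩
      exact ⟨s i, (hci i).symm⟩
  have hcz : ∀ i, c i ∈ T z := fun i => by rw [hcr]; exact mem_range_self i
  have hPc : ∀ i j, P (s i) (s j) ↔ i ≠ j ∧ ∃ q, dist q z = 1 ∧ T q = {c i, c j} := by
    intro i j
    rw [hPi, ← hci, ← hci]
    exact and_congr_left fun _ => hs.ne_iff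
  have hpair : ∀ q, (T q).ncard = 2 → T q ⊆ T z → ∃ i j, i ≠ j ∧ T q = {c i, c j} := by
    intro q h1 h2
    obtain ⟨x, y, hxy, hTq⟩ := Set.ncard_eq_two.1 h1
    have hx : x ∈ T z := h2 (by rw [hTq]; simp)
    have hy : y ∈ T z := h2 (by rw [hTq]; simp)
    rw [hcr] at hx hy
    obtain ⟨i, rfl⟩ := hx
    obtain ⟨j, rfl⟩ := hy
    exact ⟨i, j, fun h4 => hxy (by rw [h4]), hTq⟩
  have hmem5 : ∀ x, x ∈ T z → x = c 0 ∨ x = c 1 ∨ x = c 2 ∨ x = c 3 ∨ x = c 4 := by
    intro x hx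
    rw [hcr] at hx
    obtain ⟨i, rfl⟩ := hx
    have : i = 0 ∨ i = 1 ∨ i = 2 ∨ i = 3 ∨ i = 4 := by
      have : ∀ i : Fin 5, i = 0 ∨ i = 1 ∨ i = 2 ∨ i = 3 ∨ i = 4 := by decide
      exact this i
    rcases this with rfl | rfl | rfl | rfl | rfl
    · exact Or.inl rfl
    · exact Or.inr (Or.inl rfl)
    · exact Or.inr (Or.inr (Or.inl rfl))
    · exact Or.inr (Or.inr (Or.inr (Or.inl rfl)))
    · exact Or.inr (Or.inr (Or.inr (Or.inr rfl)))
  rcases hcase with hcase | hcase | hcase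
  · -- the pentagon
    refine ⟨c, hcinj, hcr, fun q hq h1 h2 => ?_⟩
    obtain ⟨i, j, hij, hTq⟩ := hpair q h1 h2
    have hfin : ∀ i j : Fin 5, i ≠ j → j = i + 1 ∨ i = j + 1 ∨ j = i + 2 ∨ i = j + 2 := by decide
    rcases hfin i j hij with rfl | rfl | rfl | rfl
    · exact absurd ((hPc _ _).2 ⟨hij, q, hq, hTq⟩) (hcase i)
    · refine absurd ((hPc _ _).2 ⟨hij.symm, q, hq, ?_⟩) (hcase j)
      rw [hTq, Set.pair_comm]
    · exact ⟨i, hTq⟩
    · exact ⟨j, by rw [hTq, Set.pair_comm]⟩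
  · -- the four cycle
    exfalso
    obtain ⟨h01, h12, h23, h30⟩ := hcase
    rw [hPc] at h01 h12 h23 h30
    refine h.no_cut hmin (z := z) (x := c 4) (A := {c 0, c 2}) (B := {c 1, c 3}) (by omega) ?_ ?_ ?_
      ?_ ⟨c 0, Or.inl rfl⟩ ⟨c 1, Or.inl rfl⟩ ?_ ?_
    · ext x
      constructor
      · intro hx
        rcases hmem5 x hx with rfl | rfl | rfl | rfl | rfl <;> simp
      · rintro (rfl | (rfl | rfl) | (rfl | rfl)) <;> exact hcz _
    · simp [hcinj.eq_iff]
    · simp [hcinj.eq_iff]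
    · rw [Set.disjoint_left]
      rintro x (rfl | rfl) <;> simp [hcinj.eq_iff]
    · exact (Set.ncard_insert_le _ _).trans (by rw [Set.ncard_singleton])
    · rintro a (rfl | rfl) b (rfl | rfl)
      · exact h01.2
      · obtain ⟨-, q, hq, hTq⟩ := h30
        exact ⟨q, hq, by rw [hTq, Set.pair_comm]⟩
      · obtain ⟨-, q, hq, hTq⟩ := h12
        exact ⟨q, hq, by rw [hTq, Set.pair_comm]⟩
      · exact h23.2
  · -- triangle and edge
    exfalso
    obtain ⟨f, hf⟩ : ∃ f, f ∉ T z := by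
      by_contra hcon
      push Not at hcon
      have h1 : T z = univ := eq_univ_iff_forall.2 hcon
      rw [h1, Set.ncard_univ, Nat.card_eq_fintype_card, Fintype.card_fin] at h5
      omega
    have h01 : c 0 ≠ c 1 := fun h1 => absurd (hcinj h1) (by decide)
    have h02 : c 0 ≠ c 2 := fun h1 => absurd (hcinj h1) (by decide)
    have h12 : c 1 ≠ c 2 := fun h1 => absurd (hcinj h1) (by decide)
    have h34 : c 3 ≠ c 4 := fun h1 => absurd (hcinj h1) (by decide)
    refine h.no_level (z := z) (f := f) (A := {c 0, c 1, c 2}) (D := {c 3, c 4}) ?_ ?_ ?_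
      (Set.ncard_pair h34) hf h3 ?_
    · ext x
      constructor
      · intro hx
        rcases hmem5 x hx with rfl | rfl | rfl | rfl | rfl <;> simp
      · rintro ((rfl | rfl | rfl) | (rfl | rfl)) <;> exact hcz _
    · rw [Set.disjoint_left]
      rintro x (rfl | rfl | rfl) <;> simp [hcinj.eq_iff]
    · rw [Set.ncard_insert_of_notMem (by simp [h01, h02]), Set.ncard_pair h12]
    · intro y hy h1 h2
      obtain ⟨i, j, hij, hTq⟩ := hpair y h1 h2
      have hlow : ∀ i : Fin 5, i.val < 3 → c i ∈ ({c 0, c 1, c 2} : Set (Fin 6)) := by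
        intro i hi
        have : ∀ i : Fin 5, i.val < 3 → i = 0 ∨ i = 1 ∨ i = 2 := by decide
        rcases this i hi with rfl | rfl | rfl <;> simp
      have hhigh : ∀ i : Fin 5, ¬ i.val < 3 → i = 3 ∨ i = 4 := by decide
      by_cases hi : i.val < 3
      · by_cases hj : j.val < 3
        · left
          rw [hTq]
          rintro x (rfl | rfl)
          · exact hlow i hi
          · exact hlow j hj
        · exfalso
          obtain ⟨k1, k2⟩ := hcase i hi
          rcases hhigh j hj with rfl | rfl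
          · exact k1 ((hPc _ _).2 ⟨hij, y, hy, hTq⟩)
          · exact k2 ((hPc _ _).2 ⟨hij, y, hy, hTq⟩)
      · by_cases hj : j.val < 3
        · exfalso
          obtain ⟨k1, k2⟩ := hcase j hj
          rcases hhigh i hi with rfl | rfl
          · exact k1 ((hPc _ _).2 ⟨hij.symm, y, hy, by rw [hTq, Set.pair_comm]⟩)
          · exact k2 ((hPc _ _).2 ⟨hij.symm, y, hy, by rw [hTq, Set.pair_comm]⟩)
        · right
          rw [hTq]
          rintro x (rfl | rfl)
          · rcases hhigh i hi with rfl | rfl <;> simp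
          · rcases hhigh j hj with rfl | rfl <;> simp

/-- 450's form: no two points with four colours at distance one -/
theorem pent (h : Irr U T)
    (hmin : ∀ z, 4 ≤ (T z).ncard → ∀ s, s ⊆ T z → s ≠ T z →
      ¬ ∀ᶠ w in 𝓝 z, ∃ i ∈ s, w ∈ U i ∨ (w ∈ XX U ∧ i ∈ Pal U w))
    (hu : ∀ z z', 4 ≤ (T z).ncard → 4 ≤ (T z').ncard → dist z z' ≠ 1) {z : ℂ}
    (h5 : (T z).ncard = 5) :
    ∃ c : Fin 5 → Fin 6, Function.Injective c ∧ T z = range c ∧
      ∀ q, dist q z = 1 → (T q).ncard = 2 → T q ⊆ T z → ∃ i, T q = {c i, c (i + 2)} := by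
  refine h.penta hmin h5 fun y hy => ?_
  by_contra hcon
  exact hu y z (by omega) (by omega) hy

end Irr

end Vale.Agent.P032.Six
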