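import Vale.Agent.P032.S5.H555.PairCut2

/-!
# P032: the chord rule (wild, static)

Antipodal points `q`, `q'` of the unit circle about a six-coloured point `z` with two colours each:
there are colours `l`, `m` outside both palettes which are separated, in the contact graph of `z`,
by `T q` whenever `T q` is a cut, and by `T q'` whenever `T q'` is a cut.
-/

open Set Filter Topology Metric

noncomputable section

namespace Vale.Agent.P032.Six

/-- `l` and `m` are on different sides of every splitting of the complement of `P` into two parts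
without contact -/
def Sp {k : ℕ} (T : ℂ → Set (Fin k)) (z : ℂ) (P : Set (Fin k)) (l m : Fin k) : Prop :=
  ∀ X Y : Set (Fin k), X ∪ Y = Pᶜ → Disjoint X Y → X.Nonempty → Y.Nonempty →
    (∀ x ∈ X, ∀ y ∈ Y, ∃ q, dist q z = 1 ∧ T q = {x, y}) → (l ∈ X ∧ m ∈ Y) ∨ (l ∈ Y ∧ m ∈ X)

namespace Irr

variable {k : ℕ} {U : Fin k → Set ℂ} {T : ℂ → Set (Fin k)}

/-- near `z` the points without the colours of `C` have colours in `A` only or in `B` only -/
theorem split_gen (h : Irr U T)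
    (hmin : ∀ z, 4 ≤ (T z).ncard → ∀ s, s ⊆ T z → s ≠ T z →
      ¬ ∀ᶠ w in 𝓝 z, ∃ i ∈ s, w ∈ U i ∨ (w ∈ XX U ∧ i ∈ Pal U w)) {z : ℂ}
    {A B C : Set (Fin k)} (hz : T z ⊆ C ∪ (A ∪ B)) (hA2 : A.ncard ≤ 2)
    (hbr : ∀ a ∈ A, ∀ b ∈ B, ∃ q, dist q z = 1 ∧ T q = {a, b}) :
    ∀ᶠ w in 𝓝 z, Disjoint C (T w) → T w ⊆ A ∨ T w ⊆ B := by
  have hbr' : ∀ a b, ∃ q, a ∈ A → b ∈ B → dist q z = 1 ∧ T q = {a, b} := by
    intro a b
    by_cases h1 : a ∈ A ∧ b ∈ B
    · obtain ⟨q, hq⟩ := hbr a h1.1 b h1.2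
      exact ⟨q, fun _ _ => hq⟩
    · exact ⟨0, fun h2 h3 => absurd ⟨h2, h3⟩ h1⟩
  choose q hq using hbr'
  have hnear : ∀ᶠ w in 𝓝 z, ∀ a b, a ∈ A → b ∈ B →
      T (q a b + (w - z)) ⊆ {a, b} ∧ (({a, b} : Set (Fin k)) ⊆ T w → 4 ≤ (T w).ncard) := by
    rw [eventually_all]
    intro a
    rw [eventually_all]
    intro b
    by_cases h1 : a ∈ A ∧ b ∈ B
    · obtain ⟨hq1, hq2⟩ := hq a b h1.1 h1.2
      have ht : Tendsto (fun w => q a b + (w - z)) (𝓝 z) (𝓝 (q a b)) := by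
        have hc : Continuous fun w : ℂ => q a b + (w - z) := by fun_prop
        have := hc.tendsto z
        simpa using this
      filter_upwards [ht.eventually (h.nhd (q a b)), h.no_layer hq1] with w h2 h3 _ _
      rw [hq2] at h2 h3
      exact ⟨h2, h3⟩
    · exact Eventually.of_forall fun w h2 h3 => absurd ⟨h2, h3⟩ h1
  filter_upwards [h.nhd z, hnear] with w h1 h2 hxw
  by_contra hcon
  rw [not_or] at hcon
  obtain ⟨b, hb, hbA⟩ := not_subset.1 hcon.1
  obtain ⟨a, ha, haB⟩ := not_subset.1 hcon.2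
  have hmem : ∀ i ∈ T w, i ∈ A ∨ i ∈ B := by
    intro i hi
    rcases hz (h1 hi) with h3 | h3
    · exact absurd hi (Set.disjoint_left.1 hxw h3)
    · exact h3
  have hbB : b ∈ B := (hmem b hb).resolve_left hbA
  have haA : a ∈ A := (hmem a ha).resolve_right haB
  have hab : a ≠ b := fun h3 => hbA (h3 ▸ haA)
  obtain ⟨-, h4⟩ := h2 a b haA hbB
  have h4w : 4 ≤ (T w).ncard := h4 (by rintro m (rfl | rfl) <;> assumption)
  have hwit : ∀ j ∈ T w, j ∈ B → ∃ p, dist p w = 1 ∧ T p = {a, j} := by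
    intro j hj hjB
    obtain ⟨h5, -⟩ := h2 a j haA hjB
    have hqw : dist (q a j + (w - z)) w = 1 := by
      have h6 := (hq a j haA hjB).1
      rw [dist_eq_norm] at h6 ⊢
      rw [← h6]; congr 1; ring
    exact ⟨_, hqw, h.pair_of_sub hqw (h.sub w ha) (h.sub w hj) h5⟩
  by_cases hcase : ∃ a' ∈ T w, a' ∈ A ∧ a' ≠ a
  · obtain ⟨a', ha', ha'A, hne⟩ := hcase
    refine h.degree hmin h4w ha ha' (Ne.symm hne) fun j hj hja hja' => hwit j hj ?_
    rcases hmem j hj with h7 | h7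
    · exfalso
      have h8 : ({a, a', j} : Set (Fin k)) ⊆ A := by
        rintro m (rfl | rfl | rfl) <;> assumption
      have h9 := Set.ncard_le_ncard h8 (Set.toFinite _)
      rw [Set.ncard_insert_of_notMem (by simp [hne.symm, hja.symm]),
        Set.ncard_pair (Ne.symm hja')] at h9
      omega
    · exact h7
  · push Not at hcase
    refine h.degree hmin h4w ha hb hab fun j hj hja _ => hwit j hj ?_
    rcases hmem j hj with h7 | h7
    · exact absurd (hcase j hj h7) hja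
    · exact h7

/-- the two rays orthogonal to `q - z` are free of the colours of `q` -/
theorem ray_free555 (h : Irr U T) {z q : ℂ} {a b : Fin k} (haz : a ∈ T z) (hbz : b ∈ T z)
    (hq : dist q z = 1) (hT : T q ⊆ {a, b}) {m : ℂ}
    (hm : m = Complex.I * (q - z) ∨ m = -(Complex.I * (q - z))) :
    ∀ᶠ t : ℝ in 𝓝[>] 0, a ∉ T (z + t * m) ∧ b ∉ T (z + t * m) := by
  have hn1 : ‖q - z‖ = 1 := by rw [← dist_eq_norm]; exact hq
  have hm1 : ‖m‖ = 1 := by
    rcases hm with rfl | rfl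
    · rw [norm_mul, Complex.norm_I, hn1, one_mul]
    · rw [norm_neg, norm_mul, Complex.norm_I, hn1, one_mul]
  have hcr1 := h.cross hq hT
  have hcr2 := h.cross hq (a := b) (b := a) (by rw [Set.pair_comm]; exact hT)
  obtain ⟨ε, ⟨he1, he2⟩, hε0⟩ := ((hcr1.and hcr2).and eventually_mem_nhdsWithin).exists
  have hε0 : 0 < ε := hε0
  filter_upwards [self_mem_nhdsWithin, mem_nhdsWithin_of_mem_nhds (Iio_mem_nhds hε0)] with t h1 h2
  have h1 : 0 < t := h1
  have h2 : t < ε := h2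
  have hd : dist (z + t * m) z = t := by
    rw [dist_eq_norm, add_sub_cancel_left, norm_mul, hm1, mul_one, Complex.norm_real,
      Real.norm_of_nonneg h1.le]
  have hne : z + t * m ≠ z := fun h3 => by rw [h3, dist_self] at hd; linarith
  have hip : ip (z - (z + t * m)) (q - z) = 0 := by
    rcases hm with rfl | rfl <;> · unfold ip; simp; ring
  constructor
  · intro h3
    have h4 := he1 _ z (by rw [hd]; exact h2) (by rw [dist_self]; exact hε0) h3 hbz hne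
    rw [hip, abs_zero, hd] at h4
    have := mul_pos hε0 h1
    linarith
  · intro h3
    have h4 := he2 _ z (by rw [hd]; exact h2) (by rw [dist_self]; exact hε0) h3 haz hne
    rw [hip, abs_zero, hd] at h4
    have := mul_pos hε0 h1
    linarith

/-- each ray orthogonal to `q - z` has one type -/
theorem ray_type555 (h : Irr U T) {z q : ℂ} {a b : Fin k} {X Y : Set (Fin k)}
    (hXY : Disjoint X Y) (haz : a ∈ T z) (hbz : b ∈ T z)
    (hsp : ∀ᶠ w in 𝓝 z, a ∉ T w → b ∉ T w → T w ⊆ X ∨ T w ⊆ Y) (hq : dist q z = 1)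
    (hT : T q ⊆ {a, b}) {m : ℂ}
    (hm : m = Complex.I * (q - z) ∨ m = -(Complex.I * (q - z))) :
    (∀ᶠ t : ℝ in 𝓝[>] 0, T (z + t * m) ⊆ X) ∨ ∀ᶠ t : ℝ in 𝓝[>] 0, T (z + t * m) ⊆ Y := by
  by_cases hfr : ∃ᶠ t : ℝ in 𝓝[>] 0, T (z + t * m) ⊆ X
  · left
    obtain ⟨c, hc, hc0⟩ := ((h.cone_type555 hXY haz hbz hsp hq hT hm hfr).and
      eventually_mem_nhdsWithin).exists
    have hc0 : 0 < c := hc0
    have hn1 : ‖q - z‖ = 1 := by rw [← dist_eq_norm]; exact hq
    have hm1 : ‖m‖ = 1 := by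
      rcases hm with rfl | rfl
      · rw [norm_mul, Complex.norm_I, hn1, one_mul]
      · rw [norm_neg, norm_mul, Complex.norm_I, hn1, one_mul]
    have hmm := ip_sq hm1
    filter_upwards [self_mem_nhdsWithin, mem_nhdsWithin_of_mem_nhds (Iio_mem_nhds hc0)] with t h1 h2
    have h1 : 0 < t := h1
    have h2 : t < c := h2
    have e1 : ip (z + t * m - z) m = t := by
      unfold ip
      simp
      linear_combination t * hmm
    refine hc _ ?_ ?_ ?_
    · rw [dist_eq_norm, add_sub_cancel_left, norm_mul, hm1, mul_one, Complex.norm_real,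
        Real.norm_of_nonneg h1.le]
      exact h2
    · rw [e1]; exact h1
    · have e2 : ip (z + t * m - z) (q - z) = 0 := by
        rcases hm with rfl | rfl <;> · unfold ip; simp; ring
      rw [e2, abs_zero, e1]
      positivity
  · right
    rw [Filter.not_frequently] at hfr
    have ht : Tendsto (fun t : ℝ => z + t * m) (𝓝[>] 0) (𝓝 z) := by
      have hcc : Continuous fun t : ℝ => z + (t : ℂ) * m := by fun_prop
      have h1 := (hcc.tendsto 0).mono_left (nhdsWithin_le_nhds (s := Ioi 0))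
      simpa using h1
    filter_upwards [hfr, h.ray_free555 haz hbz hq hT hm, ht.eventually hsp] with t h1 h2 h3
    exact (h3 h2.1 h2.2).resolve_left h1

/-- **the nappes of a cut pair have different types** -/
theorem nappes555 (h : Irr U T)
    (hmin : ∀ z, 4 ≤ (T z).ncard → ∀ s, s ⊆ T z → s ≠ T z →
      ¬ ∀ᶠ w in 𝓝 z, ∃ i ∈ s, w ∈ U i ∨ (w ∈ XX U ∧ i ∈ Pal U w)) {z q : ℂ} {a b : Fin k}
    {X Y : Set (Fin k)} (h4 : 4 ≤ (T z).ncard) (hab : a ≠ b) (hz : T z = {a, b} ∪ (X ∪ Y))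
    (haX : a ∉ X) (hbX : b ∉ X) (haY : a ∉ Y) (hbY : b ∉ Y) (hX : X.Nonempty) (hY : Y.Nonempty)
    (hXY : Disjoint X Y) (hX2 : X.ncard ≤ 2)
    (hbr : ∀ x ∈ X, ∀ y ∈ Y, ∃ q, dist q z = 1 ∧ T q = {x, y}) (hq : dist q z = 1)
    (hT : T q = {a, b}) :
    (∀ᶠ t : ℝ in 𝓝[>] 0, T (z + t * (Complex.I * (q - z))) ⊆ X ∧
      T (z + t * -(Complex.I * (q - z))) ⊆ Y) ∨
    ∀ᶠ t : ℝ in 𝓝[>] 0, T (z + t * (Complex.I * (q - z))) ⊆ Y ∧
      T (z + t * -(Complex.I * (q - z))) ⊆ X := by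
  have haz : a ∈ T z := by rw [hz]; exact Or.inl (Or.inl rfl)
  have hbz : b ∈ T z := by rw [hz]; exact Or.inl (Or.inr rfl)
  have hXz : X ⊆ T z := by rw [hz]; exact fun i hi => Or.inr (Or.inl hi)
  have hYz : Y ⊆ T z := by rw [hz]; exact fun i hi => Or.inr (Or.inr hi)
  have hsp : ∀ᶠ w in 𝓝 z, a ∉ T w → b ∉ T w → T w ⊆ X ∨ T w ⊆ Y := by
    filter_upwards [h.split_gen hmin (C := {a, b}) hz.subset hX2 hbr] with w h1 h2 h3
    refine h1 ?_
    rw [Set.disjoint_left]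
    rintro i (rfl | rfl)
    · exact h2
    · exact h3
  have hsp' : ∀ᶠ w in 𝓝 z, a ∉ T w → b ∉ T w → T w ⊆ Y ∨ T w ⊆ X :=
    hsp.mono fun w h1 h2 h3 => (h1 h2 h3).symm
  have hr1 := h.ray_type555 hXY haz hbz hsp hq hT.subset (Or.inl rfl)
  have hr2 := h.ray_type555 hXY haz hbz hsp hq hT.subset (Or.inr rfl)
  rcases hr1 with hr1 | hr1
  · rcases hr2 with hr2 | hr2
    · exact (h.pair_cut hmin h4 haz hbz hab haY hbY hYz hY hXY hsp hq hT hr1.frequently
        hr2.frequently).elim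
    · exact Or.inl (hr1.and hr2)
  · rcases hr2 with hr2 | hr2
    · exact Or.inr (hr1.and hr2)
    · exact (h.pair_cut hmin h4 haz hbz hab haX hbX hXz hX hXY.symm hsp' hq hT hr1.frequently
        hr2.frequently).elim

end Irr

namespace Irr

variable {U : Fin 6 → Set ℂ} {T : ℂ → Set (Fin 6)}

/-- all splittings at once -/
theorem sp_ev555 (h : Irr U T)
    (hmin : ∀ z, 4 ≤ (T z).ncard → ∀ s, s ⊆ T z → s ≠ T z →
      ¬ ∀ᶠ w in 𝓝 z, ∃ i ∈ s, w ∈ U i ∨ (w ∈ XX U ∧ i ∈ Pal U w)) {z q : ℂ}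
    (h6 : (T z).ncard = 6) (hq : dist q z = 1) (hP : (T q).ncard = 2) :
    ∀ᶠ t : ℝ in 𝓝[>] 0, ∀ l ∈ T (z + t * (Complex.I * (q - z))),
      ∀ m ∈ T (z + t * -(Complex.I * (q - z))), l ∉ T q ∧ m ∉ T q ∧ Sp T z (T q) l m := by
  have hzu : T z = univ := by
    refine Set.eq_of_subset_of_ncard_le (subset_univ _) ?_ (Set.toFinite _)
    rw [h6, Set.ncard_univ, Nat.card_eq_fintype_card, Fintype.card_fin]
  obtain ⟨a, b, hab, hT⟩ := Set.ncard_eq_two.1 hP
  have haz : a ∈ T z := by rw [hzu]; exact mem_univ _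
  have hbz : b ∈ T z := by rw [hzu]; exact mem_univ _
  have hall : ∀ᶠ t : ℝ in 𝓝[>] 0, ∀ X Y : Set (Fin 6), X ∪ Y = ({a, b} : Set (Fin 6))ᶜ →
      Disjoint X Y → X.Nonempty → Y.Nonempty →
      (∀ x ∈ X, ∀ y ∈ Y, ∃ q, dist q z = 1 ∧ T q = {x, y}) →
      (T (z + t * (Complex.I * (q - z))) ⊆ X ∧ T (z + t * -(Complex.I * (q - z))) ⊆ Y) ∨
      (T (z + t * (Complex.I * (q - z))) ⊆ Y ∧ T (z + t * -(Complex.I * (q - z))) ⊆ X) := by
    rw [eventually_all]
    intro X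
    rw [eventually_all]
    intro Y
    by_cases hc : X ∪ Y = ({a, b} : Set (Fin 6))ᶜ ∧ Disjoint X Y ∧ X.Nonempty ∧ Y.Nonempty ∧
        (∀ x ∈ X, ∀ y ∈ Y, ∃ q, dist q z = 1 ∧ T q = {x, y})
    · obtain ⟨c1, c2, c3, c4, c5⟩ := hc
      have haX : a ∉ X := fun h1 => by
        have : a ∈ ({a, b} : Set (Fin 6))ᶜ := by rw [← c1]; exact Or.inl h1
        exact this (Or.inl rfl)
      have hbX : b ∉ X := fun h1 => by
        have : b ∈ ({a, b} : Set (Fin 6))ᶜ := by rw [← c1]; exact Or.inl h1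
        exact this (Or.inr rfl)
      have haY : a ∉ Y := fun h1 => by
        have : a ∈ ({a, b} : Set (Fin 6))ᶜ := by rw [← c1]; exact Or.inr h1
        exact this (Or.inl rfl)
      have hbY : b ∉ Y := fun h1 => by
        have : b ∈ ({a, b} : Set (Fin 6))ᶜ := by rw [← c1]; exact Or.inr h1
        exact this (Or.inr rfl)
      have hz : T z = {a, b} ∪ (X ∪ Y) := by rw [c1, Set.union_compl_self, hzu]
      have hsum : X.ncard + Y.ncard = 4 := by
        rw [← Set.ncard_union_eq c2 (Set.toFinite _) (Set.toFinite _), c1]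
        have h1 := Set.ncard_add_ncard_compl ({a, b} : Set (Fin 6)) (Set.toFinite _)
          (Set.toFinite _)
        rw [Set.ncard_pair hab, Nat.card_eq_fintype_card, Fintype.card_fin] at h1
        omega
      by_cases hX2 : X.ncard ≤ 2
      · rcases h.nappes555 hmin (by omega) hab hz haX hbX haY hbY c3 c4 c2 hX2 c5 hq hT with
          h1 | h1
        · exact h1.mono fun t h2 _ _ _ _ _ => Or.inl h2
        · exact h1.mono fun t h2 _ _ _ _ _ => Or.inr h2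
      · have hz' : T z = {a, b} ∪ (Y ∪ X) := by rw [Set.union_comm Y X]; exact hz
        have c5' : ∀ y ∈ Y, ∀ x ∈ X, ∃ q, dist q z = 1 ∧ T q = {y, x} := by
          intro y hy x hx
          obtain ⟨q1, k1, k2⟩ := c5 x hx y hy
          exact ⟨q1, k1, by rw [k2, Set.pair_comm]⟩
        rcases h.nappes555 hmin (by omega) hab hz' haY hbY haX hbX c4 c3 c2.symm (by omega) c5' hq
          hT with h1 | h1
        · exact h1.mono fun t h2 _ _ _ _ _ => Or.inr h2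
        · exact h1.mono fun t h2 _ _ _ _ _ => Or.inl h2
    · exact Eventually.of_forall fun t h1 h2 h3 h5 h7 => absurd ⟨h1, h2, h3, h5, h7⟩ hc
  filter_upwards [hall, h.ray_free555 haz hbz hq hT.subset (Or.inl rfl),
    h.ray_free555 haz hbz hq hT.subset (Or.inr rfl)] with t h1 h2 h3 l hl m hm
  rw [hT]
  refine ⟨?_, ?_, ?_⟩
  · rintro (rfl | rfl)
    · exact h2.1 hl
    · exact h2.2 hl
  · rintro (rfl | rfl)
    · exact h3.1 hm
    · exact h3.2 hm
  · intro X Y c1 c2 c3 c4 c5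
    rcases h1 X Y c1 c2 c3 c4 c5 with ⟨k1, k2⟩ | ⟨k1, k2⟩
    · exact Or.inl ⟨k1 hl, k2 hm⟩
    · exact Or.inr ⟨k1 hl, k2 hm⟩

/-- **Chord rule.** -/
theorem chord (h : Irr U T)
    (hmin : ∀ z, 4 ≤ (T z).ncard → ∀ s, s ⊆ T z → s ≠ T z →
      ¬ ∀ᶠ w in 𝓝 z, ∃ i ∈ s, w ∈ U i ∨ (w ∈ XX U ∧ i ∈ Pal U w)) {z q q' : ℂ}
    (h6 : (T z).ncard = 6) (hq : dist q z = 1) (hqq : q + q' = 2 * z) (hP : (T q).ncard = 2)
    (hP' : (T q').ncard = 2) :
    ∃ l m, (l ∉ T q ∧ l ∉ T q' ∧ m ∉ T q ∧ m ∉ T q') ∧ Sp T z (T q) l m ∧ Sp T z (T q') l m := by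
  have hq'z : q' - z = -(q - z) := by linear_combination hqq
  have hq' : dist q' z = 1 := by rw [dist_eq_norm, hq'z, norm_neg, ← dist_eq_norm]; exact hq
  have h1 := h.sp_ev555 hmin h6 hq hP
  have h2 := h.sp_ev555 hmin h6 hq' hP'
  have e1 : ∀ t : ℝ, z + (t : ℂ) * (Complex.I * (q' - z)) = z + t * -(Complex.I * (q - z)) := by
    intro t; rw [hq'z]; ring
  have e2 : ∀ t : ℝ, z + (t : ℂ) * -(Complex.I * (q' - z)) = z + t * (Complex.I * (q - z)) := by
    intro t; rw [hq'z]; ring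
  simp only [e1, e2] at h2
  obtain ⟨t, h3, h4⟩ := (h1.and h2).exists
  obtain ⟨l, hl⟩ := h.ne (z + t * (Complex.I * (q - z)))
  obtain ⟨m, hm⟩ := h.ne (z + t * -(Complex.I * (q - z)))
  obtain ⟨k1, k2, k3⟩ := h3 l hl m hm
  obtain ⟨k4, k5, k6⟩ := h4 m hm l hl
  refine ⟨l, m, ⟨k1, k5, k2, k4⟩, k3, ?_⟩
  intro X Y c1 c2 c3 c4 c5
  rcases k6 X Y c1 c2 c3 c4 c5 with ⟨j1, j2⟩ | ⟨j1, j2⟩
  · exact Or.inr ⟨j2, j1⟩
  · exact Or.inl ⟨j2, j1⟩

end Irr

end Vale.Agent.P032.Six
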