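import Vale.Agent.P032.S5.H555.Chord
import Vale.Agent.P032.Words6.H704.Gen6

/-!
# P032: the chord rule in the presence of exact triple arcs

`z` has six colours and a clean circle.  If the palette of `q = pt z u` contains exactly one broken
pair `P`, then the two nappes at `z` orthogonal to `q - z` are on different sides of every splitting
of the complement of `P`, although `T q` may be a triple on a whole arc.
-/

open Set Filter Topology Metric

noncomputable section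

namespace Vale.Agent.P032.Six.ChordT

open Vale.Agent.P032.S5.H767 Vale.Agent.P032.Words6.H704

variable {U : Fin 6 → Set ℂ} {T : ℂ → Set (Fin 6)} {z : ℂ}

/-- the point of the unit circle about `pt z v` close to `z` -/
def W (z : ℂ) (σ v s : ℝ) : ℂ := z + (pt z v - z) * (1 - cis (-(σ * s)))

theorem norm_pt_sub (z : ℂ) (v : ℝ) : ‖pt z v - z‖ = 1 := by
  rw [← dist_eq_norm]; exact dist_pt z v

theorem dist_W (z : ℂ) (σ v s : ℝ) : dist (pt z v) (W z σ v s) = 1 := by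
  have e : pt z v - W z σ v s = (pt z v - z) * cis (-(σ * s)) := by unfold W; ring
  rw [dist_eq_norm, e, norm_mul, norm_pt_sub, norm_cis, one_mul]

theorem dist_W_z (z : ℂ) {σ : ℝ} (hσ : σ = 1 ∨ σ = -1) (v s : ℝ) : dist (W z σ v s) z ≤ |s| := by
  have e : W z σ v s - z = (pt z v - z) * (1 - cis (-(σ * s))) := by unfold W; ring
  have h1 : ‖cis (-(σ * s)) - 1‖ ≤ ‖(-(σ * s) : ℝ)‖ := by
    have := Real.norm_exp_I_mul_ofReal_sub_one_le (x := -(σ * s))
    unfold cis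
    rw [mul_comm]
    exact this
  rw [dist_eq_norm, e, norm_mul, norm_pt_sub, one_mul, norm_sub_rev]
  refine h1.trans (le_of_eq ?_)
  rw [norm_neg, Real.norm_eq_abs, abs_mul]
  rcases hσ with rfl | rfl
  · rw [abs_one, one_mul]
  · rw [abs_neg, abs_one, one_mul]

theorem continuous_W (z : ℂ) (σ : ℝ) : Continuous fun p : ℝ × ℝ => W z σ p.1 p.2 := by
  unfold W
  have h1 : Continuous fun p : ℝ × ℝ => pt z p.1 := (continuous_pt z).comp continuous_fst
  have h2 : Continuous fun p : ℝ × ℝ => cis (-(σ * p.2)) := continuous_cis.comp (by fun_prop)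
  fun_prop

theorem cis_im' (x : ℝ) : (cis x).im = Real.sin x := by
  unfold cis
  rw [Complex.exp_ofReal_mul_I_im]

theorem sin_ne {σ : ℝ} (hσ : σ = 1 ∨ σ = -1) {s : ℝ} (h0 : 0 < s) (h1 : s < 1) :
    Real.sin (-(σ * s)) ≠ 0 := by
  have h2 : 0 < Real.sin s := Real.sin_pos_of_pos_of_lt_pi h0 (by linarith [Real.pi_gt_three])
  rcases hσ with rfl | rfl
  · rw [one_mul, Real.sin_neg]
    intro h3
    linarith
  · have e : -(-1 * s) = s := by ring
    rw [e]
    exact h2.ne'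

/-- a colour carried by the circle near `pt z v` is missing at `W` -/
theorem free (h : Irr U T) {i : Fin 6} {σ v s : ℝ} (hσ : σ = 1 ∨ σ = -1) (h0 : 0 < s) (h1 : s < 1)
    (hev : ∀ᶠ v' in 𝓝 v, i ∈ T (pt z v')) : i ∉ T (W z σ v s) := by
  intro hi
  have hne : pt z v - z ≠ 0 := by
    intro h2
    have := norm_pt_sub z v
    rw [h2, norm_zero] at this
    exact zero_ne_one this
  rcases h.mx.partner_line (dist_pt z v) ((ev_circle z hev).mono fun q hq => h.sub q hq)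
    (dist_W z σ v s) (h.sub _ hi) with h2 | h2
  · have h3 : (pt z v - z) * (1 - cis (-(σ * s))) = 0 := by
      unfold W at h2
      linear_combination h2
    have h4 := (mul_eq_zero.1 h3).resolve_left hne
    have h5 := congrArg Complex.im h4
    rw [Complex.sub_im, Complex.one_im, cis_im', Complex.zero_im] at h5
    exact sin_ne hσ h0 h1 (by linarith)
  · have h3 : (pt z v - z) * (1 + cis (-(σ * s))) = 0 := by
      unfold W at h2
      linear_combination -h2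
    have h4 := (mul_eq_zero.1 h3).resolve_left hne
    have h5 := congrArg Complex.im h4
    rw [Complex.add_im, Complex.one_im, cis_im', Complex.zero_im] at h5
    exact sin_ne hσ h0 h1 (by linarith)

/-- the points of the ray orthogonal to `pt z u - z` are points `W` -/
theorem ray_eq (z : ℂ) {σ : ℝ} (hσ : σ = 1 ∨ σ = -1) (u s : ℝ) :
    z + ((2 * Real.sin (s / 2) : ℝ) : ℂ) * ((σ : ℂ) * (Complex.I * (pt z u - z))) =
      W z σ (u + σ * (s / 2) / (Real.pi / 3)) s := by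
  have hp : Real.pi / 3 ≠ 0 := by positivity
  have e1 : (u + σ * (s / 2) / (Real.pi / 3)) * (Real.pi / 3) = u * (Real.pi / 3) + σ * (s / 2) := by
    rw [add_mul, div_mul_cancel₀ _ hp]
  unfold W pt
  rw [e1, cis_add, add_sub_cancel_left, add_sub_cancel_left]
  have e2 : cis (σ * (s / 2)) * (1 - cis (-(σ * s))) =
      cis (σ * (s / 2)) - cis (-(σ * (s / 2))) := by
    rw [mul_sub, mul_one, ← cis_add]
    congr 2
    ring
  have e3 : cis (σ * (s / 2)) - cis (-(σ * (s / 2))) =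
      ((2 * Real.sin (s / 2) : ℝ) : ℂ) * ((σ : ℂ) * Complex.I) := by
    rcases hσ with rfl | rfl
    · apply Complex.ext
      · rw [Complex.re_ofReal_mul, Complex.re_ofReal_mul, Complex.I_re]
        unfold cis
        rw [Complex.sub_re, Complex.exp_ofReal_mul_I_re, Complex.exp_ofReal_mul_I_re, Real.cos_neg]
        ring
      · rw [Complex.im_ofReal_mul, Complex.im_ofReal_mul, Complex.I_im, Complex.sub_im, cis_im',
          cis_im', Real.sin_neg, one_mul]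
        ring
    · apply Complex.ext
      · rw [Complex.re_ofReal_mul, Complex.re_ofReal_mul, Complex.I_re]
        unfold cis
        rw [Complex.sub_re, Complex.exp_ofReal_mul_I_re, Complex.exp_ofReal_mul_I_re, Real.cos_neg]
        ring
      · rw [Complex.im_ofReal_mul, Complex.im_ofReal_mul, Complex.I_im, Complex.sub_im, cis_im',
          cis_im']
        have e4 : -1 * (s / 2) = -(s / 2) := by ring
        rw [e4, neg_neg, Real.sin_neg]
        ring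
  rw [mul_assoc, e2, e3]
  ring

theorem ray_mem (z : ℂ) {σ : ℝ} (hσ : σ = 1 ∨ σ = -1) {u : ℝ} {N : Set ℝ} (hN : N ∈ 𝓝 u) {ε : ℝ}
    (hε : 0 < ε) : ∀ᶠ t : ℝ in 𝓝[>] 0, ∃ v ∈ N, ∃ s, 0 < s ∧ s < ε ∧
      z + (t : ℂ) * ((σ : ℂ) * (Complex.I * (pt z u - z))) = W z σ v s := by
  have hc : Continuous fun t : ℝ => 2 * Real.arcsin (t / 2) :=
    continuous_const.mul (Real.continuous_arcsin.comp (by fun_prop))
  have h0 : Tendsto (fun t : ℝ => 2 * Real.arcsin (t / 2)) (𝓝[>] 0) (𝓝 0) := by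
    have h1 := (hc.tendsto 0).mono_left (nhdsWithin_le_nhds (s := Ioi 0))
    simpa using h1
  have hcv : Continuous fun s : ℝ => u + σ * (s / 2) / (Real.pi / 3) := by fun_prop
  have hv : Tendsto (fun t : ℝ => u + σ * (2 * Real.arcsin (t / 2) / 2) / (Real.pi / 3)) (𝓝[>] 0)
      (𝓝 u) := by
    have h1 : Tendsto (fun t : ℝ => u + σ * (2 * Real.arcsin (t / 2) / 2) / (Real.pi / 3))
        (𝓝[>] 0) (𝓝 (u + σ * (0 / 2) / (Real.pi / 3))) := (hcv.tendsto 0).comp h0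
    have e : u + σ * (0 / 2) / (Real.pi / 3) = u := by simp
    rwa [e] at h1
  filter_upwards [self_mem_nhdsWithin, mem_nhdsWithin_of_mem_nhds
    (Iio_mem_nhds (show (0 : ℝ) < 1 by norm_num)), h0.eventually (Iio_mem_nhds hε),
    hv.eventually hN] with t h1 h2 h3 h4
  have h1 : 0 < t := h1
  have h2 : t < 1 := h2
  refine ⟨_, h4, 2 * Real.arcsin (t / 2), ?_, h3, ?_⟩
  · have := Real.arcsin_pos.2 (show 0 < t / 2 by linarith)
    linarith
  · rw [← ray_eq z hσ]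
    have e1 : 2 * Real.arcsin (t / 2) / 2 = Real.arcsin (t / 2) := by ring
    rw [e1, Real.sin_arcsin (by linarith) (by linarith)]
    congr 3
    ring

/-- over a connected open set of times with `a` and `b` each nappe has one type -/
theorem region (h : Irr U T) {a b : Fin 6} {X Y : Set (Fin 6)} (hXY : Disjoint X Y)
    (hsp : ∀ᶠ w in 𝓝 z, a ∉ T w → b ∉ T w → T w ⊆ X ∨ T w ⊆ Y) {S : Set ℝ}
    (hS : IsPreconnected S) (hSo : IsOpen S) (hab : ∀ v ∈ S, a ∈ T (pt z v) ∧ b ∈ T (pt z v))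
    {σ : ℝ} (hσ : σ = 1 ∨ σ = -1) : ∃ ε, 0 < ε ∧
      ((∀ v ∈ S, ∀ s, 0 < s → s < ε → T (W z σ v s) ⊆ X) ∨
        ∀ v ∈ S, ∀ s, 0 < s → s < ε → T (W z σ v s) ⊆ Y) := by
  obtain ⟨R, hR, hRs⟩ := Metric.eventually_nhds_iff.1 hsp
  obtain ⟨ε, hε⟩ : ∃ ε, ε = min R 1 := ⟨_, rfl⟩
  have hε0 : 0 < ε := by rw [hε]; positivity
  have hεR : ε ≤ R := by rw [hε]; exact min_le_left _ _
  have hε1 : ε ≤ 1 := by rw [hε]; exact min_le_right _ _
  have hor : ∀ v ∈ S, ∀ s, 0 < s → s < ε → T (W z σ v s) ⊆ X ∨ T (W z σ v s) ⊆ Y := by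
    intro v hv s hs0 hs1
    refine hRs ?_ ?_ ?_
    · have := dist_W_z z hσ v s
      rw [abs_of_pos hs0] at this
      linarith
    · refine free h hσ hs0 (by linarith) ?_
      filter_upwards [hSo.mem_nhds hv] with v' hv' using (hab v' hv').1
    · refine free h hσ hs0 (by linarith) ?_
      filter_upwards [hSo.mem_nhds hv] with v' hv' using (hab v' hv').2
  refine ⟨ε, hε0, ?_⟩
  by_contra hcon
  rw [not_or] at hcon
  obtain ⟨hc1, hc2⟩ := hcon
  push Not at hc1 hc2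
  obtain ⟨v1, hv1, s1, hs10, hs11, hT1⟩ := hc1
  obtain ⟨v2, hv2, s2, hs20, hs21, hT2⟩ := hc2
  have hpre : IsPreconnected ((fun p : ℝ × ℝ => W z σ p.1 p.2) '' (S ×ˢ Ioo 0 ε)) :=
    (hS.prod isPreconnected_Ioo).image _ (continuous_W z σ).continuousOn
  have hcl : ∀ Z : Set (Fin 6), IsClosed (⋃ y ∈ Z, {x | y ∈ T x}) := fun Z =>
    (Set.toFinite _).isClosed_biUnion fun y _ => h.closed y
  have hmem : ∀ (Z : Set (Fin 6)) (x : ℂ), x ∈ (⋃ y ∈ Z, {x | y ∈ T x}) ↔ ∃ y ∈ Z, y ∈ T x := by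
    intro Z x
    simp only [mem_iUnion, mem_ofPred_eq, exists_prop]
  obtain ⟨i1, hi1⟩ := h.ne (W z σ v1 s1)
  obtain ⟨i2, hi2⟩ := h.ne (W z σ v2 s2)
  obtain ⟨_, ⟨⟨v, s⟩, ⟨hv, hs⟩, rfl⟩, hx1, hx2⟩ := isPreconnected_closed_iff.1 hpre
    _ _ (hcl X) (hcl Y) (by
      rintro _ ⟨⟨v, s⟩, ⟨hv, hs⟩, rfl⟩
      obtain ⟨i, hi⟩ := h.ne (W z σ v s)
      rcases hor v hv s hs.1 hs.2 with h1 | h1
      · exact Or.inl ((hmem X _).2 ⟨i, h1 hi, hi⟩)
      · exact Or.inr ((hmem Y _).2 ⟨i, h1 hi, hi⟩))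
    ⟨_, ⟨(v2, s2), ⟨hv2, hs20, hs21⟩, rfl⟩, (hmem X _).2
      ⟨i2, ((hor v2 hv2 s2 hs20 hs21).resolve_right hT2) hi2, hi2⟩⟩
    ⟨_, ⟨(v1, s1), ⟨hv1, hs10, hs11⟩, rfl⟩, (hmem Y _).2
      ⟨i1, ((hor v1 hv1 s1 hs10 hs11).resolve_left hT1) hi1, hi1⟩⟩
  obtain ⟨j1, hj1, hj1'⟩ := (hmem X _).1 hx1
  obtain ⟨j2, hj2, hj2'⟩ := (hmem Y _).1 hx2
  rcases hor v hv s hs.1 hs.2 with h1 | h1
  · exact Set.disjoint_left.1 hXY (h1 hj2') hj2
  · exact Set.disjoint_left.1 hXY hj1 (h1 hj1')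

/-- the only broken pair of the palette of `q` -/
def Only (T : ℂ → Set (Fin 6)) (z q : ℂ) (P : Set (Fin 6)) : Prop :=
  (∃ x y, MC T z x y ∧ P = {x, y}) ∧ P ⊆ T q ∧
    ∀ x y, MC T z x y → ({x, y} : Set (Fin 6)) ⊆ T q → ({x, y} : Set (Fin 6)) = P

/-- there is an arc through `pt z u` with the colours of `P` and a point with exactly these -/
theorem comp (C : Six6 U T z) {u : ℝ} {P : Set (Fin 6)} (hP : Only T z (pt z u) P) :
    ∃ S : Set ℝ, IsOpen S ∧ IsPreconnected S ∧ u ∈ S ∧ (∀ v ∈ S, P ⊆ T (pt z v)) ∧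
      ∃ u1 ∈ S, T (pt z u1) = P := by
  obtain ⟨⟨x, y, hxy, hPe⟩, hPu, huniq⟩ := hP
  obtain ⟨O, hO⟩ : ∃ O : Set ℝ, O = {v | T (pt z v) ⊆ T (pt z u)} := ⟨_, rfl⟩
  have hOm : ∀ v, v ∈ O ↔ T (pt z v) ⊆ T (pt z u) := by intro v; rw [hO]; exact Iff.rfl
  have hOo : IsOpen O := by
    rw [isOpen_iff_mem_nhds]
    intro v hv
    have h1 : ∀ᶠ v' in 𝓝 v, T (pt z v') ⊆ T (pt z v) :=
      ((continuous_pt z).tendsto v).eventually (C.irr.nhd (pt z v))
    filter_upwards [h1] with v' hv'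
    exact (hOm v').2 (hv'.trans ((hOm v).1 hv))
  have huO : u ∈ O := (hOm u).2 subset_rfl
  have hsubO : connectedComponentIn O u ⊆ O := connectedComponentIn_subset O u
  have hPv : ∀ v ∈ connectedComponentIn O u, P ⊆ T (pt z v) := by
    intro v hv
    obtain ⟨x', y', hxy', hsub⟩ := C.sub_pair (dist_pt z v)
    rw [← huniq x' y' hxy' (hsub.trans ((hOm v).1 (hsubO hv)))]
    exact hsub
  refine ⟨connectedComponentIn O u, hOo.connectedComponentIn, isPreconnected_connectedComponentIn,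
    mem_connectedComponentIn huO, hPv, ?_⟩
  by_contra hcon
  push Not at hcon
  have hP2 : P.ncard = 2 := by rw [hPe]; exact Set.ncard_pair hxy.1
  have h3u := C.clean _ (dist_pt z u)
  have heq : ∀ v ∈ connectedComponentIn O u, T (pt z v) = T (pt z u) := by
    intro v hv
    refine Set.eq_of_subset_of_ncard_le ((hOm v).1 (hsubO hv)) ?_ (Set.toFinite _)
    have h1 : P ⊂ T (pt z v) := (hPv v hv).ssubset_of_ne fun h2 => hcon v hv h2.symm
    have h2 := Set.ncard_lt_ncard h1 (Set.toFinite _)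
    omega
  have hcl : closure (connectedComponentIn O u) ⊆ O := by
    intro w hw
    have h1 : T (pt z u) ⊆ T (pt z w) := by
      intro i hi
      have h2 : IsClosed {v : ℝ | i ∈ T (pt z v)} :=
        (C.irr.closed i).preimage (continuous_pt z)
      refine closure_minimal (fun v hv => ?_) h2 hw
      show i ∈ T (pt z v)
      rw [heq v hv]; exact hi
    rw [hOm]
    have h3 : P ⊂ T (pt z u) := hPu.ssubset_of_ne fun h2 =>
      hcon u (mem_connectedComponentIn huO) h2.symm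
    have h4 := Set.ncard_lt_ncard h3 (Set.toFinite _)
    rw [Set.eq_of_subset_of_ncard_le h1 (by have := C.clean _ (dist_pt z w); omega)
      (Set.toFinite _)]
  have hclosed : IsClosed (connectedComponentIn O u) := by
    refine isClosed_of_closure_subset ?_
    exact isPreconnected_connectedComponentIn.closure.subset_connectedComponentIn
      (subset_closure (mem_connectedComponentIn huO)) hcl
  have huniv : connectedComponentIn O u = univ :=
    IsClopen.eq_univ ⟨hclosed, hOo.connectedComponentIn⟩ ⟨u, mem_connectedComponentIn huO⟩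
  have h1 : T (pt z (u + 1)) = T (pt z u) := heq _ (by rw [huniv]; exact mem_univ _)
  exact C.irr.not_sub (x := pt z (u + 1)) (y := pt z u) (dist_pt_one z u)
    (C.clean _ (dist_pt z _)) h1.symm.subset

/-- **the nappes over an arc with the colours of a cut pair have different types** -/
theorem two_types (C : Six6 U T z)
    (hmin : ∀ z, 4 ≤ (T z).ncard → ∀ s, s ⊆ T z → s ≠ T z →
      ¬ ∀ᶠ w in 𝓝 z, ∃ i ∈ s, w ∈ U i ∨ (w ∈ XX U ∧ i ∈ Pal U w)) {a b : Fin 6}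
    {X Y : Set (Fin 6)} (h4 : 4 ≤ (T z).ncard) (hab : a ≠ b) (hz : T z = {a, b} ∪ (X ∪ Y))
    (haX : a ∉ X) (hbX : b ∉ X) (haY : a ∉ Y) (hbY : b ∉ Y) (hX : X.Nonempty) (hY : Y.Nonempty)
    (hXY : Disjoint X Y) (hX2 : X.ncard ≤ 2)
    (hbr : ∀ x ∈ X, ∀ y ∈ Y, ∃ q, dist q z = 1 ∧ T q = {x, y}) {S : Set ℝ}
    (hS : IsPreconnected S) (hSo : IsOpen S) (habS : ∀ v ∈ S, a ∈ T (pt z v) ∧ b ∈ T (pt z v))
    {u u1 : ℝ} (hu : u ∈ S) (hu1 : u1 ∈ S) (hT : T (pt z u1) = {a, b}) :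
    (∀ᶠ t : ℝ in 𝓝[>] 0, T (z + t * (Complex.I * (pt z u - z))) ⊆ X ∧
      T (z + t * -(Complex.I * (pt z u - z))) ⊆ Y) ∨
    ∀ᶠ t : ℝ in 𝓝[>] 0, T (z + t * (Complex.I * (pt z u - z))) ⊆ Y ∧
      T (z + t * -(Complex.I * (pt z u - z))) ⊆ X := by
  have h := C.irr
  have haz : a ∈ T z := by rw [hz]; exact Or.inl (Or.inl rfl)
  have hbz : b ∈ T z := by rw [hz]; exact Or.inl (Or.inr rfl)
  have hXz : X ⊆ T z := by rw [hz]; exact fun i hi => Or.inr (Or.inl hi)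
  have hYz : Y ⊆ T z := by rw [hz]; exact fun i hi => Or.inr (Or.inr hi)
  have hsp : ∀ᶠ w in 𝓝 z, a ∉ T w → b ∉ T w → T w ⊆ X ∨ T w ⊆ Y := by
    filter_upwards [h.split_gen hmin (C := {a, b}) hz.subset hX2 hbr] with w h1 h2 h3
    refine h1 ?_
    rw [Set.disjoint_left]
    rintro i (rfl | rfl)
    · exact h2
    · exact h3
  have hsp' : ∀ᶠ w in 𝓝 z, a ∉ T w → b ∉ T w → T w ⊆ Y ∨ T w ⊆ X :=
    hsp.mono fun w h1 h2 h3 => (h1 h2 h3).symm
  have key : ∀ (σ : ℝ), (σ = 1 ∨ σ = -1) →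
      (∀ v ∈ S, ∀ᶠ t : ℝ in 𝓝[>] 0,
        T (z + (t : ℂ) * ((σ : ℂ) * (Complex.I * (pt z v - z)))) ⊆ X) ∨
      (∀ v ∈ S, ∀ᶠ t : ℝ in 𝓝[>] 0,
        T (z + (t : ℂ) * ((σ : ℂ) * (Complex.I * (pt z v - z)))) ⊆ Y) := by
    intro σ hσ
    obtain ⟨ε, hε, h1 | h1⟩ := region h hXY hsp hS hSo habS hσ
    · refine Or.inl fun v hv => ?_
      filter_upwards [ray_mem z hσ (hSo.mem_nhds hv) hε] with t ht
      obtain ⟨v', hv', s, hs0, hs1, he⟩ := ht
      rw [he]
      exact h1 v' hv' s hs0 hs1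
    · refine Or.inr fun v hv => ?_
      filter_upwards [ray_mem z hσ (hSo.mem_nhds hv) hε] with t ht
      obtain ⟨v', hv', s, hs0, hs1, he⟩ := ht
      rw [he]
      exact h1 v' hv' s hs0 hs1
  have k1 := key 1 (Or.inl rfl)
  have k2 := key (-1) (Or.inr rfl)
  have e1 : ∀ (v t : ℝ), z + (t : ℂ) * (((1 : ℝ) : ℂ) * (Complex.I * (pt z v - z))) =
      z + t * (Complex.I * (pt z v - z)) := by
    intro v t; rw [Complex.ofReal_one, one_mul]
  have e2 : ∀ (v t : ℝ), z + (t : ℂ) * (((-1 : ℝ) : ℂ) * (Complex.I * (pt z v - z))) =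
      z + t * -(Complex.I * (pt z v - z)) := by
    intro v t; rw [Complex.ofReal_neg, Complex.ofReal_one, neg_one_mul]
  simp only [e1] at k1
  simp only [e2] at k2
  rcases k1 with k1 | k1
  · rcases k2 with k2 | k2
    · exact (h.pair_cut hmin h4 haz hbz hab haY hbY hYz hY hXY hsp (dist_pt z u1) hT
        (k1 u1 hu1).frequently (k2 u1 hu1).frequently).elim
    · exact Or.inl ((k1 u hu).and (k2 u hu))
  · rcases k2 with k2 | k2
    · exact Or.inr ((k1 u hu).and (k2 u hu))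
    · exact (h.pair_cut hmin h4 haz hbz hab haX hbX hXz hX hXY.symm hsp' (dist_pt z u1) hT
        (k1 u1 hu1).frequently (k2 u1 hu1).frequently).elim

/-- the rays are free of the colours carried by the circle near `pt z u` -/
theorem ray_free (h : Irr U T) {i : Fin 6} {σ u : ℝ} (hσ : σ = 1 ∨ σ = -1)
    (hev : ∀ᶠ v in 𝓝 u, i ∈ T (pt z v)) :
    ∀ᶠ t : ℝ in 𝓝[>] 0, i ∉ T (z + (t : ℂ) * ((σ : ℂ) * (Complex.I * (pt z u - z)))) := by
  filter_upwards [ray_mem z hσ (eventually_eventually_nhds.2 hev) one_pos] with t ht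
  obtain ⟨v, hv, s, hs0, hs1, he⟩ := ht
  rw [he]
  exact free h hσ hs0 hs1 hv

/-- all splittings at once -/
theorem only_ev (C : Six6 U T z)
    (hmin : ∀ z, 4 ≤ (T z).ncard → ∀ s, s ⊆ T z → s ≠ T z →
      ¬ ∀ᶠ w in 𝓝 z, ∃ i ∈ s, w ∈ U i ∨ (w ∈ XX U ∧ i ∈ Pal U w)) {u : ℝ} {P : Set (Fin 6)}
    (hP : Only T z (pt z u) P) :
    ∀ᶠ t : ℝ in 𝓝[>] 0, ∀ l ∈ T (z + t * (Complex.I * (pt z u - z))),
      ∀ m ∈ T (z + t * -(Complex.I * (pt z u - z))), Sp T z P l m := by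
  have h := C.irr
  have hzu : T z = univ := Set.eq_univ_of_forall C.all
  obtain ⟨S, hSo, hS, huS, hPS, u1, hu1, hTu1⟩ := comp C hP
  obtain ⟨⟨a, b, ⟨hab, -⟩, hPe⟩, -, -⟩ := hP
  have habS : ∀ v ∈ S, a ∈ T (pt z v) ∧ b ∈ T (pt z v) := by
    intro v hv
    have h1 := hPS v hv
    rw [hPe] at h1
    exact ⟨h1 (Or.inl rfl), h1 (Or.inr rfl)⟩
  rw [hPe] at hTu1 ⊢
  have hall : ∀ᶠ t : ℝ in 𝓝[>] 0, ∀ X Y : Set (Fin 6), X ∪ Y = ({a, b} : Set (Fin 6))ᶜ →
      Disjoint X Y → X.Nonempty → Y.Nonempty →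
      (∀ x ∈ X, ∀ y ∈ Y, ∃ q, dist q z = 1 ∧ T q = {x, y}) →
      (T (z + t * (Complex.I * (pt z u - z))) ⊆ X ∧
        T (z + t * -(Complex.I * (pt z u - z))) ⊆ Y) ∨
      (T (z + t * (Complex.I * (pt z u - z))) ⊆ Y ∧
        T (z + t * -(Complex.I * (pt z u - z))) ⊆ X) := by
    rw [eventually_all]
    intro X
    rw [eventually_all]
    intro Y
    by_cases hc : X ∪ Y = ({a, b} : Set (Fin 6))ᶜ ∧ Disjoint X Y ∧ X.Nonempty ∧ Y.Nonempty ∧
        (∀ x ∈ X, ∀ y ∈ Y, ∃ q, dist q z = 1 ∧ T q = {x, y})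
    · obtain ⟨c1, c2, c3, c4, c5⟩ := hc
      have haX : a ∉ X := fun h1 => by
        have : a ∈ ({a, b} : Set (Fin 6))ᶜ := by rw [← c1]; exact Or.inl h1
        exact this (Or.inl rfl)
      have hbX : b ∉ X := fun h1 => by
        have : b ∈ ({a, b} : Set (Fin 6))ᶜ := by rw [← c1]; exact Or.inl h1
        exact this (Or.inr rfl)
      have haY : a ∉ Y := fun h1 => by
        have : a ∈ ({a, b} : Set (Fin 6))ᶜ := by rw [← c1]; exact Or.inr h1
        exact this (Or.inl rfl)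
      have hbY : b ∉ Y := fun h1 => by
        have : b ∈ ({a, b} : Set (Fin 6))ᶜ := by rw [← c1]; exact Or.inr h1
        exact this (Or.inr rfl)
      have hz : T z = {a, b} ∪ (X ∪ Y) := by rw [c1, Set.union_compl_self, hzu]
      have h4 : 4 ≤ (T z).ncard := by
        rw [hzu, Set.ncard_univ, Nat.card_eq_fintype_card, Fintype.card_fin]
        norm_num
      have hsum : X.ncard + Y.ncard = 4 := by
        rw [← Set.ncard_union_eq c2 (Set.toFinite _) (Set.toFinite _), c1]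
        have h1 := Set.ncard_add_ncard_compl ({a, b} : Set (Fin 6)) (Set.toFinite _)
          (Set.toFinite _)
        rw [Set.ncard_pair hab, Nat.card_eq_fintype_card, Fintype.card_fin] at h1
        omega
      by_cases hX2 : X.ncard ≤ 2
      · rcases two_types C hmin h4 hab hz haX hbX haY hbY c3 c4 c2 hX2 c5 hS hSo habS huS hu1
          hTu1 with h1 | h1
        · exact h1.mono fun t h2 _ _ _ _ _ => Or.inl h2
        · exact h1.mono fun t h2 _ _ _ _ _ => Or.inr h2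
      · have hz' : T z = {a, b} ∪ (Y ∪ X) := by rw [Set.union_comm Y X]; exact hz
        have c5' : ∀ y ∈ Y, ∀ x ∈ X, ∃ q, dist q z = 1 ∧ T q = {y, x} := by
          intro y hy x hx
          obtain ⟨q1, k1, k2⟩ := c5 x hx y hy
          exact ⟨q1, k1, by rw [k2, Set.pair_comm]⟩
        rcases two_types C hmin h4 hab hz' haY hbY haX hbX c4 c3 c2.symm (by omega) c5' hS hSo
          habS huS hu1 hTu1 with h1 | h1
        · exact h1.mono fun t h2 _ _ _ _ _ => Or.inr h2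
        · exact h1.mono fun t h2 _ _ _ _ _ => Or.inl h2
    · exact Eventually.of_forall fun t h1 h2 h3 h5 h7 => absurd ⟨h1, h2, h3, h5, h7⟩ hc
  filter_upwards [hall] with t h1 l hl m hm X Y c1 c2 c3 c4 c5
  rcases h1 X Y c1 c2 c3 c4 c5 with ⟨k1, k2⟩ | ⟨k1, k2⟩
  · exact Or.inl ⟨k1 hl, k2 hm⟩
  · exact Or.inr ⟨k1 hl, k2 hm⟩

/-- **Chord rule, with triple arcs.** -/
theorem chord_only (C : Six6 U T z)
    (hmin : ∀ z, 4 ≤ (T z).ncard → ∀ s, s ⊆ T z → s ≠ T z →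
      ¬ ∀ᶠ w in 𝓝 z, ∃ i ∈ s, w ∈ U i ∨ (w ∈ XX U ∧ i ∈ Pal U w)) {u : ℝ}
    (hg : ∀ᶠ v in 𝓝 u, T (pt z v) = T (pt z u))
    (hg' : ∀ᶠ v in 𝓝 (u + 3), T (pt z v) = T (pt z (u + 3))) :
    ∃ l m, (l ∉ T (pt z u) ∧ l ∉ T (pt z (u + 3)) ∧ m ∉ T (pt z u) ∧ m ∉ T (pt z (u + 3))) ∧
      (∀ P, Only T z (pt z u) P → Sp T z P l m) ∧
      ∀ P, Only T z (pt z (u + 3)) P → Sp T z P l m := by
  have h := C.irr
  have hq'z : pt z (u + 3) - z = -(pt z u - z) := by rw [pt_three]; ring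
  have e1 : ∀ t : ℝ, z + (t : ℂ) * (Complex.I * (pt z (u + 3) - z)) =
      z + t * -(Complex.I * (pt z u - z)) := by
    intro t; rw [hq'z]; ring
  have e2 : ∀ t : ℝ, z + (t : ℂ) * -(Complex.I * (pt z (u + 3) - z)) =
      z + t * (Complex.I * (pt z u - z)) := by
    intro t; rw [hq'z]; ring
  have f1 : ∀ (v t : ℝ), z + (t : ℂ) * (((1 : ℝ) : ℂ) * (Complex.I * (pt z v - z))) =
      z + t * (Complex.I * (pt z v - z)) := by
    intro v t; rw [Complex.ofReal_one, one_mul]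
  have f2 : ∀ (v t : ℝ), z + (t : ℂ) * (((-1 : ℝ) : ℂ) * (Complex.I * (pt z v - z))) =
      z + t * -(Complex.I * (pt z v - z)) := by
    intro v t; rw [Complex.ofReal_neg, Complex.ofReal_one, neg_one_mul]
  have hfree : ∀ w : ℝ, (∀ᶠ v in 𝓝 w, T (pt z v) = T (pt z w)) → ∀ᶠ t : ℝ in 𝓝[>] 0,
      ∀ i ∈ T (pt z w), i ∉ T (z + t * (Complex.I * (pt z w - z))) ∧
        i ∉ T (z + t * -(Complex.I * (pt z w - z))) := by
    intro w hw
    rw [eventually_all]
    intro i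
    by_cases hi : i ∈ T (pt z w)
    · have h1 : ∀ᶠ v in 𝓝 w, i ∈ T (pt z v) := hw.mono fun v hv => by rw [hv]; exact hi
      have k1 := ray_free h (Or.inl rfl) h1
      have k2 := ray_free h (Or.inr rfl) h1
      simp only [f1] at k1
      simp only [f2] at k2
      filter_upwards [k1, k2] with t j1 j2 _ using ⟨j1, j2⟩
    · exact Eventually.of_forall fun t h1 => absurd h1 hi
  have hsp : ∀ w : ℝ, ∀ᶠ t : ℝ in 𝓝[>] 0, ∀ P, Only T z (pt z w) P →
      ∀ l ∈ T (z + t * (Complex.I * (pt z w - z))),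
      ∀ m ∈ T (z + t * -(Complex.I * (pt z w - z))), Sp T z P l m := by
    intro w
    rw [eventually_all]
    intro P
    by_cases hP : Only T z (pt z w) P
    · exact (only_ev C hmin hP).mono fun t h1 _ => h1
    · exact Eventually.of_forall fun t h1 => absurd h1 hP
  have g1 := hfree u hg
  have g2 := hfree (u + 3) hg'
  have g3 := hsp u
  have g4 := hsp (u + 3)
  simp only [e1, e2] at g2 g4
  obtain ⟨t, ⟨h1, h2⟩, h3, h4⟩ := ((g1.and g2).and (g3.and g4)).exists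
  obtain ⟨l, hl⟩ := h.ne (z + t * (Complex.I * (pt z u - z)))
  obtain ⟨m, hm⟩ := h.ne (z + t * -(Complex.I * (pt z u - z)))
  refine ⟨l, m, ⟨fun hc => (h1 l hc).1 hl, fun hc => (h2 l hc).2 hl, fun hc => (h1 m hc).2 hm,
    fun hc => (h2 m hc).1 hm⟩, fun P hP => h3 P hP l hl m hm, fun P hP => ?_⟩
  intro X Y c1 c2 c3 c4 c5
  rcases h4 P hP m hm l hl X Y c1 c2 c3 c4 c5 with ⟨j1, j2⟩ | ⟨j1, j2⟩
  · exact Or.inr ⟨j2, j1⟩
  · exact Or.inl ⟨j2, j1⟩

end Vale.Agent.P032.Six.ChordT
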