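import Vale.Agent.P032.S5.H360.Degree
import Vale.Agent.P032.S5.H483.IrrZ
import Vale.Agent.P032.S5.H80.Ray

/-!
# P032: two colours of an exact pair are not opposite across the wedge

`Irr.cross`: if `T q = {a, b}`, `dist q z = 1`, then for `w`, `w'` near `z` with `a ∈ T w`,
`b ∈ T w'` the vector `w' - w` is not nearly orthogonal to `q - z` (otherwise the unit circles about
`w` and `w'` meet near `q`).
-/

open Set Filter Topology Metric

noncomputable section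

namespace Vale.Agent.P032.Six

/-- an inequality for `common_near555` -/
theorem bound555 {D η t q : ℝ} (hD0 : 0 < D) (hη1 : η ^ 2 ≤ 1) (ht0 : 0 ≤ t)
    (ht2 : t ^ 2 * D ^ 2 = 1 - D ^ 2 / 4) (hq1 : q ^ 2 ≤ D ^ 2) (hq2 : (1 - η ^ 2) * D ^ 2 ≤ q ^ 2) :
    D ^ 2 * t ^ 2 + 1 - 2 * t * |q| ≤ 2 * (D ^ 2 + η ^ 2) := by
  have hDD : 0 < D ^ 2 := by positivity
  obtain ⟨C, hC0, hCD⟩ : ∃ C : ℝ, 0 ≤ C ∧ C * D = |q| :=
    ⟨|q| / D, by positivity, div_mul_cancel₀ _ hD0.ne'⟩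
  have h3 : C ^ 2 * D ^ 2 = q ^ 2 := by rw [← mul_pow, hCD, sq_abs]
  have hC2 : 1 - η ^ 2 ≤ C ^ 2 := le_of_mul_le_mul_right (by rw [h3]; exact hq2) hDD
  have hC2' : C ^ 2 ≤ 1 := le_of_mul_le_mul_right (by rw [h3, one_mul]; exact hq1) hDD
  have hC1 : C ≤ 1 := by
    by_contra hcon
    push Not at hcon
    nlinarith
  obtain ⟨S, hS⟩ : ∃ S, S = t * D := ⟨_, rfl⟩
  have hS0 : 0 ≤ S := by rw [hS]; positivity
  have hS2 : S ^ 2 = 1 - D ^ 2 / 4 := by rw [hS, mul_pow]; exact ht2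
  have hS1 : S ≤ 1 := by
    by_contra hcon
    push Not at hcon
    nlinarith
  have a1 : S ^ 2 ≤ S := by nlinarith
  have a2 : C ^ 2 ≤ C := by nlinarith
  have a3 : 1 - D ^ 2 ≤ S ^ 2 := by linarith
  have a4 : 0 ≤ 1 - η ^ 2 := by linarith
  have h6 : (1 - D ^ 2) * (1 - η ^ 2) ≤ S * C :=
    calc (1 - D ^ 2) * (1 - η ^ 2) ≤ S ^ 2 * C ^ 2 := mul_le_mul a3 hC2 a4 (sq_nonneg _)
      _ ≤ S * C := mul_le_mul a1 a2 (sq_nonneg _) hS0
  have h4 : t * |q| = S * C := by rw [← hCD, hS]; ring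
  have h5 : 0 ≤ D ^ 2 * η ^ 2 := by positivity
  have h7 : 2 * t * |q| = 2 * (S * C) := by rw [← h4]; ring
  have h8 : (1 - D ^ 2) * (1 - η ^ 2) = 1 - D ^ 2 - η ^ 2 + D ^ 2 * η ^ 2 := by ring
  have h9 : D ^ 2 * t ^ 2 = 1 - D ^ 2 / 4 := by rw [mul_comm]; exact ht2
  rw [h7, h9]
  linarith

/-- two unit circles with centres near each other, in a direction nearly orthogonal to the unit
vector `n`, meet near the midpoint plus `n` -/
theorem common_near555 {w w' n : ℂ} (hn : ‖n‖ = 1) {D : ℝ} (hD : ‖w' - w‖ = D) (hD0 : 0 < D)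
    (hD1 : D ≤ 1) {η : ℝ} (hη1 : η ^ 2 ≤ 1) (hip : |ip (w' - w) n| ≤ η * D) :
    ∃ p, dist p w = 1 ∧ dist p w' = 1 ∧ ‖p - (w + w') / 2 - n‖ ^ 2 ≤ 2 * (D ^ 2 + η ^ 2) := by
  obtain ⟨u, hu⟩ : ∃ u, u = w' - w := ⟨_, rfl⟩
  rw [← hu] at hD hip
  have hx : u.re ^ 2 + u.im ^ 2 = D ^ 2 := by
    have := Complex.sq_norm u
    rw [hD, Complex.normSq_apply] at this
    rw [this]; ring
  have hn2 : n.re ^ 2 + n.im ^ 2 = 1 := ip_sq hn
  -- the orthogonal component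
  obtain ⟨q, hq⟩ : ∃ q : ℝ, q = -u.im * n.re + u.re * n.im := ⟨_, rfl⟩
  have hq2 : q ^ 2 + (ip u n) ^ 2 = D ^ 2 := by
    have : q ^ 2 + (ip u n) ^ 2 = (u.re ^ 2 + u.im ^ 2) * (n.re ^ 2 + n.im ^ 2) := by
      rw [hq]; unfold ip; ring
    rw [this, hx, hn2, mul_one]
  have hipsq : (ip u n) ^ 2 ≤ η ^ 2 * D ^ 2 := by
    rw [← sq_abs (ip u n), ← mul_pow]
    exact pow_le_pow_left₀ (abs_nonneg _) hip 2
  obtain ⟨t, ht⟩ : ∃ t, t = Real.sqrt (1 / D ^ 2 - 1 / 4) := ⟨_, rfl⟩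
  have hD2 : D ^ 2 ≤ 1 := by nlinarith
  have hDD : 0 < D ^ 2 := by positivity
  have hpos : 0 ≤ 1 / D ^ 2 - 1 / 4 := by
    have : 1 ≤ 1 / D ^ 2 := by rw [le_div_iff₀ hDD]; linarith
    linarith
  have ht2 : t ^ 2 = 1 / D ^ 2 - 1 / 4 := by rw [ht]; exact Real.sq_sqrt hpos
  have ht2' : t ^ 2 * D ^ 2 = 1 - D ^ 2 / 4 := by
    rw [ht2]; field_simp
  have ht0 : 0 ≤ t := by rw [ht]; exact Real.sqrt_nonneg _
  obtain ⟨s, hs, hsq⟩ : ∃ s : ℝ, s ^ 2 = 1 ∧ s * q = |q| := by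
    rcases le_or_gt 0 q with h | h
    · exact ⟨1, by norm_num, by rw [abs_of_nonneg h]; ring⟩
    · exact ⟨-1, by norm_num, by rw [abs_of_neg h]; ring⟩
  have hnorm : ∀ a : ℂ, ‖a‖ ^ 2 = a.re ^ 2 + a.im ^ 2 := by
    intro a
    rw [Complex.sq_norm, Complex.normSq_apply]; ring
  have hone : ∀ a : ℂ, ‖a‖ ^ 2 = 1 → ‖a‖ = 1 := by
    intro a ha
    have h2 := norm_nonneg a
    nlinarith
  refine ⟨(w + w') / 2 + Complex.I * u * ((s * t : ℝ) : ℂ), ?_, ?_, ?_⟩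
  · have e : (w + w') / 2 + Complex.I * u * ((s * t : ℝ) : ℂ) - w =
        u / 2 + Complex.I * u * ((s * t : ℝ) : ℂ) := by rw [hu]; ring
    rw [dist_eq_norm, e]
    refine hone _ ?_
    rw [hnorm]
    simp
    linear_combination (1 / 4 + s ^ 2 * t ^ 2) * hx + D ^ 2 * t ^ 2 * hs + ht2'
  · have e : (w + w') / 2 + Complex.I * u * ((s * t : ℝ) : ℂ) - w' =
        -u / 2 + Complex.I * u * ((s * t : ℝ) : ℂ) := by rw [hu]; ring
    rw [dist_eq_norm, e]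
    refine hone _ ?_
    rw [hnorm]
    simp
    linear_combination (1 / 4 + s ^ 2 * t ^ 2) * hx + D ^ 2 * t ^ 2 * hs + ht2'
  · have e : (w + w') / 2 + Complex.I * u * ((s * t : ℝ) : ℂ) - (w + w') / 2 - n =
        Complex.I * u * ((s * t : ℝ) : ℂ) - n := by ring
    rw [e, hnorm]
    have h1 : (Complex.I * u * ((s * t : ℝ) : ℂ) - n).re ^ 2 +
        (Complex.I * u * ((s * t : ℝ) : ℂ) - n).im ^ 2 = D ^ 2 * t ^ 2 + 1 - 2 * t * |q| := by
      simp
      rw [← hsq, hq]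
      linear_combination (s ^ 2 * t ^ 2) * hx + D ^ 2 * t ^ 2 * hs + hn2
    rw [h1]
    refine bound555 hD0 hη1 ht0 ht2' ?_ ?_
    · nlinarith [sq_nonneg (ip u n)]
    · nlinarith

namespace Irr

variable {k : ℕ} {U : Fin k → Set ℂ} {T : ℂ → Set (Fin k)}

/-- **Cross lemma.** -/
theorem cross (h : Irr U T) {z q : ℂ} (hq : dist q z = 1) {a b : Fin k} (hT : T q ⊆ {a, b}) :
    ∀ᶠ ε : ℝ in 𝓝[>] 0, ∀ w w', dist w z < ε → dist w' z < ε → a ∈ T w → b ∈ T w' → w ≠ w' →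
      ε * dist w w' ≤ |ip (w' - w) (q - z)| := by
  obtain ⟨ρ, hρ, hρT⟩ := Metric.eventually_nhds_iff.1 (h.nhd q)
  have hsmall : ∀ᶠ ε : ℝ in 𝓝[>] 0, 0 < ε ∧ ε < min (ρ / 8) (1 / 8) := by
    filter_upwards [self_mem_nhdsWithin, mem_nhdsWithin_of_mem_nhds
      (Iio_mem_nhds (show (0 : ℝ) < min (ρ / 8) (1 / 8) by positivity))] with ε h1 h2
    exact ⟨h1, h2⟩
  filter_upwards [hsmall] with ε hε w w' hw hw' ha hb hne
  by_contra hcon
  push Not at hcon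
  have hε1 : ε < ρ / 8 := lt_of_lt_of_le hε.2 (min_le_left _ _)
  have hε2 : ε < 1 / 8 := lt_of_lt_of_le hε.2 (min_le_right _ _)
  -- pure points
  have hopen : IsOpen {x : ℂ × ℂ | |ip (x.2 - x.1) (q - z)| < ε * dist x.1 x.2 ∧
      dist x.1 z < ε ∧ dist x.2 z < ε} := by
    have c1 : Continuous fun x : ℂ × ℂ => |ip (x.2 - x.1) (q - z)| := by
      unfold ip
      have c2 : Continuous fun x : ℂ × ℂ => x.2 - x.1 := by fun_prop
      exact (((Complex.continuous_re.comp c2).mul continuous_const).add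
        ((Complex.continuous_im.comp c2).mul continuous_const)).abs
    have c3 : Continuous fun x : ℂ × ℂ => ε * dist x.1 x.2 := by fun_prop
    have c4 : Continuous fun x : ℂ × ℂ => dist x.1 z := by fun_prop
    have c5 : Continuous fun x : ℂ × ℂ => dist x.2 z := by fun_prop
    exact (isOpen_lt c1 c3).inter ((isOpen_lt c4 continuous_const).inter
      (isOpen_lt c5 continuous_const))
  have hmem := hopen.mem_nhds (x := (w, w')) ⟨hcon, hw, hw'⟩
  obtain ⟨s, hs, s', hs', hss⟩ := mem_nhds_prod_iff.1 hmem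
  obtain ⟨v, hv, hvs⟩ := ((h.pure w a ha).and_eventually hs).exists
  obtain ⟨v', hv', hvs'⟩ := ((h.pure w' b hb).and_eventually hs').exists
  obtain ⟨h1, h2, h3⟩ := hss (mk_mem_prod hvs hvs')
  simp only at h1 h2 h3
  have hvU : v ∈ U a := h.mem_of_single (by rw [hv])
  have hvU' : v' ∈ U b := h.mem_of_single (by rw [hv'])
  have hD0 : 0 < dist v v' := by
    by_contra hcon2
    have : dist v v' = 0 := le_antisymm (not_lt.1 hcon2) dist_nonneg
    rw [this, mul_zero] at h1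
    exact absurd h1 (not_lt.2 (abs_nonneg _))
  have hD2 : dist v v' < 2 * ε := by
    have := dist_triangle_right v v' z
    linarith
  have hn : ‖q - z‖ = 1 := by rw [← dist_eq_norm]; exact hq
  obtain ⟨p, hp1, hp2, hp3⟩ := common_near555 (w := v) (w' := v') (n := q - z) hn
    (D := dist v v') (by rw [← dist_eq_norm, dist_comm]) hD0 (by linarith) (η := ε) (by nlinarith [hε.1])
    h1.le
  have hpq : dist p q < ρ := by
    have e : p - q = (p - (v + v') / 2 - (q - z)) + ((v - z) / 2 + (v' - z) / 2) := by ring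
    have n1 : ‖p - (v + v') / 2 - (q - z)‖ < 4 * ε := by
      have h6 : (dist v v') ^ 2 ≤ 4 * ε ^ 2 := by nlinarith [dist_nonneg (x := v) (y := v')]
      have h7 := norm_nonneg (p - (v + v') / 2 - (q - z))
      nlinarith [hε.1]
    have n2 : ‖(v - z) / 2‖ < ε / 2 := by
      rw [norm_div, ← dist_eq_norm]; simp; linarith
    have n3 : ‖(v' - z) / 2‖ < ε / 2 := by
      rw [norm_div, ← dist_eq_norm]; simp; linarith
    have n4 := norm_add₃_le (a := p - (v + v') / 2 - (q - z)) (b := (v - z) / 2)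
      (c := (v' - z) / 2)
    rw [dist_eq_norm, e, ← add_assoc]
    linarith
  obtain ⟨i, hi⟩ := h.ne p
  rcases hT (hρT hpq hi) with h8 | h8
  · exact h.mx.notMem' hvU (by rw [dist_comm]; exact hp1) (h.sub p (h8 ▸ hi))
  · rw [mem_singleton_iff] at h8
    exact h.mx.notMem' hvU' (by rw [dist_comm]; exact hp2) (h.sub p (h8 ▸ hi))

end Irr

end Vale.Agent.P032.Six
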