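import Vale.Agent.P032.S5.H555.Tangent

/-!
# P032: the contact graph of a point has no cut colour (wild)

`Irr.no_cut`: `T z = {x} ∪ A ∪ B`, `A`, `B` nonempty and disjoint, `|A| ≤ 2`; not all pairs
`{a, b}`, `a ∈ A`, `b ∈ B`, are broken at `z`.
-/

open Set Filter Topology Metric

noncomputable section

namespace Vale.Agent.P032.Six

namespace Irr

variable {U : Fin 6 → Set ℂ} {T : ℂ → Set (Fin 6)}

/-- the circle about `v` near `z` is not covered by points with four colours -/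
theorem td_circle555 (h : Irr U T) {z v : ℂ} (hv : dist v z = 1) {δ : ℝ} (hδ : 0 < δ) :
    ∃ p, dist p v = 1 ∧ dist p z < δ ∧ (T p).ncard ≤ 3 := by
  by_contra hcon
  push Not at hcon
  obtain ⟨t0, ht0⟩ := exists_cis (u := z - v) (by rw [← dist_eq_norm, dist_comm]; exact hv)
  have hz0 : v + cis t0 = z := by rw [← ht0]; ring
  have hc : Continuous fun t : ℝ => v + cis t := continuous_const.add continuous_cis
  obtain ⟨η, hη, hηδ⟩ := Metric.continuousAt_iff.1 (hc.continuousAt (x := t0)) δ hδ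
  rw [hz0] at hηδ
  have hsub : (fun t : ℝ => v + cis t) '' Ioo (t0 - η) (t0 + η) ⊆ {x | 4 ≤ (T x).ncard} := by
    rintro _ ⟨t, ht, rfl⟩
    have h1 : dist t t0 < η := by
      rw [Real.dist_eq, abs_lt]
      exact ⟨by linarith [ht.1], by linarith [ht.2]⟩
    have h2 := hcon (v + cis t) (dist_add_cis v t) (hηδ h1)
    show 4 ≤ (T (v + cis t)).ncard
    omega
  have hss := h.td _ hsub (isPreconnected_Ioo.image _ hc.continuousOn)
  -- injectivity of the arc
  obtain ⟨τ, hτ⟩ : ∃ τ, τ = min (η / 2) 1 := ⟨_, rfl⟩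
  have hτ0 : 0 < τ := by rw [hτ]; positivity
  have hτ1 : τ ≤ 1 := by rw [hτ]; exact min_le_right _ _
  have hτη : τ < η := by
    have := min_le_left (η / 2) 1
    rw [← hτ] at this
    linarith
  have e1 := hss ⟨t0, ⟨by linarith, by linarith⟩, rfl⟩ ⟨t0 + τ, ⟨by linarith, by linarith⟩, rfl⟩
  have e2 : cis t0 = cis (t0 + τ) := by
    have e3 : v + cis t0 = v + cis (t0 + τ) := e1
    exact add_left_cancel e3
  have e3 : cis (t0 + τ) = cis t0 * cis τ := by
    unfold cis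
    rw [← Complex.exp_add]
    congr 1
    push_cast
    ring
  rw [e3] at e2
  have hne : cis t0 ≠ 0 := by
    intro h0
    have := norm_cis t0
    rw [h0, norm_zero] at this
    norm_num at this
  have e4 : cis τ = 1 := by
    have : cis t0 * 1 = cis t0 * cis τ := by rw [mul_one]; exact e2
    exact (mul_left_cancel₀ hne this).symm
  have e5 : Real.cos τ = 1 := by rw [← cis_re, e4]; simp
  have hpi := Real.pi_gt_three
  have e6 := (Real.cos_eq_one_iff_of_lt_of_lt (x := τ) (by linarith) (by linarith)).1 e5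
  linarith

/-- **Cut lemma.** -/
theorem no_cut (h : Irr U T)
    (hmin : ∀ z, 4 ≤ (T z).ncard → ∀ s, s ⊆ T z → s ≠ T z →
      ¬ ∀ᶠ w in 𝓝 z, ∃ i ∈ s, w ∈ U i ∨ (w ∈ XX U ∧ i ∈ Pal U w)) {z : ℂ} {x : Fin 6}
    {A B : Set (Fin 6)} (h4 : 4 ≤ (T z).ncard) (hz : T z = insert x (A ∪ B)) (hxA : x ∉ A)
    (hxB : x ∉ B) (hAB : Disjoint A B) (hAne : A.Nonempty) (hBne : B.Nonempty)
    (hA2 : A.ncard ≤ 2)
    (hbr : ∀ a ∈ A, ∀ b ∈ B, ∃ q, dist q z = 1 ∧ T q = {a, b}) : False := by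
  have hxz : x ∈ T z := by rw [hz]; exact mem_insert _ _
  have hAz : A ⊆ T z := by rw [hz]; exact fun i hi => Or.inr (Or.inl hi)
  have hBz : B ⊆ T z := by rw [hz]; exact fun i hi => Or.inr (Or.inr hi)
  have hdis : ∀ i, i ∈ A → i ∉ B := fun i h1 h2 => Set.disjoint_left.1 hAB h1 h2
  -- the two types
  have hsp := h.split hmin hz.subset hAz hBz hA2 hAB hbr
  obtain ⟨vA, hvA, δA, hδA, hfrA⟩ := h.type_arc hmin h4 hxz hAz hAne hxA (by
    filter_upwards [hsp] with w h1 h2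
    rcases h1 h2 with h3 | h3
    · exact Or.inl h3
    · exact Or.inr (hAB.mono_right h3))
  obtain ⟨vB, hvB, δB, hδB, hfrB⟩ := h.type_arc hmin h4 hxz hBz hBne hxB (by
    filter_upwards [hsp] with w h1 h2
    rcases h1 h2 with h3 | h3
    · exact Or.inr (hAB.symm.mono_right h3)
    · exact Or.inl h3)
  have hcA : ∀ p, dist p vA = 1 → dist p z < δA → ∃ a ∈ A, a ∈ T p := fun p h1 h2 =>
    h.type_curve hfrA h1 h2
  have hcB : ∀ p, dist p vB = 1 → dist p z < δB → ∃ b ∈ B, b ∈ T p := fun p h1 h2 =>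
    h.type_curve hfrB h1 h2
  -- equal centres
  by_cases heq : vA = vB
  · have hnl : ∀ᶠ w in 𝓝 z, ∀ a b, a ∈ A → b ∈ B → ({a, b} : Set (Fin 6)) ⊆ T w →
        4 ≤ (T w).ncard := by
      rw [eventually_all]
      intro a
      rw [eventually_all]
      intro b
      by_cases h1 : a ∈ A ∧ b ∈ B
      · obtain ⟨q, hq1, hq2⟩ := hbr a h1.1 b h1.2
        filter_upwards [h.no_layer hq1] with w h3 _ _
        rw [hq2] at h3
        exact h3
      · exact Eventually.of_forall fun w h2 h3 => absurd ⟨h2, h3⟩ h1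
    obtain ⟨r, hr, hrs⟩ := Metric.eventually_nhds_iff.1 hnl
    obtain ⟨p, hp1, hp2, hp3⟩ := h.td_circle555 hvA (δ := min r (min δA δB)) (by positivity)
    obtain ⟨a, haA, ha⟩ := hcA p hp1 (lt_of_lt_of_le hp2
      ((min_le_right _ _).trans (min_le_left _ _)))
    obtain ⟨b, hbB, hb⟩ := hcB p (heq ▸ hp1) (lt_of_lt_of_le hp2
      ((min_le_right _ _).trans (min_le_right _ _)))
    have h1 := hrs (lt_of_lt_of_le hp2 (min_le_left _ _)) a b haA hbB
      (by rintro m (rfl | rfl) <;> assumption)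
    omega
  by_cases hopp : vA + vB ≠ 2 * z
  · -- transversal circles
    obtain ⟨t0, ht0⟩ := exists_cis (u := z - vA) (by rw [← dist_eq_norm, dist_comm]; exact hvA)
    have hz0 : vA + cis t0 = z := by rw [← ht0]; ring
    have hc : Continuous fun t : ℝ => vA + cis t := continuous_const.add continuous_cis
    obtain ⟨η, hη, hηδ⟩ := Metric.continuousAt_iff.1 (hc.continuousAt (x := t0)) (min δA δB)
      (lt_min hδA hδB)
    rw [hz0] at hηδ
    have hcr : cr (cis t0) (vA + cis t0 - vB) ≠ 0 := by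
      rw [hz0, ← ht0]
      exact cr_ne (by rw [dist_comm]; exact hvA) (by rw [dist_comm]; exact hvB) heq hopp
    have hcross := crossing (c := vA) (q₀ := vB) (t0 := t0)
      (by rw [hz0, dist_comm]; exact hvB) hcr hη
    obtain ⟨g, ⟨-, hg⟩, t, ht, hgt⟩ := (hfrB.and_eventually hcross).exists
    have h1 : dist (vA + cis t) z < min δA δB := hηδ (by rw [Real.dist_eq]; exact ht)
    obtain ⟨a, haA, ha⟩ := hcA _ (dist_add_cis vA t) (lt_of_lt_of_le h1 (min_le_left _ _))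
    exact hdis a haA (hg _ hgt (lt_of_lt_of_le h1 (min_le_right _ _)) ha)
  push Not at hopp
  -- tangent circles
  obtain ⟨n, hn⟩ : ∃ n, n = vA - z := ⟨_, rfl⟩
  have hvA' : vA = z + n := by rw [hn]; ring
  have hvB' : vB = z - n := by rw [hn]; linear_combination hopp
  have hn1 : ‖n‖ = 1 := by rw [hn, ← dist_eq_norm]; exact hvA
  -- generic exact points
  have hqex : ∀ a b, ∃ q, a ∈ A → b ∈ B →
      dist q z = 1 ∧ T q = {a, b} ∧ ip (n * Complex.I) (q - z) ≠ 0 := by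
    intro a b
    by_cases h1 : a ∈ A ∧ b ∈ B
    · obtain ⟨q0, hq01, hq02⟩ := hbr a h1.1 b h1.2
      have hs : {q | T q = {a, b}} ∈ 𝓝[sphere z 1] q0 := by
        filter_upwards [mem_nhdsWithin_of_mem_nhds (h.nhd q0), self_mem_nhdsWithin] with p h2 h3
        rw [hq02] at h2
        exact h.pair_of_sub h3 (h.sub z (hAz h1.1)) (h.sub z (hBz h1.2)) h2
      obtain ⟨q, hq, hqz, hqy, hqy2, -⟩ := exists_generic (y := vA) hq01 hs
      refine ⟨q, fun _ _ => ⟨hqz, hq, ?_⟩⟩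
      have h2 := cr_ne (z := z) (c := vA) (q := q) (by rw [dist_comm]; exact hvA)
        (by rw [dist_comm]; exact hqz) (Ne.symm hqy) (by rw [add_comm]; exact hqy2)
      intro h3
      refine h2 ?_
      have h4 : cr (z - vA) (z - q) = ip (n * Complex.I) (q - z) := by
        rw [hvA']
        unfold cr ip
        simp
        ring
      rw [h4]; exact h3
    · exact ⟨0, fun h2 h3 => absurd ⟨h2, h3⟩ h1⟩
  choose q hq using hqex
  have hE1 : ∀ᶠ ε : ℝ in 𝓝[>] 0, ∀ a b, a ∈ A → b ∈ B → ∀ w w', dist w z < ε → dist w' z < ε →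
      a ∈ T w → b ∈ T w' → w ≠ w' → ε * dist w w' ≤ |ip (w' - w) (q a b - z)| := by
    rw [eventually_all]
    intro a
    rw [eventually_all]
    intro b
    by_cases h1 : a ∈ A ∧ b ∈ B
    · obtain ⟨hq1, hq2, -⟩ := hq a b h1.1 h1.2
      filter_upwards [h.cross hq1 hq2.subset] with ε h3 _ _
      exact h3
    · exact Eventually.of_forall fun w h2 h3 => absurd ⟨h2, h3⟩ h1
  have hE2 : ∀ᶠ c : ℝ in 𝓝[>] 0, ∀ a b, a ∈ A → b ∈ B →
      c ≤ |ip (n * Complex.I) (q a b - z)| := by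
    rw [eventually_all]
    intro a
    rw [eventually_all]
    intro b
    by_cases h1 : a ∈ A ∧ b ∈ B
    · obtain ⟨-, -, hq3⟩ := hq a b h1.1 h1.2
      filter_upwards [mem_nhdsWithin_of_mem_nhds (Iio_mem_nhds (abs_pos.2 hq3))] with c h3 _ _
      exact le_of_lt h3
    · exact Eventually.of_forall fun w h2 h3 => absurd ⟨h2, h3⟩ h1
  obtain ⟨ε, hεE, hε0, hε1⟩ := (hE1.and ((eventually_mem_nhdsWithin).and
    (mem_nhdsWithin_of_mem_nhds (Iio_mem_nhds (show (0 : ℝ) < 1 by norm_num))))).exists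
  have hε0 : 0 < ε := hε0
  have hε1 : ε ≤ 1 := le_of_lt hε1
  obtain ⟨c, hcE, hc0⟩ := (hE2.and (eventually_mem_nhdsWithin)).exists
  have hc0 : 0 < c := hc0
  have hmn : ∀ a b, a ∈ A → b ∈ B → ‖q a b - z‖ = 1 := fun a b h1 h2 => by
    rw [← dist_eq_norm]; exact (hq a b h1 h2).1
  have hc1 : c ≤ 1 := by
    obtain ⟨a, ha⟩ := hAne
    obtain ⟨b, hb⟩ := hBne
    exact (hcE a b ha hb).trans (c_le_one555 hn1 (hmn a b ha hb))
  -- the size of `g`
  obtain ⟨ρ1, hρ1⟩ : ∃ ρ1, ρ1 = min (ε * c ^ 3 / 128) (c / 4 * min ε (min δA δB)) := ⟨_, rfl⟩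
  have hρ1pos : 0 < ρ1 := by rw [hρ1]; positivity
  have hopen : {g : ℂ | |‖g - z‖ - 1| < ρ1 ∧ ‖g - z‖ / 2 < |ip (g - z) n|} ∈ 𝓝 vB := by
    have c1 : Continuous fun g : ℂ => ‖g - z‖ := by fun_prop
    have c2 : Continuous fun g : ℂ => ip (g - z) n := by
      unfold ip
      have c3 : Continuous fun g : ℂ => g - z := by fun_prop
      exact ((Complex.continuous_re.comp c3).mul continuous_const).add
        ((Complex.continuous_im.comp c3).mul continuous_const)
    refine IsOpen.mem_nhds ((isOpen_lt (c1.sub continuous_const).abs continuous_const).inter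
      (isOpen_lt (c1.div_const 2) c2.abs)) ?_
    have e1 : vB - z = -n := by rw [hvB']; ring
    have e2 : ip (-n) n = -1 := by
      have := ip_sq hn1
      unfold ip
      simp
      nlinarith
    refine ⟨?_, ?_⟩
    · show |‖vB - z‖ - 1| < ρ1
      rw [e1, norm_neg, hn1]; simpa using hρ1pos
    · show ‖vB - z‖ / 2 < |ip (vB - z) n|
      rw [e1, e2, norm_neg, hn1]; norm_num
  obtain ⟨g, ⟨hgU, hgB⟩, hg1, hg2⟩ := (hfrB.and_eventually hopen).exists
  have hgz : ‖g - z‖ ≠ 1 := by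
    intro h1
    exact h.mx.notMem' hgU (by rw [dist_eq_norm]; exact h1) (h.sub z hxz)
  have hgpos : 0 < ‖g - z‖ := by
    have h1 : ρ1 ≤ 1 / 128 := by
      have h2 : ρ1 ≤ ε * c ^ 3 / 128 := by rw [hρ1]; exact min_le_left _ _
      have h3 : c ^ 3 ≤ 1 := pow_le_one₀ hc0.le hc1
      have h5 : 0 < c ^ 3 := by positivity
      nlinarith
    have h2 := (abs_lt.1 hg1).1
    linarith
  obtain ⟨l, hl⟩ : ∃ l : ℝ, l = 1 - ‖g - z‖⁻¹ := ⟨_, rfl⟩
  obtain ⟨ω, hω⟩ : ∃ ω : ℂ, ω = (l : ℂ) * (g - z) := ⟨_, rfl⟩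
  obtain ⟨ρ, hρ⟩ : ∃ ρ, ‖ω‖ = ρ := ⟨_, rfl⟩
  have hlρ : |l| * ‖g - z‖ = ρ := by
    rw [← hρ, hω, norm_mul, Complex.norm_real, Real.norm_eq_abs]
  have hρe : ρ = |‖g - z‖ - 1| := by
    rw [← hlρ, hl]
    have e1 : ‖g - z‖ - 1 = (1 - ‖g - z‖⁻¹) * ‖g - z‖ := by field_simp
    rw [e1, abs_mul, abs_of_pos hgpos]
  have hρ0 : 0 < ρ := by rw [hρe]; exact abs_pos.2 (sub_ne_zero.2 hgz)
  have hρρ1 : ρ < ρ1 := by rw [hρe]; exact hg1
  have hsm : 128 * ρ ≤ ε * c ^ 3 := by
    have : ρ1 ≤ ε * c ^ 3 / 128 := by rw [hρ1]; exact min_le_left _ _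
    linarith
  have hρδ : ρ / c * 4 < min ε (min δA δB) := by
    have h1 : ρ1 ≤ c / 4 * min ε (min δA δB) := by rw [hρ1]; exact min_le_right _ _
    have h2 : ρ < c / 4 * min ε (min δA δB) := lt_of_lt_of_le hρρ1 h1
    have h3 : ρ / c < 1 / 4 * min ε (min δA δB) := by
      rw [div_lt_iff₀ hc0]
      calc ρ < c / 4 * min ε (min δA δB) := h2
        _ = 1 / 4 * min ε (min δA δB) * c := by ring
    linarith
  have hδ1 : min ε (min δA δB) ≤ ε := min_le_left _ _
  have hδ2 : min ε (min δA δB) ≤ δA := (min_le_right _ _).trans (min_le_left _ _)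
  have hδ3 : min ε (min δA δB) ≤ δB := (min_le_right _ _).trans (min_le_right _ _)
  obtain ⟨k1, k2, -⟩ := small555 hc0 hc1 hε0 hε1 hρ0 hsm
  have hρc0 : 0 < ρ / c := by positivity
  -- the point `z + ω`
  have hw0g : dist (z + ω) g = 1 := by
    rw [dist_eq_norm]
    have e1 : z + ω - g = ((-‖g - z‖⁻¹ : ℝ) : ℂ) * (g - z) := by
      rw [hω, hl]; push_cast; ring
    rw [e1, norm_mul, Complex.norm_real, Real.norm_eq_abs, abs_neg, abs_inv, abs_norm]
    exact inv_mul_cancel₀ hgpos.ne'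
  have hw0z : dist (z + ω) z = ρ := by
    rw [dist_eq_norm, add_sub_cancel_left, hρ]
  have hTw0 : T (z + ω) ⊆ B := hgB _ hw0g (by rw [hw0z]; linarith)
  obtain ⟨β, hβ⟩ := h.ne (z + ω)
  have hβB : β ∈ B := hTw0 hβ
  have hωn : ρ / 2 ≤ |ip ω n| := by
    have e1 : ip ω n = l * ip (g - z) n := by
      rw [hω]; unfold ip; simp; ring
    rw [e1, abs_mul, ← hlρ]
    have h1 : |l| * (‖g - z‖ / 2) ≤ |l| * |ip (g - z) n| :=
      mul_le_mul_of_nonneg_left hg2.le (abs_nonneg _)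
    linarith
  -- a first colour of `A`
  obtain ⟨a1, ha1⟩ := hAne
  have hm1 := hmn a1 β ha1 hβB
  have hs1c := hcE a1 β ha1 hβB
  have hs1ne : ip (n * Complex.I) (q a1 β - z) ≠ 0 := (hq a1 β ha1 hβB).2.2
  have hs1pos : 0 < |ip (n * Complex.I) (q a1 β - z)| := abs_pos.2 hs1ne
  have hωm : ε * ρ ≤ |ip ω (q a1 β - z)| := by
    have h1 := hεE a1 β ha1 hβB z (z + ω) (by rw [dist_self]; exact hε0)
      (by rw [hw0z]; linarith) (hAz ha1) hβ (by
        intro h2
        have : ω = 0 := by linear_combination -h2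
        rw [this, norm_zero] at hρ
        linarith)
    rw [dist_comm, hw0z, add_sub_cancel_left] at h1
    exact h1
  obtain ⟨s0, hs0⟩ : ∃ s0, s0 = -(ip ω (q a1 β - z)) / ip (n * Complex.I) (q a1 β - z) :=
    ⟨_, rfl⟩
  have hωm2 : |ip ω (q a1 β - z)| ≤ ρ := by
    have := abs_ip_le555 ω (q a1 β - z)
    rw [hρ, hm1, mul_one] at this
    exact this
  have hs0b : |s0| ≤ ρ / c := by
    rw [hs0, abs_div, abs_neg, div_le_div_iff₀ hs1pos hc0]
    exact mul_le_mul hωm2 hs1c hc0.le hρ0.le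
  have hs0ne : s0 ≠ 0 := by
    have h1 : 0 < ε * ρ := by positivity
    have h2 : ip ω (q a1 β - z) ≠ 0 := abs_pos.1 (by linarith)
    rw [hs0]
    exact div_ne_zero (neg_ne_zero.2 h2) hs1ne
  have hcc : c ^ 2 ≤ 1 := pow_le_one₀ hc0.le hc1
  have hεc : ε * c ^ 2 ≤ 1 := by nlinarith
  have hκ : ε / 16 * ρ ≤ ρ / c := by nlinarith
  have hbig : ∀ s, |s - s0| ≤ ε / 16 * ρ → |s| ≤ 2 * (ρ / c) := by
    intro s hs
    have h1 : |s| ≤ |s - s0| + |s0| := by
      have := abs_add_le (s - s0) s0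
      rwa [sub_add_cancel] at this
    linarith
  have hGA : ∀ s, |s| ≤ 2 * (ρ / c) → dist (z + n * (1 - cis s)) vA = 1 ∧
      dist (z + n * (1 - cis s)) z < min ε (min δA δB) := by
    intro s hs
    constructor
    · rw [dist_eq_norm, hvA']
      have e1 : z + n * (1 - cis s) - (z + n) = -(n * cis s) := by ring
      rw [e1, norm_neg, norm_mul, hn1, norm_cis, one_mul]
    · rw [dist_eq_norm, add_sub_cancel_left, norm_mul, hn1, one_mul]
      have h1 := norm_one_sub_cis555 (s := s) (by linarith)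
      linarith
  -- the second colour of `A` on an interval
  have hcard : ∃ a2 ∈ A, ∀ s, |s - s0| ≤ ε / 16 * ρ → a2 ∈ T (z + n * (1 - cis s)) := by
    have hkey : ∀ s, |s - s0| ≤ ε / 16 * ρ → ∃ a ∈ A, a ≠ a1 ∧ a ∈ T (z + n * (1 - cis s)) := by
      intro s hs
      obtain ⟨hG1, hG2⟩ := hGA s (hbig s hs)
      obtain ⟨a, haA, ha⟩ := hcA _ hG1 (by linarith)
      refine ⟨a, haA, ?_, ha⟩
      rintro rfl
      have h1 := hεE a β haA hβB (z + n * (1 - cis s)) (z + ω) (by linarith)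
        (by rw [hw0z]; linarith) ha hβ (by
          intro h2
          rw [h2] at ha
          exact hdis a haA (hTw0 ha))
      have h2 := far555 (ω := ω) hn1 hm1 hc0 hs1c hε0 hε1 hρ hρ0 hsm hωn (s := s)
        (by rw [← hs0]; exact hs)
      have e1 : z + ω - (z + n * (1 - cis s)) = ω - n * (1 - cis s) := by ring
      rw [dist_comm, dist_eq_norm, e1] at h1
      linarith
    have hκ0 : 0 ≤ ε / 16 * ρ := by positivity
    obtain ⟨a2, ha2A, ha21, -⟩ := hkey s0 (by rw [sub_self, abs_zero]; exact hκ0)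
    refine ⟨a2, ha2A, fun s hs => ?_⟩
    obtain ⟨a, haA, haa1, ha⟩ := hkey s hs
    have : a = a2 := by
      by_contra hne
      have h8 : ({a1, a2, a} : Set (Fin 6)) ⊆ A := by
        rintro m (rfl | rfl | rfl) <;> assumption
      have h9 := Set.ncard_le_ncard h8 (Set.toFinite _)
      rw [Set.ncard_insert_of_notMem (by simp [ha21.symm, haa1.symm]),
        Set.ncard_pair (Ne.symm hne)] at h9
      omega
    rw [← this]; exact ha
  obtain ⟨a2, ha2A, ha2⟩ := hcard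
  -- the point of the other circle
  have hF1 : dist (z - n * (1 - cis (-s0))) vB = 1 := by
    rw [dist_eq_norm, hvB']
    have e1 : z - n * (1 - cis (-s0)) - (z - n) = n * cis (-s0) := by ring
    rw [e1, norm_mul, hn1, norm_cis, one_mul]
  have hF2 : dist (z - n * (1 - cis (-s0))) z < min ε (min δA δB) := by
    rw [dist_eq_norm]
    have e1 : z - n * (1 - cis (-s0)) - z = -(n * (1 - cis (-s0))) := by ring
    rw [e1, norm_neg, norm_mul, hn1, one_mul]
    have h1 := norm_one_sub_cis555 (s := -s0) (by rw [abs_neg]; linarith)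
    rw [abs_neg] at h1
    linarith
  obtain ⟨b1, hb1B, hb1⟩ := hcB _ hF1 (by linarith)
  obtain ⟨σ, hσ, hσ0⟩ := ivt555 hn1 (hmn a2 b1 ha2A hb1B) hc0 (hcE a2 b1 ha2A hb1B) hε0 hε1 hρ0
    hsm hs0b
  have hσ' : |s0 + σ - s0| ≤ ε / 16 * ρ := by rw [add_sub_cancel_left]; exact hσ
  have ha2' := ha2 (s0 + σ) hσ'
  obtain ⟨hG1, hG2⟩ := hGA (s0 + σ) (hbig _ hσ')
  by_cases hww : z + n * (1 - cis (s0 + σ)) = z - n * (1 - cis (-s0))
  · have hnne : n ≠ 0 := by
      intro h0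
      rw [h0, norm_zero] at hn1
      norm_num at hn1
    have e1 : n * (2 - cis (s0 + σ) - cis (-s0)) = 0 := by linear_combination hww
    have e2 : 2 - cis (s0 + σ) - cis (-s0) = 0 := (mul_eq_zero.1 e1).resolve_left hnne
    have e3 := congrArg Complex.re e2
    simp only [Complex.sub_re, cis_re, Complex.zero_re, Real.cos_neg] at e3
    have e4 : (2 : ℂ).re = 2 := by simp
    rw [e4] at e3
    have e5 := Real.cos_le_one (s0 + σ)
    have e6 := Real.cos_le_one s0
    have e7 : Real.cos s0 = 1 := by linarith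
    have hpi := Real.pi_gt_three
    have e8 := abs_le.1 hs0b
    have e9 : ρ / c ≤ 1 := by linarith
    exact hs0ne ((Real.cos_eq_one_iff_of_lt_of_lt (x := s0) (by linarith [e8.1])
      (by linarith [e8.2])).1 e7)
  · have h1 := hεE a2 b1 ha2A hb1B (z + n * (1 - cis (s0 + σ))) (z - n * (1 - cis (-s0)))
      (by linarith) (by linarith) ha2' hb1 hww
    have e1 : z - n * (1 - cis (-s0)) - (z + n * (1 - cis (s0 + σ))) =
        -(n * (1 - cis (s0 + σ)) + n * (1 - cis (-s0))) := by ring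
    have e2 : ip (-(n * (1 - cis (s0 + σ)) + n * (1 - cis (-s0)))) (q a2 b1 - z) = 0 := by
      have e3 : ∀ X Y : ℂ, ip (-X) Y = -ip X Y := by
        intro X Y; unfold ip; simp; ring
      rw [e3, hσ0, neg_zero]
    rw [e1, e2, abs_zero] at h1
    have h2 : 0 < dist (z + n * (1 - cis (s0 + σ))) (z - n * (1 - cis (-s0))) := dist_pos.2 hww
    have h3 : 0 < ε * dist (z + n * (1 - cis (s0 + σ))) (z - n * (1 - cis (-s0))) := by positivity
    linarith

end Irr

end Vale.Agent.P032.Six
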