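import Vale.Agent.P032.S5.H555.Cut

/-!
# P032: the nappes of a broken pair which cuts the contact graph (wild)

`T q = {a, b}`, `dist q z = 1`, the other colours of `z` are `X ∪ Y` and near `z` no point without
`a`, `b` has colours of both.  Then the two nappes orthogonal to `q - z` are not both of type `X`.
-/

open Set Filter Topology Metric Pointwise

noncomputable section

namespace Vale.Agent.P032.Six

/-- two points of a unit circle near `z` are joined on the circle near `z` (uniform) -/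
theorem circle_join555 {z y : ℂ} (hzy : dist z y = 1) {r δ : ℝ} (hδ0 : 0 < δ)
    (hδ1 : δ ≤ r / 6) (hδ2 : δ ≤ 1 / 8) {g w1 w2 : ℂ} (hg : dist g y < δ) (h1 : dist w1 z < δ)
    (h2 : dist w2 z < δ) (hg1 : dist w1 g = 1) (hg2 : dist w2 g = 1) :
    ∃ C : Set ℂ, IsPreconnected C ∧ w1 ∈ C ∧ w2 ∈ C ∧ ∀ x ∈ C, dist x g = 1 ∧ dist x z < r := by
  have hu0 : ‖z - y‖ = 1 := by rw [← dist_eq_norm]; exact hzy
  have m0 : ‖g - y‖ < δ := by rw [← dist_eq_norm]; exact hg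
  have m1 : ‖w1 - z‖ < δ := by rw [← dist_eq_norm]; exact h1
  have m2 : ‖w2 - z‖ < δ := by rw [← dist_eq_norm]; exact h2
  have hv1 : ‖(w1 - g) - (z - y)‖ < 2 * δ := by
    have e : (w1 - g) - (z - y) = (w1 - z) - (g - y) := by ring
    rw [e]
    have := norm_sub_le (w1 - z) (g - y)
    linarith
  have hv2 : ‖(w2 - g) - (z - y)‖ < 2 * δ := by
    have e : (w2 - g) - (z - y) = (w2 - z) - (g - y) := by ring
    rw [e]
    have := norm_sub_le (w2 - z) (g - y)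
    linarith
  let v : ℝ → ℂ := fun s => ((1 - s : ℝ) : ℂ) * (w1 - g) + (s : ℂ) * (w2 - g)
  have hv : ∀ s ∈ Icc (0 : ℝ) 1, ‖v s - (z - y)‖ ≤ 2 * δ := by
    intro s hs
    have e : v s - (z - y) = ((1 - s : ℝ) : ℂ) * ((w1 - g) - (z - y)) +
        (s : ℂ) * ((w2 - g) - (z - y)) := by
      simp only [v]; push_cast; ring
    rw [e]
    have n1 := norm_add_le (((1 - s : ℝ) : ℂ) * ((w1 - g) - (z - y)))
      ((s : ℂ) * ((w2 - g) - (z - y)))
    rw [norm_mul, norm_mul, Complex.norm_real, Complex.norm_real,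
      Real.norm_of_nonneg (by linarith [hs.2]), Real.norm_of_nonneg hs.1] at n1
    nlinarith [hs.1, hs.2]
  have hvn : ∀ s ∈ Icc (0 : ℝ) 1, |‖v s‖ - 1| ≤ 2 * δ := by
    intro s hs
    have := abs_norm_sub_norm_le (v s) (z - y)
    rw [hu0] at this
    exact this.trans (hv s hs)
  have hvpos : ∀ s ∈ Icc (0 : ℝ) 1, (0 : ℝ) < ‖v s‖ := by
    intro s hs
    have := (abs_le.1 (hvn s hs)).1
    linarith
  have hcont : ContinuousOn (fun s : ℝ => g + ((‖v s‖⁻¹ : ℝ) : ℂ) * v s) (Icc 0 1) := by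
    have hvc : Continuous v := by
      simp only [v]
      fun_prop
    refine continuousOn_const.add ?_
    refine ContinuousOn.mul ?_ hvc.continuousOn
    refine Complex.continuous_ofReal.comp_continuousOn ?_
    exact (hvc.norm.continuousOn).inv₀ fun s hs => (hvpos s hs).ne'
  refine ⟨(fun s : ℝ => g + ((‖v s‖⁻¹ : ℝ) : ℂ) * v s) '' Icc 0 1,
    isPreconnected_Icc.image _ hcont, ⟨0, by simp, ?_⟩, ⟨1, by simp, ?_⟩, ?_⟩
  · have e0 : v 0 = w1 - g := by simp [v]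
    simp only [e0]
    rw [← dist_eq_norm, hg1]
    simp
  · have e1 : v 1 = w2 - g := by simp [v]
    simp only [e1]
    rw [← dist_eq_norm, hg2]
    simp
  · rintro _ ⟨s, hs, rfl⟩
    have hp := hvpos s hs
    constructor
    · rw [dist_eq_norm, add_sub_cancel_left, norm_mul, Complex.norm_real,
        Real.norm_of_nonneg (inv_nonneg.2 hp.le)]
      exact inv_mul_cancel₀ hp.ne'
    · have e : g + ((‖v s‖⁻¹ : ℝ) : ℂ) * v s - z =
          (g - y) + (((‖v s‖⁻¹ - 1 : ℝ) : ℂ) * v s) + (v s - (z - y)) := by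
        push_cast; ring
      have n2 : ‖((‖v s‖⁻¹ - 1 : ℝ) : ℂ) * v s‖ ≤ 2 * δ := by
        rw [norm_mul, Complex.norm_real, Real.norm_eq_abs]
        have : |‖v s‖⁻¹ - 1| * ‖v s‖ = |‖v s‖ - 1| := by
          have e2 : |‖v s‖⁻¹ - 1| * ‖v s‖ = |(‖v s‖⁻¹ - 1) * ‖v s‖| := by
            rw [abs_mul, abs_of_pos hp]
          rw [e2, sub_mul, inv_mul_cancel₀ hp.ne', one_mul, abs_sub_comm]
        rw [this]
        exact hvn s hs
      have n3 := norm_add₃_le (a := g - y) (b := ((‖v s‖⁻¹ - 1 : ℝ) : ℂ) * v s)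
        (c := v s - (z - y))
      rw [dist_eq_norm, e]
      have := hv s hs
      linarith

/-- a unit circle through `w` transversal to the lines orthogonal to `n` reaches a given level -/
theorem level_cross555 {w g n : ℂ} (hg : dist w g = 1) (hn : ‖n‖ = 1) {c τ σ : ℝ} (hc : 0 < c)
    (hcn : c ≤ |ip ((w - g) * Complex.I) n|) (hτ : 0 < τ) (hsm : 16 * τ ≤ c ^ 2)
    (hσ : |σ| ≤ 2 * τ) :
    ∃ w3, dist w3 g = 1 ∧ ip (w3 - w) n = σ ∧ dist w3 w ≤ 8 * τ / c := by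
  have hwg : ‖w - g‖ = 1 := by rw [← dist_eq_norm]; exact hg
  have hc1 : c ≤ 1 := hcn.trans (c_le_one555 hwg hn)
  obtain ⟨θ, hθ⟩ : ∃ θ, θ = 4 * τ / c := ⟨_, rfl⟩
  have hθ0 : 0 < θ := by rw [hθ]; positivity
  have hθc : θ * c = 4 * τ := by rw [hθ]; field_simp
  have hθ1 : θ ≤ 1 := by
    rw [hθ, div_le_one hc]
    nlinarith
  have hθ2 : θ ^ 2 ≤ τ := by
    have h1 : θ ^ 2 * c ^ 2 = 16 * τ ^ 2 := by
      calc θ ^ 2 * c ^ 2 = (θ * c) ^ 2 := by ring
        _ = 16 * τ ^ 2 := by rw [hθc]; ring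
    have h2 : θ ^ 2 * c ^ 2 ≤ τ * c ^ 2 := by
      rw [h1]
      calc 16 * τ ^ 2 = τ * (16 * τ) := by ring
        _ ≤ τ * c ^ 2 := mul_le_mul_of_nonneg_left hsm hτ.le
    exact le_of_mul_le_mul_right h2 (by positivity)
  have hcont : Continuous fun s : ℝ => ip (g + (w - g) * cis s - w) n := by
    have h1 : Continuous fun s : ℝ => g + (w - g) * cis s - w := by
      have h2 := continuous_cis
      fun_prop
    unfold ip
    exact ((Complex.continuous_re.comp h1).mul continuous_const).add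
      ((Complex.continuous_im.comp h1).mul continuous_const)
  have hest : ∀ s : ℝ, |s| ≤ 1 →
      |ip (g + (w - g) * cis s - w) n - s * ip ((w - g) * Complex.I) n| ≤ s ^ 2 := by
    intro s hs
    have h1 := ip_rem555 hwg hn hs
    have e : ip (g + (w - g) * cis s - w) n - s * ip ((w - g) * Complex.I) n =
        -(ip ((w - g) * (1 - cis s)) n + s * ip ((w - g) * Complex.I) n) := by
      unfold ip
      simp
      ring
    rw [e, abs_neg]
    exact h1
  have hp := hest θ (by rw [abs_of_pos hθ0]; exact hθ1)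
  have hm := hest (-θ) (by rw [abs_neg, abs_of_pos hθ0]; exact hθ1)
  rw [abs_le] at hp hm hσ
  rw [neg_sq] at hm
  have hne : -θ ≤ θ := by linarith
  have hpos : 0 < |ip ((w - g) * Complex.I) n| := lt_of_lt_of_le hc hcn
  have hk : 4 * τ ≤ θ * |ip ((w - g) * Complex.I) n| := by
    rw [← hθc]
    exact mul_le_mul_of_nonneg_left hcn hθ0.le
  have hfin : ∀ s ∈ Icc (-θ) θ, ip (g + (w - g) * cis s - w) n = σ →
      ∃ w3, dist w3 g = 1 ∧ ip (w3 - w) n = σ ∧ dist w3 w ≤ 8 * τ / c := by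
    intro s hs hsσ
    refine ⟨g + (w - g) * cis s, ?_, hsσ, ?_⟩
    · rw [dist_eq_norm, add_sub_cancel_left, norm_mul, norm_cis, mul_one, hwg]
    · have e : g + (w - g) * cis s - w = -((w - g) * (1 - cis s)) := by ring
      rw [dist_eq_norm, e, norm_neg, norm_mul, hwg, one_mul]
      have hs' : |s| ≤ θ := abs_le.2 hs
      have h1 := norm_one_sub_cis555 (s := s) (by linarith)
      have h2 : 8 * τ / c = 2 * θ := by rw [hθ]; ring
      rw [h2]
      linarith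
  rcases lt_or_gt_of_ne (abs_pos.1 hpos) with h1 | h1
  · rw [abs_of_neg h1] at hk
    obtain ⟨s, hs, hs0⟩ := intermediate_value_Icc' hne hcont.continuousOn
      (show σ ∈ Icc _ _ from ⟨by nlinarith [hp.2], by nlinarith [hm.1]⟩)
    exact hfin s hs hs0
  · rw [abs_of_pos h1] at hk
    obtain ⟨s, hs, hs0⟩ := intermediate_value_Icc hne hcont.continuousOn
      (show σ ∈ Icc _ _ from ⟨by nlinarith [hm.2], by nlinarith [hp.1]⟩)
    exact hfin s hs hs0

/-- the situation near `z` for the lines orthogonal to `n` -/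
structure PC {k : ℕ} (T : ℂ → Set (Fin k)) (z : ℂ) (ρ r : ℝ) (n : ℂ) (a b : Fin k)
    (X Y : Set (Fin k)) : Prop where
  ne : a ≠ b
  disj : Disjoint X Y
  notY : a ∉ Y
  out : ∀ w, dist w z < ρ → a ∉ T w → b ∉ T w → T w ⊆ X ∨ T w ⊆ Y
  one : ∀ w, dist w z < ρ → ∀ t1 t2 : ℝ, |t1| ≤ r → |t2| ≤ r →
    a ∈ T (w + t1 * (Complex.I * n)) → b ∈ T (w + t2 * (Complex.I * n)) → t1 = t2
  typ : ∀ w, dist w z < ρ → T w ⊆ Y → (∃ t : ℝ, |t| ≤ r ∧ a ∈ T (w + t * (Complex.I * n))) ∨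
    ∃ t : ℝ, |t| ≤ r ∧ b ∈ T (w + t * (Complex.I * n))
  nbt : ∀ w, dist w z < ρ → T w ⊆ Y → (∃ t : ℝ, |t| ≤ r ∧ a ∈ T (w + t * (Complex.I * n))) →
    (∃ t : ℝ, |t| ≤ r ∧ b ∈ T (w + t * (Complex.I * n))) → False

namespace Irr

variable {k : ℕ} {U : Fin k → Set ℂ} {T : ℂ → Set (Fin k)}

/-- the points whose segment carries a colour form a closed set -/
theorem closed_seg555 (h : Irr U T) (i : Fin k) (m : ℂ) (r : ℝ) :
    IsClosed {w : ℂ | ∃ t : ℝ, |t| ≤ r ∧ i ∈ T (w + t * m)} := by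
  have h1 : {w : ℂ | ∃ t : ℝ, |t| ≤ r ∧ i ∈ T (w + t * m)} =
      {x | i ∈ T x} + (fun t : ℝ => -((t : ℂ) * m)) '' Icc (-r) r := by
    ext w
    rw [Set.mem_add]
    constructor
    · rintro ⟨t, ht, hi⟩
      exact ⟨w + t * m, hi, -((t : ℂ) * m), ⟨t, abs_le.1 ht, rfl⟩, by ring⟩
    · rintro ⟨x, hx, _, ⟨t, ht, rfl⟩, rfl⟩
      refine ⟨t, abs_le.2 ht, ?_⟩
      have : x + -((t : ℂ) * m) + t * m = x := by ring
      rw [this]; exact hx
  rw [h1]
  refine (h.closed i).add_right_of_isCompact ?_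
  exact isCompact_Icc.image (by fun_prop)

/-- a curve of `U a` through a point of type `a` consists of such points -/
theorem pc_curve (h : Irr U T) {z : ℂ} {ρ r : ℝ} {n : ℂ} {a b : Fin k} {X Y : Set (Fin k)}
    (P : PC T z ρ r n a b X Y) (hr : 0 ≤ r) {g : ℂ} (hgU : g ∈ U a) {C : Set ℂ}
    (hC : IsPreconnected C) (hCg : ∀ x ∈ C, dist x g = 1 ∧ dist x z < ρ) {w w3 : ℂ} (hw : w ∈ C)
    (hw3 : w3 ∈ C) (hTw : T w ⊆ Y)
    (hA : ∃ t : ℝ, |t| ≤ r ∧ a ∈ T (w + t * (Complex.I * n))) :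
    ∃ t : ℝ, |t| ≤ r ∧ a ∈ T (w3 + t * (Complex.I * n)) := by
  have haC : ∀ x ∈ C, a ∉ T x := fun x hx hax =>
    h.mx.notMem' hgU (by rw [dist_comm]; exact (hCg x hx).1) (h.sub x hax)
  obtain ⟨K1, hK1⟩ : ∃ K1, K1 = (⋃ y ∈ Y, {x | y ∈ T x}) ∩
    {w : ℂ | ∃ t : ℝ, |t| ≤ r ∧ a ∈ T (w + t * (Complex.I * n))} := ⟨_, rfl⟩
  obtain ⟨K2, hK2⟩ : ∃ K2, K2 = {x | b ∈ T x} ∪ (⋃ y ∈ X, {x | y ∈ T x}) ∪
    {w : ℂ | ∃ t : ℝ, |t| ≤ r ∧ b ∈ T (w + t * (Complex.I * n))} := ⟨_, rfl⟩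
  have hc1 : IsClosed K1 := by
    rw [hK1]
    exact ((Set.toFinite _).isClosed_biUnion fun y _ => h.closed y).inter
      (h.closed_seg555 a _ r)
  have hc2 : IsClosed K2 := by
    rw [hK2]
    exact ((h.closed b).union ((Set.toFinite _).isClosed_biUnion fun y _ => h.closed y)).union
      (h.closed_seg555 b _ r)
  have hmem1 : ∀ x, x ∈ K1 ↔ (∃ y ∈ Y, y ∈ T x) ∧
      ∃ t : ℝ, |t| ≤ r ∧ a ∈ T (x + t * (Complex.I * n)) := by
    intro x
    rw [hK1]
    simp only [mem_inter_iff, mem_iUnion, mem_ofPred_eq, exists_prop]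
  have hmem2 : ∀ x, x ∈ K2 ↔ (b ∈ T x ∨ ∃ y ∈ X, y ∈ T x) ∨
      ∃ t : ℝ, |t| ≤ r ∧ b ∈ T (x + t * (Complex.I * n)) := by
    intro x
    rw [hK2]
    simp only [mem_union, mem_iUnion, mem_ofPred_eq, exists_prop]
  have hcov : ∀ x ∈ C, x ∈ K1 ∪ K2 := by
    intro x hx
    obtain ⟨i, hi⟩ := h.ne x
    by_cases hb : b ∈ T x
    · exact Or.inr ((hmem2 x).2 (Or.inl (Or.inl hb)))
    · rcases P.out x (hCg x hx).2 (haC x hx) hb with h1 | h1
      · exact Or.inr ((hmem2 x).2 (Or.inl (Or.inr ⟨i, h1 hi, hi⟩)))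
      · rcases P.typ x (hCg x hx).2 h1 with h2 | h2
        · exact Or.inl ((hmem1 x).2 ⟨⟨i, h1 hi, hi⟩, h2⟩)
        · exact Or.inr ((hmem2 x).2 (Or.inr h2))
  by_cases hin : w3 ∈ K2
  · exfalso
    obtain ⟨i, hi⟩ := h.ne w
    obtain ⟨x, hxC, hx1, hx2⟩ := isPreconnected_closed_iff.1 hC K1 K2 hc1 hc2 hcov
      ⟨w, hw, (hmem1 w).2 ⟨⟨i, hTw hi, hi⟩, hA⟩⟩ ⟨w3, hw3, hin⟩
    obtain ⟨⟨y, hyY, hy⟩, hxA⟩ := (hmem1 x).1 hx1
    have hxρ := (hCg x hxC).2
    have hbx : b ∉ T x := by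
      intro hb
      obtain ⟨t1, ht1, hat1⟩ := hxA
      have h1 := P.one x hxρ t1 0 ht1 (by rw [abs_zero]; exact hr) hat1 (by simpa using hb)
      rw [h1] at hat1
      exact haC x hxC (by simpa using hat1)
    have hTx : T x ⊆ Y := by
      rcases P.out x hxρ (haC x hxC) hbx with h1 | h1
      · exact absurd hyY (Set.disjoint_left.1 P.disj (h1 hy))
      · exact h1
    rcases (hmem2 x).1 hx2 with (h1 | ⟨y', hy'X, hy'⟩) | h1
    · exact hbx h1
    · exact Set.disjoint_left.1 P.disj hy'X (hTx hy')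
    · exact P.nbt x hxρ hTx hxA h1
  · have h1 := (hcov w3 hw3).resolve_right hin
    exact ((hmem1 w3).1 h1).2

/-- no point of `U a` at distance one from a point of type `a` -/
theorem pc_kill (h : Irr U T) {z : ℂ} {ρ r : ℝ} {n : ℂ} {a b : Fin k} {X Y : Set (Fin k)}
    (P : PC T z ρ r n a b X Y) (hr : 0 ≤ r) (hn : ‖n‖ = 1) {δ c τ : ℝ} (hδ0 : 0 < δ)
    (hδ1 : δ ≤ ρ / 6) (hδ2 : δ ≤ 1 / 8) (hδr : 2 * δ ≤ r) (hc : 0 < c) (hτ : 0 < τ)
    (hsm : 16 * τ ≤ c ^ 2) (hτδ : τ + 8 * τ / c < δ) {g w wb : ℂ} (hgU : g ∈ U a)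
    (hwg : dist w g = 1) (hcn : c ≤ |ip ((w - g) * Complex.I) n|) (hw : dist w z < τ)
    (hwb : dist wb z < τ) (hTw : T w ⊆ Y) (hTb : T wb = {b})
    (hA : ∃ t : ℝ, |t| ≤ r ∧ a ∈ T (w + t * (Complex.I * n))) : False := by
  obtain ⟨w3, hw3g, hw3n, hw3w⟩ := level_cross555 hwg hn hc hcn hτ hsm (σ := ip (wb - w) n) (by
    have h1 := abs_ip_le555 (wb - w) n
    rw [hn, mul_one, ← dist_eq_norm] at h1
    have h2 := dist_triangle_right wb w z
    linarith)
  have h8 : 0 < 8 * τ / c := by positivity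
  have hw3z : dist w3 z < δ := by
    have := dist_triangle w3 w z
    linarith
  obtain ⟨C, hC, hwC, hw3C, hCg⟩ := circle_join555 (z := z) (y := g - w + z)
    (by rw [dist_comm, dist_eq_norm, add_sub_cancel_right, ← dist_eq_norm, dist_comm]; exact hwg)
    hδ0 hδ1 hδ2 (g := g) (w1 := w) (w2 := w3) (by
      have e : g - (g - w + z) = w - z := by ring
      rw [dist_eq_norm, e, ← dist_eq_norm]
      linarith) (by linarith) hw3z hwg hw3g
  obtain ⟨t1, ht1, hat1⟩ := h.pc_curve P hr hgU hC hCg hwC hw3C hTw hA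
  -- the point `wb` is on the line of `w3`
  have h0 : ip (wb - w3) n = 0 := by
    have e : ip (wb - w3) n = ip (wb - w) n - ip (w3 - w) n := by
      unfold ip; simp; ring
    rw [e, hw3n, sub_self]
  have hn2 : n.re ^ 2 + n.im ^ 2 = 1 := ip_sq hn
  obtain ⟨t, ht⟩ : ∃ t, t = ip (wb - w3) (Complex.I * n) := ⟨_, rfl⟩
  have hline : w3 + t * (Complex.I * n) = wb := by
    have e1 : (wb - w3).re * n.re + (wb - w3).im * n.im = 0 := h0
    have e2 : t = (wb - w3).re * (-n.im) + (wb - w3).im * n.re := by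
      rw [ht]; unfold ip; simp
    have e3 : wb - w3 = t * (Complex.I * n) := by
      apply Complex.ext
      · simp only [Complex.mul_re, Complex.I_re, Complex.I_im, Complex.ofReal_re,
          Complex.ofReal_im, Complex.mul_im]
        rw [e2]
        linear_combination (n.re) * e1 - (wb - w3).re * hn2
      · simp only [Complex.mul_re, Complex.I_re, Complex.I_im, Complex.ofReal_re,
          Complex.ofReal_im, Complex.mul_im]
        rw [e2]
        linear_combination (n.im) * e1 - (wb - w3).im * hn2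
    rw [← e3]; ring
  have htr : |t| ≤ r := by
    have h1 := abs_ip_le555 (wb - w3) (Complex.I * n)
    rw [norm_mul, Complex.norm_I, hn, one_mul, mul_one, ← dist_eq_norm, ← ht] at h1
    have h2 := dist_triangle_right wb w3 z
    linarith
  have h1 := P.one w3 (by linarith [(hCg w3 hw3C).2]) t1 t ht1 htr hat1
    (by rw [hline, hTb]; exact mem_singleton _)
  rw [h1, hline, hTb] at hat1
  exact P.ne hat1

end Irr

end Vale.Agent.P032.Six
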