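import Vale.Agent.P032.S5.H555.PairCut

/-!
# P032: the nappes of a broken pair which cuts the contact graph have different types (wild)
-/

open Set Filter Topology Metric

noncomputable section

namespace Vale.Agent.P032.Six

namespace Irr

variable {k : ℕ} {U : Fin k → Set ℂ} {T : ℂ → Set (Fin k)}

/-- each nappe has one type: a cone about the ray -/
theorem cone_type555 (h : Irr U T) {z q : ℂ} {a b : Fin k} {X Y : Set (Fin k)}
    (hXY : Disjoint X Y) (haz : a ∈ T z) (hbz : b ∈ T z)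
    (hsp : ∀ᶠ w in 𝓝 z, a ∉ T w → b ∉ T w → T w ⊆ X ∨ T w ⊆ Y) (hq : dist q z = 1)
    (hT : T q ⊆ {a, b}) {m : ℂ}
    (hm : m = Complex.I * (q - z) ∨ m = -(Complex.I * (q - z)))
    (hray : ∃ᶠ t : ℝ in 𝓝[>] 0, T (z + t * m) ⊆ X) :
    ∀ᶠ c : ℝ in 𝓝[>] 0, ∀ w, dist w z < c → 0 < ip (w - z) m →
      |ip (w - z) (q - z)| ≤ c * ip (w - z) m → T w ⊆ X := by
  have hn1 : ‖q - z‖ = 1 := by rw [← dist_eq_norm]; exact hq
  have hm1 : ‖m‖ = 1 := by
    rcases hm with rfl | rfl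
    · rw [norm_mul, Complex.norm_I, hn1, one_mul]
    · rw [norm_neg, norm_mul, Complex.norm_I, hn1, one_mul]
  have hmn : ip m (q - z) = 0 := by
    rcases hm with rfl | rfl <;> · unfold ip; simp; ring
  have hmm : ip m m = 1 := by
    have := ip_sq hm1
    unfold ip
    nlinarith
  obtain ⟨R, hR, hRs⟩ := Metric.eventually_nhds_iff.1 hsp
  have hcr1 := h.cross hq hT
  have hcr2 := h.cross hq (a := b) (b := a) (by rw [Set.pair_comm]; exact hT)
  obtain ⟨ε, ⟨he1, he2⟩, hε0⟩ := ((hcr1.and hcr2).and eventually_mem_nhdsWithin).exists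
  have hε0 : 0 < ε := hε0
  have hsmall : ∀ᶠ c : ℝ in 𝓝[>] 0, 0 < c ∧ c < min (ε / 2) (min R 1) := by
    filter_upwards [self_mem_nhdsWithin, mem_nhdsWithin_of_mem_nhds
      (Iio_mem_nhds (show (0 : ℝ) < min (ε / 2) (min R 1) by positivity))] with c h1 h2
    exact ⟨h1, h2⟩
  filter_upwards [hsmall] with c hc w hwz hwm hwn
  have hcε : c < ε / 2 := lt_of_lt_of_le hc.2 (min_le_left _ _)
  have hcR : c < R := lt_of_lt_of_le hc.2 ((min_le_right _ _).trans (min_le_left _ _))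
  have hfree : ∀ x, dist x z < c → 0 < ip (x - z) m → |ip (x - z) (q - z)| ≤ c * ip (x - z) m →
      a ∉ T x ∧ b ∉ T x := by
    intro x hx1 hx2 hx3
    have hxz : x ≠ z := by
      rintro rfl
      have : ip (x - x) m = 0 := by unfold ip; simp
      rw [this] at hx2
      exact lt_irrefl _ hx2
    have hd : 0 < dist x z := dist_pos.2 hxz
    have h4 : ip (x - z) m ≤ dist x z := by
      have h5 := abs_ip_le555 (x - z) m
      rw [hm1, mul_one, ← dist_eq_norm] at h5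
      exact (le_abs_self _).trans h5
    have h6 : c * ip (x - z) m ≤ c * dist x z := mul_le_mul_of_nonneg_left h4 hc.1.le
    have h7 : c * dist x z < ε * dist x z := mul_lt_mul_of_pos_right (by linarith) hd
    constructor
    · intro hax
      have h8 := he1 x z (by linarith) (by rw [dist_self]; exact hε0) hax hbz hxz
      have h9 : |ip (z - x) (q - z)| = |ip (x - z) (q - z)| := by
        have : ip (z - x) (q - z) = -ip (x - z) (q - z) := by unfold ip; simp; ring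
        rw [this, abs_neg]
      rw [h9] at h8
      linarith
    · intro hbx
      have h8 := he2 x z (by linarith) (by rw [dist_self]; exact hε0) hbx haz hxz
      have h9 : |ip (z - x) (q - z)| = |ip (x - z) (q - z)| := by
        have : ip (z - x) (q - z) = -ip (x - z) (q - z) := by unfold ip; simp; ring
        rw [this, abs_neg]
      rw [h9] at h8
      linarith
  -- a point of the ray
  have hray2 : ∃ᶠ t : ℝ in 𝓝[>] 0, T (z + t * m) ⊆ X ∧ 0 < t ∧ t < c := by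
    refine (hray.and_eventually ?_)
    filter_upwards [self_mem_nhdsWithin, mem_nhdsWithin_of_mem_nhds
      (Iio_mem_nhds hc.1)] with t h1 h2
    exact ⟨h1, h2⟩
  obtain ⟨t, htX, ht0, htc⟩ := hray2.exists
  -- the segment
  have hseg : ∀ s ∈ Icc (0 : ℝ) 1, ∀ p, p = ((1 - s : ℝ) : ℂ) * (z + t * m) + (s : ℂ) * w →
      T p ⊆ X ∨ T p ⊆ Y := by
    intro s hs p hp
    have e1 : p - z = ((1 - s : ℝ) : ℂ) * (t * m) + (s : ℂ) * (w - z) := by
      rw [hp]; push_cast; ring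
    have e2 : ∀ v : ℂ, ip (p - z) v = (1 - s) * t * ip m v + s * ip (w - z) v := by
      intro v
      rw [e1]; unfold ip; simp; ring
    have h1 : dist p z < c := by
      rw [dist_eq_norm, e1]
      have n1 := norm_add_le (((1 - s : ℝ) : ℂ) * (t * m)) ((s : ℂ) * (w - z))
      rw [norm_mul, norm_mul, norm_mul, Complex.norm_real, Complex.norm_real, Complex.norm_real,
        Real.norm_of_nonneg (by linarith [hs.2]), Real.norm_of_nonneg hs.1,
        Real.norm_of_nonneg ht0.le, hm1, mul_one, ← dist_eq_norm] at n1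
      have n2 : (1 - s) * t ≤ (1 - s) * Max.max t (dist w z) :=
        mul_le_mul_of_nonneg_left (le_max_left _ _) (by linarith [hs.2])
      have n3 : s * dist w z ≤ s * Max.max t (dist w z) :=
        mul_le_mul_of_nonneg_left (le_max_right _ _) hs.1
      have n4 : Max.max t (dist w z) < c := max_lt htc hwz
      linarith
    have h2 : 0 < ip (p - z) m := by
      rw [e2, hmm, mul_one]
      rcases eq_or_lt_of_le hs.1 with h3 | h3
      · rw [← h3]; simpa using ht0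
      · have : 0 ≤ (1 - s) * t := mul_nonneg (by linarith [hs.2]) ht0.le
        have := mul_pos h3 hwm
        linarith
    have h3 : |ip (p - z) (q - z)| ≤ c * ip (p - z) m := by
      rw [e2, e2, hmn, hmm, mul_zero, zero_add, mul_one, abs_mul, abs_of_nonneg hs.1]
      have h4 : s * |ip (w - z) (q - z)| ≤ s * (c * ip (w - z) m) :=
        mul_le_mul_of_nonneg_left hwn hs.1
      have h5 : 0 ≤ c * ((1 - s) * t) :=
        mul_nonneg hc.1.le (mul_nonneg (by linarith [hs.2]) ht0.le)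
      nlinarith
    obtain ⟨h4, h5⟩ := hfree p h1 h2 h3
    exact hRs (by linarith) h4 h5
  by_contra hcon
  have hcl1 : IsClosed (⋃ i ∈ X, {x | i ∈ T x}) :=
    (Set.toFinite _).isClosed_biUnion fun i _ => h.closed i
  have hcl2 : IsClosed (⋃ i ∈ Y, {x | i ∈ T x}) :=
    (Set.toFinite _).isClosed_biUnion fun i _ => h.closed i
  have hcont : Continuous fun s : ℝ => ((1 - s : ℝ) : ℂ) * (z + t * m) + (s : ℂ) * w := by
    fun_prop
  have hpre := (isPreconnected_Icc (a := (0 : ℝ)) (b := 1)).image _ hcont.continuousOn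
  have hmem : ∀ S : Set (Fin k), ∀ x, T x ⊆ S → x ∈ ⋃ i ∈ S, {x | i ∈ T x} := by
    intro S x hx
    obtain ⟨i, hi⟩ := h.ne x
    exact mem_iUnion₂.2 ⟨i, hx hi, hi⟩
  obtain ⟨p, ⟨s, hs, hp⟩, hp1, hp2⟩ := isPreconnected_closed_iff.1 hpre _ _ hcl1 hcl2
    (by
      rintro _ ⟨s, hs, rfl⟩
      rcases hseg s hs _ rfl with h1 | h1
      · exact Or.inl (hmem _ _ h1)
      · exact Or.inr (hmem _ _ h1))
    ⟨z + t * m, ⟨0, by simp, by simp⟩, hmem _ _ htX⟩
    ⟨w, ⟨1, by simp, by simp⟩, by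
      rcases hseg 1 (by simp) w (by simp) with h1 | h1
      · exact absurd h1 hcon
      · exact hmem _ _ h1⟩
  obtain ⟨i, hiX, hi⟩ := mem_iUnion₂.1 hp1
  obtain ⟨j, hjY, hj⟩ := mem_iUnion₂.1 hp2
  rcases hseg s hs p hp.symm with h1 | h1
  · exact Set.disjoint_left.1 hXY (h1 hj) hjY
  · exact Set.disjoint_left.1 hXY hiX (h1 hi)

/-- three directions near `q - z` -/
theorem dirs555 (h : Irr U T) {z q : ℂ} {a b : Fin k} (haz : a ∈ T z) (hbz : b ∈ T z)
    (hq : dist q z = 1) (hT : T q = {a, b}) {c : ℝ} (hc0 : 0 < c) :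
    ∃ n : Fin 3 → ℂ, (∀ j, ‖n j‖ = 1) ∧ (∀ j, T (z + n j) = {a, b}) ∧
      (∀ j, |ip (Complex.I * n j) (q - z)| < c / 8) ∧ (∀ j, 1 / 2 < ip (n j) (q - z)) ∧
      ∃ c0 : ℝ, (∀ i j, i ≠ j → 2 * c0 < |cr (n i) (n j)|) ∧ 0 < c0 ∧ c0 < 1 := by
  obtain ⟨n0, hn0⟩ : ∃ n0, n0 = q - z := ⟨_, rfl⟩
  have hn01 : ‖n0‖ = 1 := by rw [hn0, ← dist_eq_norm]; exact hq
  have hqn : z + n0 = q := by rw [hn0]; ring
  rw [← hn0]
  -- three directions
  have hdir : ∀ᶠ τ : ℝ in 𝓝[>] 0, ∀ j : Fin 3, T (z + n0 * cis ((j.val : ℝ) * τ)) = {a, b} ∧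
      |ip (Complex.I * (n0 * cis ((j.val : ℝ) * τ))) n0| < c / 8 ∧
      1 / 2 < ip (n0 * cis ((j.val : ℝ) * τ)) n0 := by
    rw [eventually_all]
    intro j
    have ht : Tendsto (fun τ : ℝ => n0 * cis ((j.val : ℝ) * τ)) (𝓝[>] 0) (𝓝 n0) := by
      have hcc : Continuous fun τ : ℝ => n0 * cis ((j.val : ℝ) * τ) := by
        have h2 := continuous_cis
        fun_prop
      have h1 := (hcc.tendsto 0).mono_left (nhdsWithin_le_nhds (s := Ioi 0))
      have h2 : n0 * cis ((j.val : ℝ) * 0) = n0 := by unfold cis; simp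
      rwa [h2] at h1
    have e1 : ∀ᶠ n in 𝓝 n0, T (z + n) ⊆ {a, b} := by
      have ht2 : Tendsto (fun n : ℂ => z + n) (𝓝 n0) (𝓝 q) := by
        have hcc : Continuous fun n : ℂ => z + n := by fun_prop
        have := hcc.tendsto n0
        rwa [hqn] at this
      have := ht2.eventually (h.nhd q)
      rwa [hT] at this
    have ipc : Continuous fun n : ℂ => ip n n0 := by
      unfold ip
      exact ((Complex.continuous_re).mul continuous_const).add
        ((Complex.continuous_im).mul continuous_const)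
    have e2 : ∀ᶠ n in 𝓝 n0, |ip (Complex.I * n) n0| < c / 8 := by
      have hcc : Continuous fun n : ℂ => |ip (Complex.I * n) n0| := by
        have h2 : Continuous fun n : ℂ => Complex.I * n := by fun_prop
        exact (ipc.comp h2).abs
      refine (hcc.tendsto n0).eventually (Iio_mem_nhds ?_)
      have : ip (Complex.I * n0) n0 = 0 := by unfold ip; simp; ring
      rw [this, abs_zero]; positivity
    have e3 : ∀ᶠ n in 𝓝 n0, 1 / 2 < ip n n0 := by
      refine (ipc.tendsto n0).eventually (Ioi_mem_nhds ?_)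
      have := ip_sq hn01
      have h2 : ip n0 n0 = 1 := by unfold ip; nlinarith
      rw [h2]; norm_num
    filter_upwards [ht.eventually e1, ht.eventually e2, ht.eventually e3] with τ h1 h2 h3
    refine ⟨?_, h2, h3⟩
    have hd : dist (z + n0 * cis ((j.val : ℝ) * τ)) z = 1 := by
      rw [dist_eq_norm, add_sub_cancel_left, norm_mul, hn01, norm_cis, one_mul]
    exact h.pair_of_sub hd (h.sub z haz) (h.sub z hbz) h1
  obtain ⟨τ, hτd, hτ0, hτ1⟩ := (hdir.and ((eventually_mem_nhdsWithin).and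
    (mem_nhdsWithin_of_mem_nhds (Iio_mem_nhds (show (0 : ℝ) < 1 by norm_num))))).exists
  have hτ0 : 0 < τ := hτ0
  have hτ1 : τ < 1 := hτ1
  obtain ⟨n, hn⟩ : ∃ n : Fin 3 → ℂ, n = fun j => n0 * cis ((j.val : ℝ) * τ) := ⟨_, rfl⟩
  have hnj : ∀ j, n j = n0 * cis ((j.val : ℝ) * τ) := fun j => by rw [hn]
  have hn1 : ∀ j, ‖n j‖ = 1 := fun j => by rw [hnj, norm_mul, hn01, norm_cis, one_mul]
  have hdn : ∀ j, dist (z + n j) z = 1 := fun j => by
    rw [dist_eq_norm, add_sub_cancel_left, hn1]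
  have hTn : ∀ j, T (z + n j) = {a, b} := fun j => by rw [hnj]; exact (hτd j).1
  have hnI : ∀ j, |ip (Complex.I * n j) n0| < c / 8 := fun j => by rw [hnj]; exact (hτd j).2.1
  have hnn : ∀ j, 1 / 2 < ip (n j) n0 := fun j => by rw [hnj]; exact (hτd j).2.2
  have hcr : ∀ i j, i ≠ j → cr (n i) (n j) ≠ 0 := by
    intro i j hij
    have e1 : cr (n i) (n j) = Real.sin (((j.val : ℝ) - i.val) * τ) := by
      rw [hnj, hnj]
      have e2 : (((j.val : ℝ) - i.val) * τ) = (j.val : ℝ) * τ - (i.val : ℝ) * τ := by ring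
      rw [e2, Real.sin_sub, ← cis_re, ← cis_im, ← cis_re, ← cis_im]
      have hsq := ip_sq hn01
      unfold cr
      simp only [Complex.mul_re, Complex.mul_im]
      linear_combination ((cis ((i.val : ℝ) * τ)).re * (cis ((j.val : ℝ) * τ)).im -
        (cis ((i.val : ℝ) * τ)).im * (cis ((j.val : ℝ) * τ)).re) * hsq
    rw [e1]
    have hi : (i.val : ℝ) ≤ 2 := by exact_mod_cast Nat.le_of_lt_succ i.isLt
    have hj : (j.val : ℝ) ≤ 2 := by exact_mod_cast Nat.le_of_lt_succ j.isLt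
    have hi0 : (0 : ℝ) ≤ (i.val : ℝ) := Nat.cast_nonneg _
    have hj0 : (0 : ℝ) ≤ (j.val : ℝ) := Nat.cast_nonneg _
    have hne : (j.val : ℝ) - i.val ≠ 0 := by
      intro h0
      exact hij (Fin.ext (by exact_mod_cast (sub_eq_zero.1 h0).symm))
    have hpi := Real.pi_gt_three
    have hne2 : ((j.val : ℝ) - i.val) * τ ≠ 0 := mul_ne_zero hne hτ0.ne'
    intro h0
    have h1 := (Real.sin_eq_zero_iff_of_lt_of_lt
      (x := ((j.val : ℝ) - i.val) * τ) (by nlinarith) (by nlinarith)).1 h0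
    exact hne2 h1
  refine ⟨n, hn1, hTn, hnI, hnn, ?_⟩
  have h1 : ∀ᶠ c0 : ℝ in 𝓝[>] 0, ∀ i j, i ≠ j → 2 * c0 < |cr (n i) (n j)| := by
    rw [eventually_all]
    intro i
    rw [eventually_all]
    intro j
    by_cases hij : i = j
    · exact Eventually.of_forall fun c0 h2 => absurd hij h2
    · have h2 : 0 < |cr (n i) (n j)| / 2 := by
        have := abs_pos.2 (hcr i j hij)
        positivity
      filter_upwards [mem_nhdsWithin_of_mem_nhds (Iio_mem_nhds h2)] with c0 h3 _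
      have h3 : c0 < |cr (n i) (n j)| / 2 := h3
      linarith
  obtain ⟨c0, h2, h3, h5⟩ := (h1.and ((eventually_mem_nhdsWithin).and
    (mem_nhdsWithin_of_mem_nhds (Iio_mem_nhds (show (0 : ℝ) < 1 by norm_num))))).exists
  exact ⟨c0, h2, h3, h5⟩

/-- the situation for the lines orthogonal to `n` -/
theorem pc_single555 (h : Irr U T) {z n0 n : ℂ} {a b : Fin k} {X Y : Set (Fin k)} (hab : a ≠ b)
    (haY : a ∉ Y) (hbY : b ∉ Y) (hXY : Disjoint X Y) (hn01 : ‖n0‖ = 1) (hn1 : ‖n‖ = 1)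
    {c ε R0 r ρ : ℝ} (hc0 : 0 < c) (hc1 : c < 1) (hε0 : 0 < ε) (hR00 : 0 < R0) (hR0ε : R0 ≤ ε)
    (hR0c : R0 ≤ c) (hr : r = R0 / 4) (hρ : ρ = c * r / 8)
    (hnI : |ip (Complex.I * n) n0| < c / 8) (hnn : 1 / 2 < ip n n0)
    (hεc : ∀ w w', dist w z < ε → dist w' z < ε → a ∈ T w → b ∈ T w' → w ≠ w' →
      ε * dist w w' ≤ |ip (w' - w) n|)
    (hout : ∀ w, dist w z < R0 → a ∉ T w → b ∉ T w → T w ⊆ X ∨ T w ⊆ Y)
    (hco1 : ∀ w, dist w z < c → 0 < ip (w - z) (Complex.I * n0) →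
      |ip (w - z) n0| ≤ c * ip (w - z) (Complex.I * n0) → T w ⊆ X)
    (hco2 : ∀ w, dist w z < c → 0 < ip (w - z) (-(Complex.I * n0)) →
      |ip (w - z) n0| ≤ c * ip (w - z) (-(Complex.I * n0)) → T w ⊆ X) :
    PC T z ρ r n a b X Y := by
  have hr0 : 0 < r := by rw [hr]; positivity
  have hρ0 : 0 < ρ := by rw [hρ]; positivity
  have hρr : ρ ≤ r / 8 := by
    rw [hρ]
    nlinarith
  -- points of the segments
  have hpt : ∀ w t, dist w z < ρ → |t| ≤ r →
      dist (w + (t : ℂ) * (Complex.I * n)) z < R0 := by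
    intro w t hw ht
    have h1 : dist (w + (t : ℂ) * (Complex.I * n)) w = |t| := by
      rw [dist_eq_norm, add_sub_cancel_left, norm_mul, norm_mul, Complex.norm_I, hn1,
        Complex.norm_real, Real.norm_eq_abs, one_mul, mul_one]
    have h2 := dist_triangle (w + (t : ℂ) * (Complex.I * n)) w z
    linarith
  have hone : ∀ w, dist w z < ρ → ∀ t1 t2 : ℝ, |t1| ≤ r → |t2| ≤ r →
      a ∈ T (w + t1 * (Complex.I * n)) → b ∈ T (w + t2 * (Complex.I * n)) → t1 = t2 := by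
    intro w hw t1 t2 ht1 ht2 ha hb
    by_contra hne
    have hd : w + t1 * (Complex.I * n) ≠ w + t2 * (Complex.I * n) := by
      intro h1
      have h2 : ((t1 - t2 : ℝ) : ℂ) * (Complex.I * n) = 0 := by
        push_cast; linear_combination h1
      rcases mul_eq_zero.1 h2 with h3 | h3
      · exact hne (sub_eq_zero.1 (by exact_mod_cast h3))
      · rcases mul_eq_zero.1 h3 with h5 | h5
        · exact Complex.I_ne_zero h5
        · have := hn1
          rw [h5, norm_zero] at this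
          norm_num at this
    have h1 := hεc _ _ (lt_of_lt_of_le (hpt w t1 hw ht1) hR0ε)
      (lt_of_lt_of_le (hpt w t2 hw ht2) hR0ε) ha hb hd
    have e1 : ip (w + t2 * (Complex.I * n) - (w + t1 * (Complex.I * n))) n = 0 := by
      unfold ip; simp; ring
    rw [e1, abs_zero] at h1
    have := mul_pos hε0 (dist_pos.2 hd)
    linarith
  -- the ends of the segments
  have hipw : ∀ w : ℂ, dist w z < ρ → ∀ v : ℂ, ‖v‖ = 1 → |ip (w - z) v| ≤ ρ := by
    intro w hw v hv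
    have := abs_ip_le555 (w - z) v
    rw [hv, mul_one, ← dist_eq_norm] at this
    linarith
  have hend : ∀ w, dist w z < ρ → ∀ s : ℝ, (s = 1 ∨ s = -1) →
      T (w + ((s * r : ℝ) : ℂ) * (Complex.I * n)) ⊆ X := by
    intro w hw s hs
    have hsr : |s * r| ≤ r := by
      rcases hs with rfl | rfl
      · rw [one_mul, abs_of_pos hr0]
      · rw [neg_one_mul, abs_neg, abs_of_pos hr0]
    have hd := hpt w (s * r) hw hsr
    have e1 : ∀ v, ip (w + ((s * r : ℝ) : ℂ) * (Complex.I * n) - z) v =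
        ip (w - z) v + s * r * ip (Complex.I * n) v := by
      intro v; unfold ip; simp; ring
    have e2 : ip (Complex.I * n) (Complex.I * n0) = ip n n0 := by
      unfold ip; simp; ring
    have e3 : ip (w - z) (-(Complex.I * n0)) = -ip (w - z) (Complex.I * n0) := by
      unfold ip; simp; ring
    have e4 : ip (Complex.I * n) (-(Complex.I * n0)) = -ip n n0 := by
      unfold ip; simp
    have hI : ‖Complex.I * n0‖ = 1 := by rw [norm_mul, Complex.norm_I, hn01, one_mul]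
    have k1 := hipw w hw (Complex.I * n0) hI
    have k2 := hipw w hw n0 hn01
    rw [abs_le] at k1
    have k3 := hnn
    have k4 : r / 2 < r * ip n n0 := by nlinarith
    have k5 : |ip (w - z) n0 + s * r * ip (Complex.I * n) n0| ≤ c * (r / 4) := by
      refine (abs_add_le _ _).trans ?_
      have k6 : |s * r * ip (Complex.I * n) n0| ≤ r * (c / 8) := by
        rw [abs_mul]
        exact mul_le_mul hsr (hnI).le (abs_nonneg _) hr0.le
      rw [hρ] at k2
      nlinarith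
    rcases hs with rfl | rfl
    · refine hco1 _ (lt_of_lt_of_le hd hR0c) ?_ ?_
      · rw [e1, e2]; nlinarith [k1.1]
      · rw [e1, e1, e2]
        refine k5.trans (mul_le_mul_of_nonneg_left ?_ hc0.le)
        nlinarith [k1.1]
    · refine hco2 _ (lt_of_lt_of_le hd hR0c) ?_ ?_
      · rw [e1, e3, e4]; nlinarith [k1.2]
      · rw [e1, e1, e3, e4]
        refine k5.trans (mul_le_mul_of_nonneg_left ?_ hc0.le)
        nlinarith [k1.2]
  -- a colour `a` or `b` on each half segment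
  have hcl1 : IsClosed (⋃ i ∈ X, {x | i ∈ T x}) :=
    (Set.toFinite _).isClosed_biUnion fun i _ => h.closed i
  have hcl2 : IsClosed (⋃ i ∈ Y, {x | i ∈ T x}) :=
    (Set.toFinite _).isClosed_biUnion fun i _ => h.closed i
  have hmem : ∀ S : Set (Fin k), ∀ x, T x ⊆ S → x ∈ ⋃ i ∈ S, {x | i ∈ T x} := by
    intro S x hx
    obtain ⟨i, hi⟩ := h.ne x
    exact mem_iUnion₂.2 ⟨i, hx hi, hi⟩
  have hhalf : ∀ w, dist w z < ρ → T w ⊆ Y → ∀ s : ℝ, (s = 1 ∨ s = -1) →
      ∃ t : ℝ, 0 ≤ t ∧ t ≤ r ∧ (a ∈ T (w + ((s * t : ℝ) : ℂ) * (Complex.I * n)) ∨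
        b ∈ T (w + ((s * t : ℝ) : ℂ) * (Complex.I * n))) := by
    intro w hw hTw s hs
    by_contra hcon
    push Not at hcon
    have hcont : Continuous fun t : ℝ => w + ((s * t : ℝ) : ℂ) * (Complex.I * n) := by
      fun_prop
    have hpre := (isPreconnected_Icc (a := (0 : ℝ)) (b := r)).image _ hcont.continuousOn
    have hty : ∀ t ∈ Icc (0 : ℝ) r, T (w + ((s * t : ℝ) : ℂ) * (Complex.I * n)) ⊆ X ∨
        T (w + ((s * t : ℝ) : ℂ) * (Complex.I * n)) ⊆ Y := by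
      intro t ht
      obtain ⟨h1, h2⟩ := hcon t ht.1 ht.2
      refine hout _ (hpt w (s * t) hw ?_) h1 h2
      rcases hs with rfl | rfl
      · rw [one_mul, abs_of_nonneg ht.1]; exact ht.2
      · rw [neg_one_mul, abs_neg, abs_of_nonneg ht.1]; exact ht.2
    obtain ⟨p, ⟨t, ht, rfl⟩, hp1, hp2⟩ := isPreconnected_closed_iff.1 hpre _ _ hcl1 hcl2
      (by
        rintro _ ⟨t, ht, rfl⟩
        rcases hty t ht with h1 | h1
        · exact Or.inl (hmem _ _ h1)
        · exact Or.inr (hmem _ _ h1))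
      ⟨_, ⟨r, ⟨hr0.le, le_refl _⟩, rfl⟩, hmem _ _ (hend w hw s hs)⟩
      ⟨_, ⟨0, ⟨le_refl _, hr0.le⟩, rfl⟩, hmem _ _ (by simpa using hTw)⟩
    obtain ⟨i, hiX, hi⟩ := mem_iUnion₂.1 hp1
    obtain ⟨i', hi'Y, hi'⟩ := mem_iUnion₂.1 hp2
    rcases hty t ht with h1 | h1
    · exact Set.disjoint_left.1 hXY (h1 hi') hi'Y
    · exact Set.disjoint_left.1 hXY hiX (h1 hi)
  have hhalf2 : ∀ w, dist w z < ρ → T w ⊆ Y → ∃ t1 t2 : ℝ, 0 < t1 ∧ t1 ≤ r ∧ t2 < 0 ∧
      -r ≤ t2 ∧ (a ∈ T (w + (t1 : ℂ) * (Complex.I * n)) ∨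
        b ∈ T (w + (t1 : ℂ) * (Complex.I * n))) ∧
      (a ∈ T (w + (t2 : ℂ) * (Complex.I * n)) ∨ b ∈ T (w + (t2 : ℂ) * (Complex.I * n))) := by
    intro w hw hTw
    obtain ⟨t1, h1, h2, h3⟩ := hhalf w hw hTw 1 (Or.inl rfl)
    obtain ⟨t2, h5, h6, h7⟩ := hhalf w hw hTw (-1) (Or.inr rfl)
    rw [one_mul] at h3
    rw [neg_one_mul] at h7
    have hz1 : t1 ≠ 0 := by
      rintro rfl
      rcases h3 with h3 | h3
      · exact haY (hTw (by simpa using h3))
      · exact hbY (hTw (by simpa using h3))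
    have hz2 : t2 ≠ 0 := by
      rintro rfl
      rcases h7 with h7 | h7
      · exact haY (hTw (by simpa using h7))
      · exact hbY (hTw (by simpa using h7))
    have hp1 : 0 < t1 := lt_of_le_of_ne h1 (Ne.symm hz1)
    have hp2 : 0 < t2 := lt_of_le_of_ne h5 (Ne.symm hz2)
    exact ⟨t1, -t2, hp1, h2, by linarith, by linarith, h3, h7⟩
  -- types
  have htyp : ∀ w, dist w z < ρ → T w ⊆ Y →
      (∃ t : ℝ, |t| ≤ r ∧ a ∈ T (w + t * (Complex.I * n))) ∨
        ∃ t : ℝ, |t| ≤ r ∧ b ∈ T (w + t * (Complex.I * n)) := by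
    intro w hw hTw
    obtain ⟨t1, t2, h1, h2, -, -, h3, -⟩ := hhalf2 w hw hTw
    have ht1 : |t1| ≤ r := by rw [abs_of_pos h1]; exact h2
    rcases h3 with h3 | h3
    · exact Or.inl ⟨t1, ht1, h3⟩
    · exact Or.inr ⟨t1, ht1, h3⟩
  have hnbt : ∀ w, dist w z < ρ → T w ⊆ Y →
      (∃ t : ℝ, |t| ≤ r ∧ a ∈ T (w + t * (Complex.I * n))) →
      (∃ t : ℝ, |t| ≤ r ∧ b ∈ T (w + t * (Complex.I * n))) → False := by
    rintro w hw hTw ⟨ta, hta, hA⟩ ⟨tb, htb, hB⟩
    obtain ⟨t1, t2, h1, h2, h3, h5, h6, h7⟩ := hhalf2 w hw hTw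
    have hab' := hone w hw ta tb hta htb hA hB
    have ht1 : |t1| ≤ r := by rw [abs_of_pos h1]; exact h2
    have ht2 : |t2| ≤ r := by rw [abs_of_neg h3]; linarith
    have k1 : ta = t1 := by
      rcases h6 with h6 | h6
      · rw [hab']; exact (hone w hw t1 tb ht1 htb h6 hB).symm
      · exact hone w hw ta t1 hta ht1 hA h6
    have k2 : ta = t2 := by
      rcases h7 with h7 | h7
      · rw [hab']; exact (hone w hw t2 tb ht2 htb h7 hB).symm
      · exact hone w hw ta t2 hta ht2 hA h7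
    linarith
  exact ⟨hab, hXY, haY, fun w hw => hout w (by linarith), hone, htyp, hnbt⟩

/-- one of three directions is transversal to two given unit vectors -/
theorem good555 {n : Fin 3 → ℂ} (hn1 : ∀ j, ‖n j‖ = 1) {c0 : ℝ}
    (hc0cr : ∀ i j, i ≠ j → 2 * c0 < |cr (n i) (n j)|) {u v : ℂ} (hu : ‖u‖ = 1) (hv : ‖v‖ = 1) :
    ∃ j, c0 ≤ |ip (u * Complex.I) (n j)| ∧ c0 ≤ |ip (v * Complex.I) (n j)| := by
  have hbad : ∀ u : ℂ, ‖u‖ = 1 → ∀ i j, i ≠ j → |ip (u * Complex.I) (n i)| < c0 →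
      |ip (u * Complex.I) (n j)| < c0 → False := by
    intro u hu i j hij h1 h2
    have h3 := hc0cr i j hij
    have hu2 := ip_sq hu
    have e1 : cr (n i) (n j) = ip u (n i) * ip (u * Complex.I) (n j) -
        ip (u * Complex.I) (n i) * ip u (n j) := by
      unfold cr ip
      simp
      linear_combination (-((n i).re * (n j).im - (n i).im * (n j).re)) * hu2
    have k1 : |ip u (n i)| ≤ 1 := by
      have := abs_ip_le555 u (n i)
      rwa [hu, hn1, one_mul] at this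
    have k2 : |ip u (n j)| ≤ 1 := by
      have := abs_ip_le555 u (n j)
      rwa [hu, hn1, one_mul] at this
    have k3 : |cr (n i) (n j)| ≤ |ip (u * Complex.I) (n j)| + |ip (u * Complex.I) (n i)| := by
      rw [e1]
      refine (abs_sub _ _).trans ?_
      rw [abs_mul, abs_mul]
      have k4 : |ip u (n i)| * |ip (u * Complex.I) (n j)| ≤ 1 * |ip (u * Complex.I) (n j)| :=
        mul_le_mul_of_nonneg_right k1 (abs_nonneg _)
      have k5 : |ip (u * Complex.I) (n i)| * |ip u (n j)| ≤ |ip (u * Complex.I) (n i)| * 1 :=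
        mul_le_mul_of_nonneg_left k2 (abs_nonneg _)
      linarith
    linarith
  by_contra hcon
  push Not at hcon
  have key : ∀ j, |ip (u * Complex.I) (n j)| < c0 ∨ |ip (v * Complex.I) (n j)| < c0 := by
    intro j
    by_cases h1 : c0 ≤ |ip (u * Complex.I) (n j)|
    · exact Or.inr (hcon j h1)
    · exact Or.inl (not_le.1 h1)
  have n01 : (0 : Fin 3) ≠ 1 := by decide
  have n02 : (0 : Fin 3) ≠ 2 := by decide
  have n12 : (1 : Fin 3) ≠ 2 := by decide
  rcases key 0 with h0 | h0 <;> rcases key 1 with h1 | h1 <;> rcases key 2 with h2 | h2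
  · exact hbad u hu _ _ n01 h0 h1
  · exact hbad u hu _ _ n01 h0 h1
  · exact hbad u hu _ _ n02 h0 h2
  · exact hbad v hv _ _ n12 h1 h2
  · exact hbad u hu _ _ n12 h1 h2
  · exact hbad v hv _ _ n02 h0 h2
  · exact hbad v hv _ _ n01 h0 h1
  · exact hbad v hv _ _ n01 h0 h1

/-- the situation for three directions -/
theorem pc_all555 (h : Irr U T) {z q : ℂ} {a b : Fin k} {X Y : Set (Fin k)} (haz : a ∈ T z)
    (hbz : b ∈ T z) (hab : a ≠ b) (haY : a ∉ Y) (hbY : b ∉ Y) (hXY : Disjoint X Y)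
    (hsp : ∀ᶠ w in 𝓝 z, a ∉ T w → b ∉ T w → T w ⊆ X ∨ T w ⊆ Y) (hq : dist q z = 1)
    (hT : T q = {a, b})
    (hr1 : ∃ᶠ t : ℝ in 𝓝[>] 0, T (z + t * (Complex.I * (q - z))) ⊆ X)
    (hr2 : ∃ᶠ t : ℝ in 𝓝[>] 0, T (z + t * -(Complex.I * (q - z))) ⊆ X) :
    ∃ (n : Fin 3 → ℂ) (c0 r ρ : ℝ), (∀ j, ‖n j‖ = 1) ∧
      (∀ i j, i ≠ j → 2 * c0 < |cr (n i) (n j)|) ∧ 0 < c0 ∧ c0 < 1 ∧ 0 < r ∧ 0 < ρ ∧ ρ ≤ r / 8 ∧
      ∀ j, PC T z ρ r (n j) a b X Y := by
  obtain ⟨n0, hn0⟩ : ∃ n0, n0 = q - z := ⟨_, rfl⟩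
  have hn01 : ‖n0‖ = 1 := by rw [hn0, ← dist_eq_norm]; exact hq
  -- the cones
  obtain ⟨c, ⟨hco1, hco2⟩, hc0, hc1⟩ := (((h.cone_type555 hXY haz hbz hsp hq hT.subset
    (Or.inl rfl) hr1).and (h.cone_type555 hXY haz hbz hsp hq hT.subset (Or.inr rfl) hr2)).and
    ((eventually_mem_nhdsWithin).and
    (mem_nhdsWithin_of_mem_nhds (Iio_mem_nhds (show (0 : ℝ) < 1 by norm_num))))).exists
  have hc0 : 0 < c := hc0
  have hc1 : c < 1 := hc1
  obtain ⟨n, hn1, hTn, hnI, hnn, c0, hc0cr, hc00, hc01⟩ := h.dirs555 haz hbz hq hT hc0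
  rw [← hn0] at hco1 hco2 hnI hnn
  have hdn : ∀ j, dist (z + n j) z = 1 := fun j => by
    rw [dist_eq_norm, add_sub_cancel_left, hn1]
  -- cross for the three directions
  have hcross : ∀ᶠ ε : ℝ in 𝓝[>] 0, ∀ j w w', dist w z < ε → dist w' z < ε → a ∈ T w →
      b ∈ T w' → w ≠ w' → ε * dist w w' ≤ |ip (w' - w) (n j)| := by
    rw [eventually_all]
    intro j
    have h1 := h.cross (hdn j) (hTn j).subset
    rw [add_sub_cancel_left] at h1
    exact h1
  obtain ⟨ε, hεc, hε0⟩ := (hcross.and eventually_mem_nhdsWithin).exists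
  have hε0 : 0 < ε := hε0
  obtain ⟨R, hR, hRs⟩ := Metric.eventually_nhds_iff.1 hsp
  obtain ⟨R0, hR0⟩ : ∃ R0, R0 = min (min ε R) c := ⟨_, rfl⟩
  have hR00 : 0 < R0 := by rw [hR0]; positivity
  have hR0ε : R0 ≤ ε := by rw [hR0]; exact (min_le_left _ _).trans (min_le_left _ _)
  have hR0R : R0 ≤ R := by rw [hR0]; exact (min_le_left _ _).trans (min_le_right _ _)
  have hR0c : R0 ≤ c := by rw [hR0]; exact min_le_right _ _
  obtain ⟨r, hr⟩ : ∃ r, r = R0 / 4 := ⟨_, rfl⟩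
  obtain ⟨ρ, hρ⟩ : ∃ ρ, ρ = c * r / 8 := ⟨_, rfl⟩
  have hr0 : 0 < r := by rw [hr]; positivity
  have hρ0 : 0 < ρ := by rw [hρ]; positivity
  have hρr : ρ ≤ r / 8 := by
    rw [hρ]
    nlinarith
  exact ⟨n, c0, r, ρ, hn1, hc0cr, hc00, hc01, hr0, hρ0, hρr, fun j =>
    h.pc_single555 hab haY hbY hXY hn01 (hn1 j) hc0 hc1 hε0 hR00 hR0ε hR0c hr hρ (hnI j) (hnn j)
      (hεc j) (fun w hw => hRs (lt_of_lt_of_le hw hR0R)) hco1 hco2⟩

/-- **Pair cut lemma.** -/
theorem pair_cut (h : Irr U T)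
    (hmin : ∀ z, 4 ≤ (T z).ncard → ∀ s, s ⊆ T z → s ≠ T z →
      ¬ ∀ᶠ w in 𝓝 z, ∃ i ∈ s, w ∈ U i ∨ (w ∈ XX U ∧ i ∈ Pal U w)) {z q : ℂ} {a b : Fin k}
    {X Y : Set (Fin k)} (h4 : 4 ≤ (T z).ncard) (haz : a ∈ T z) (hbz : b ∈ T z) (hab : a ≠ b)
    (haY : a ∉ Y) (hbY : b ∉ Y) (hYz : Y ⊆ T z) (hYne : Y.Nonempty) (hXY : Disjoint X Y)
    (hsp : ∀ᶠ w in 𝓝 z, a ∉ T w → b ∉ T w → T w ⊆ X ∨ T w ⊆ Y) (hq : dist q z = 1)
    (hT : T q = {a, b})
    (hr1 : ∃ᶠ t : ℝ in 𝓝[>] 0, T (z + t * (Complex.I * (q - z))) ⊆ X)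
    (hr2 : ∃ᶠ t : ℝ in 𝓝[>] 0, T (z + t * -(Complex.I * (q - z))) ⊆ X) : False := by
  obtain ⟨n, c0, r, ρ, hn1, hc0cr, hc00, hc01, hr0, hρ0, hρr, hP⟩ :=
    h.pc_all555 haz hbz hab haY hbY hXY hsp hq hT hr1 hr2
  have hP' : ∀ j, PC T z ρ r (n j) b a X Y := fun j =>
    ⟨hab.symm, hXY, hbY, fun w hw h1 h2 => (hP j).out w hw h2 h1,
      fun w hw t1 t2 ht1 ht2 hb ha => ((hP j).one w hw t2 t1 ht2 ht1 ha hb).symm,
      fun w hw hTw => ((hP j).typ w hw hTw).symm,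
      fun w hw hTw hB hA => (hP j).nbt w hw hTw hA hB⟩
  -- sizes
  obtain ⟨δ, hδ⟩ : ∃ δ, δ = min (ρ / 6) (1 / 8) := ⟨_, rfl⟩
  have hδ0 : 0 < δ := by rw [hδ]; positivity
  have hδ1 : δ ≤ ρ / 6 := by rw [hδ]; exact min_le_left _ _
  have hδ2 : δ ≤ 1 / 8 := by rw [hδ]; exact min_le_right _ _
  have hδr : 2 * δ ≤ r := by linarith
  obtain ⟨τ', hτ'⟩ : ∃ τ', τ' = c0 ^ 2 * δ / 16 := ⟨_, rfl⟩
  have hτ'0 : 0 < τ' := by rw [hτ']; positivity
  have hc02 : c0 ^ 2 ≤ 1 := pow_le_one₀ hc00.le hc01.le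
  have hsm : 16 * τ' ≤ c0 ^ 2 := by
    rw [hτ']
    have : c0 ^ 2 * δ ≤ c0 ^ 2 * 1 := mul_le_mul_of_nonneg_left (by linarith) (by positivity)
    linarith
  have hτδ : τ' + 8 * τ' / c0 < δ := by
    have e1 : 8 * τ' / c0 = c0 * δ / 2 := by rw [hτ']; field_simp; ring
    rw [e1, hτ']
    nlinarith
  have hτρ : τ' < ρ := by
    have h8 : 0 < 8 * τ' / c0 := by positivity
    linarith
  -- pure points
  have hpure : ∀ i ∈ T z, ∃ x, dist x z < τ' ∧ T x = {i} := by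
    intro i hi
    obtain ⟨x, h1, h2⟩ := ((h.pure z i hi).and_eventually (ball_mem_nhds z hτ'0)).exists
    exact ⟨x, h2, h1⟩
  obtain ⟨xa, hxa, hTxa⟩ := hpure a haz
  obtain ⟨xb, hxb, hTxb⟩ := hpure b hbz
  -- the points of type `Y` lie in `U a` or in `U b`
  have hmain : ∀ w, dist w z < τ' → T w ⊆ Y → w ∈ U a ∨ w ∈ U b := by
    intro w hw hTw
    by_contra hcon
    rw [not_or] at hcon
    have hex : ∀ i, w ∉ U i → ∃ y ∈ closure (U i), dist w y = 1 := by
      intro i hi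
      by_contra h1
      push Not at h1
      exact hi (h.max i w fun y hy hwy => h1 y hy hwy)
    obtain ⟨ya, hya, hwya⟩ := hex a hcon.1
    obtain ⟨yb, hyb, hwyb⟩ := hex b hcon.2
    obtain ⟨j, hja, hjb⟩ := good555 hn1 hc0cr (u := w - ya) (v := w - yb) (by rw [← dist_eq_norm]; exact hwya)
      (by rw [← dist_eq_norm]; exact hwyb)
    have hwρ : dist w z < ρ := by linarith
    have hmove : ∀ i y, y ∈ closure (U i) → dist w y = 1 → ∀ N ∈ 𝓝 w, ∃ g ∈ U i, ∃ w' ∈ N,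
        w' - g = w - y ∧ dist w' g = 1 := by
      intro i y hy hwy N hN
      have ht : Tendsto (fun g => w + (g - y)) (𝓝 y) (𝓝 w) := by
        have hc : Continuous fun g : ℂ => w + (g - y) := by fun_prop
        have := hc.tendsto y
        simpa using this
      obtain ⟨g, hgU, hg⟩ := ((mem_closure_iff_frequently.1 hy).and_eventually
        (ht.eventually hN)).exists
      refine ⟨g, hgU, _, hg, by ring, ?_⟩
      rw [dist_eq_norm] at hwy ⊢
      rw [← hwy]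
      congr 1
      ring
    have hN1 : ball z τ' ∩ {x | T x ⊆ T w} ∈ 𝓝 w :=
      inter_mem (isOpen_ball.mem_nhds hw) (h.nhd w)
    rcases (hP j).typ w hwρ hTw with hA | hB
    · have hnB : w ∉ {x : ℂ | ∃ t : ℝ, |t| ≤ r ∧ b ∈ T (x + t * (Complex.I * n j))} :=
        fun hB => (hP j).nbt w hwρ hTw hA hB
      have hN2 := (h.closed_seg555 b (Complex.I * n j) r).isOpen_compl.mem_nhds hnB
      obtain ⟨g, hgU, w', ⟨⟨hw'z, hw'T⟩, hw'B⟩, hw'g, hd⟩ := hmove a ya hya hwya _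
        (inter_mem hN1 hN2)
      have hTw' : T w' ⊆ Y := Subset.trans hw'T hTw
      have hA' := ((hP j).typ w' (by linarith [mem_ball.1 hw'z]) hTw').resolve_right hw'B
      exact h.pc_kill (hP j) hr0.le (hn1 j) hδ0 hδ1 hδ2 hδr hc00 hτ'0 hsm hτδ hgU hd
        (by rw [hw'g]; exact hja) hw'z hxb hTw' hTxb hA'
    · have hnA : w ∉ {x : ℂ | ∃ t : ℝ, |t| ≤ r ∧ a ∈ T (x + t * (Complex.I * n j))} :=
        fun hA => (hP j).nbt w hwρ hTw hA hB
      have hN2 := (h.closed_seg555 a (Complex.I * n j) r).isOpen_compl.mem_nhds hnA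
      obtain ⟨g, hgU, w', ⟨⟨hw'z, hw'T⟩, hw'A⟩, hw'g, hd⟩ := hmove b yb hyb hwyb _
        (inter_mem hN1 hN2)
      have hTw' : T w' ⊆ Y := Subset.trans hw'T hTw
      have hB' := ((hP j).typ w' (by linarith [mem_ball.1 hw'z]) hTw').resolve_left hw'A
      exact h.pc_kill (hP' j) hr0.le (hn1 j) hδ0 hδ1 hδ2 hδr hc00 hτ'0 hsm hτδ hgU hd
        (by rw [hw'g]; exact hjb) hw'z hxa hTw' hTxa hB'
  -- minimality
  refine hmin z h4 (T z \ Y) sdiff_subset (fun h1 => ?_) ?_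
  · obtain ⟨y, hy⟩ := hYne
    have : y ∈ T z \ Y := by rw [h1]; exact hYz hy
    exact this.2 hy
  filter_upwards [h.nhd z, ball_mem_nhds z hτ'0] with w h1 h2
  by_cases hcase : T w ⊆ Y
  · rcases hmain w h2 hcase with h3 | h3
    · exact ⟨a, ⟨haz, haY⟩, Or.inl h3⟩
    · exact ⟨b, ⟨hbz, hbY⟩, Or.inl h3⟩
  · obtain ⟨i, hi, hiY⟩ := not_subset.1 hcase
    exact ⟨i, ⟨h1 hi, hiY⟩, h.suf_mem hi⟩

end Irr

end Vale.Agent.P032.Six
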