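import Vale.Agent.P032.S5.H555.Src
import Vale.Agent.P032.S5.H555.NoFill

/-!
# P032: rule (N) for one second colour, silent and semi-silent case in one
-/

open Set Filter Topology Metric

noncomputable section

namespace Vale.Agent.P032.Six

variable {k : ℕ} {U : Fin k → Set ℂ} {T : ℂ → Set (Fin k)}

/-- **Rule (N), unconditional.** -/
theorem Irr.exists_N555 (h : Irr U T) {z : ℂ} {x : Fin k} (hxz : x ∈ Pal U z)
    (hcl : ∀ q, dist q z = 1 → (T q).ncard ≤ 3) (hE : ∃ q, dist q z = 1 ∧ x ∈ Pal U q)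
    (hE' : ∃ q, dist q z = 1 ∧ x ∉ Pal U q) :
    ∃ p, dist p z = 1 ∧ x ∈ Pal U p ∧ ∃ i, i ≠ x ∧ ∀ (y1 y2 : ℂ) (P1 P2 : Set (Fin k)),
      dist y1 z = 1 → y1 + y2 = 2 * z → (∀ᶠ q in 𝓝[sphere z 1] y1, P1 ⊆ Pal U q) →
      (∀ᶠ q in 𝓝[sphere z 1] y2, P2 ⊆ Pal U q) → ¬ T z ⊆ P1 ∪ P2 ∪ {x, i} := by
  obtain ⟨p, hp, hxp, i, hi, hfr⟩ := h.src555 hxz hcl hE hE'
  exact ⟨p, hp, hxp, i, hi, fun y1 y2 P1 P2 h1 h2 h3 h4 => h.no_fill555 hp hfr h1 h2 h3 h4⟩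

end Vale.Agent.P032.Six
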