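import Vale.Agent.P032.S5.H555.SilN
import Vale.Agent.P032.Words6.H704.Gen6

/-!
# P032: rule (N) at a six-coloured centre, for every colour
-/

open Set Filter Topology Metric

noncomputable section

namespace Vale.Agent.P032.Six.SilP

open Vale.Agent.P032.S5.H767 Vale.Agent.P032.Words6.H704

variable {U : Fin 6 → Set ℂ} {T : ℂ → Set (Fin 6)} {z : ℂ}

/-- every colour has a partner on the circle, and some point of the circle is no partner -/
theorem partners (C : Six6 U T z) (x : Fin 6) :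
    (∃ q, dist q z = 1 ∧ x ∈ Pal U q) ∧ ∃ q, dist q z = 1 ∧ x ∉ Pal U q := by
  have h := C.irr
  constructor
  · have hzx : z ∉ U x := by
      by_cases hX : z ∈ XX U
      · exact hX x
      · exfalso
        obtain ⟨j, hj⟩ := h.ne (pt z 0)
        exact h.mx.notMem' (h.off z hX j (C.all j)) (by rw [dist_comm]; exact dist_pt z 0)
          (h.sub _ hj)
    by_contra hcon
    push Not at hcon
    exact hzx (h.max x z fun y hy hzy => hcon y (by rw [dist_comm]; exact hzy) hy)
  · by_contra hcon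
    push Not at hcon
    have h3 : ∀ᶠ v in 𝓝 (0 : ℝ), x ∈ Pal U (pt z v) :=
      Eventually.of_forall fun v => hcon _ (dist_pt z v)
    rcases h.mx.partner_line (dist_pt z 0) (ev_circle z h3)
      (dist_pt_one z 0) (hcon _ (dist_pt z _)) with h4 | h4
    · have := dist_pt z (0 + 1)
      rw [h4, dist_self] at this
      exact zero_ne_one this
    · obtain ⟨-, k2⟩ := S5.H767.tri (dist_pt z 0) (dist_pt z (0 + 1))
      exact k2 (by rw [← h4]; ring)

/-- **Rule (N) at a six-coloured centre.** -/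
theorem exists_NF (C : Six6 U T z) (x : Fin 6) :
    ∃ p, dist p z = 1 ∧ x ∈ Pal U p ∧ ∃ i, i ≠ x ∧ ∀ (v : ℝ) (P Q : Set (Fin 6)),
      (∀ᶠ v' in 𝓝 v, P ⊆ T (pt z v')) → (∀ᶠ v' in 𝓝 (v + 3), Q ⊆ T (pt z v')) →
      ¬ ∀ c, c = x ∨ c = i ∨ c ∈ P ∨ c ∈ Q := by
  have h := C.irr
  obtain ⟨hE, hE'⟩ := partners C x
  obtain ⟨p, hp, hxp, i, hi, hN⟩ := h.exists_N555 (h.sub z (C.all x)) C.clean hE hE'
  refine ⟨p, hp, hxp, i, hi, fun v P Q hP hQ hall => ?_⟩
  refine hN (pt z v) (pt z (v + 3)) P Q (dist_pt z v) (by rw [pt_three]; ring)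
    ((ev_circle z (p := fun q => P ⊆ T q) hP).mono fun q (hq : P ⊆ T q) => hq.trans (h.sub q))
    ((ev_circle z (p := fun q => Q ⊆ T q) hQ).mono fun q (hq : Q ⊆ T q) => hq.trans (h.sub q))
    fun c _ => ?_
  rcases hall c with h1 | h1 | h1 | h1
  · exact Or.inr (Or.inl h1)
  · exact Or.inr (Or.inr h1)
  · exact Or.inl (Or.inl h1)
  · exact Or.inl (Or.inr h1)

end Vale.Agent.P032.Six.SilP
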