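import Vale.Agent.P032.S5.H360.Silent
import Vale.Agent.P032.S5.H767.RawT

/-!
# P032: a point of the circle with boundary points of one colour off the circle
-/

open Set Filter Topology Metric

noncomputable section

namespace Vale.Agent.P032.Six

open Vale.Agent.P032.S5.H767

variable {k : ℕ} {U : Fin k → Set ℂ} {T : ℂ → Set (Fin k)}

/-- the point at distance `r` from `z` in the direction `v` -/
def polar555 (z : ℂ) (p : ℝ × ℝ) : ℂ := z + (p.1 : ℂ) * (pt z p.2 - z)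

theorem continuous_polar555 (z : ℂ) : Continuous (polar555 z) := by
  unfold polar555
  have h1 : Continuous fun p : ℝ × ℝ => pt z p.2 := (continuous_pt z).comp continuous_snd
  have h2 : Continuous fun p : ℝ × ℝ => ((p.1 : ℝ) : ℂ) :=
    Complex.continuous_ofReal.comp continuous_fst
  fun_prop

theorem dist_polar555 (z : ℂ) (p : ℝ × ℝ) : dist (polar555 z p) z = |p.1| := by
  unfold polar555
  rw [dist_eq_norm, add_sub_cancel_left, norm_mul, ← dist_eq_norm, dist_pt, mul_one,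
    Complex.norm_real, Real.norm_eq_abs]

/-- polar coordinates near a point of the circle -/
theorem exists_polar555 (z : ℂ) (v0 : ℝ) {δ : ℝ} (hδ : 0 < δ) :
    ∀ᶠ u in 𝓝 (pt z v0), ∃ r v, |r - 1| < δ ∧ |v - v0| < δ ∧ u = polar555 z (r, v) := by
  have h0 : ∀ᶠ v in 𝓝 v0, ∃ v', |v' - v0| < δ ∧ pt z v' = pt z v := by
    filter_upwards [Metric.ball_mem_nhds v0 hδ] with v hv
    exact ⟨v, by rw [← Real.dist_eq]; exact hv, rfl⟩
  have h1 := ev_circle z (p := fun q => ∃ v', |v' - v0| < δ ∧ pt z v' = q) h0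
  have hn : ‖pt z v0 - z‖ = 1 := by rw [← dist_eq_norm]; exact dist_pt z v0
  have hne : pt z v0 - z ≠ 0 := by intro h; rw [h, norm_zero] at hn; exact zero_ne_one hn
  have hca : ContinuousAt (fun u : ℂ => ((‖u - z‖⁻¹ : ℝ) : ℂ)) (pt z v0) := by
    refine Complex.continuous_ofReal.continuousAt.comp ?_
    refine ContinuousAt.inv₀ (by fun_prop) ?_
    rw [hn]; exact one_ne_zero
  have hcb : ContinuousAt (fun u : ℂ => z + ((‖u - z‖⁻¹ : ℝ) : ℂ) * (u - z)) (pt z v0) :=
    continuousAt_const.add (hca.mul (by fun_prop))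
  have e0 : z + ((‖pt z v0 - z‖⁻¹ : ℝ) : ℂ) * (pt z v0 - z) = pt z v0 := by
    rw [hn]; simp
  have hnz : ∀ᶠ u in 𝓝 (pt z v0), ‖u - z‖ ≠ 0 := by
    have hc : ContinuousAt (fun u : ℂ => ‖u - z‖) (pt z v0) := by fun_prop
    exact hc.eventually_ne (by rw [hn]; exact one_ne_zero)
  have ht : Tendsto (fun u : ℂ => z + ((‖u - z‖⁻¹ : ℝ) : ℂ) * (u - z)) (𝓝 (pt z v0))
      (𝓝[sphere z 1] (pt z v0)) := by
    refine tendsto_nhdsWithin_iff.2 ⟨?_, ?_⟩
    · have := hcb.tendsto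
      rwa [e0] at this
    · filter_upwards [hnz] with u hu
      rw [mem_sphere, dist_eq_norm, add_sub_cancel_left, norm_mul, Complex.norm_real,
        Real.norm_eq_abs, abs_inv, abs_norm, inv_mul_cancel₀ hu]
  have hr : ∀ᶠ u in 𝓝 (pt z v0), |‖u - z‖ - 1| < δ := by
    have hc : ContinuousAt (fun u : ℂ => |‖u - z‖ - 1|) (pt z v0) := by fun_prop
    exact hc.eventually_lt continuousAt_const (by rw [hn]; simpa using hδ)
  filter_upwards [ht.eventually h1, hnz, hr] with u hu1 hu2 hu3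
  obtain ⟨v, hv, hvu⟩ := hu1
  refine ⟨‖u - z‖, v, hu3, hv, ?_⟩
  unfold polar555
  rw [hvu, add_sub_cancel_left, ← mul_assoc, ← Complex.ofReal_mul, mul_inv_cancel₀ hu2,
    Complex.ofReal_one, one_mul]
  ring

namespace Irr

/-- **Source.** -/
theorem src555 (h : Irr U T) {z : ℂ} {x : Fin k} (hxz : x ∈ Pal U z)
    (hcl : ∀ q, dist q z = 1 → (T q).ncard ≤ 3) (hE : ∃ q, dist q z = 1 ∧ x ∈ Pal U q)
    (hE' : ∃ q, dist q z = 1 ∧ x ∉ Pal U q) :
    ∃ p, dist p z = 1 ∧ x ∈ Pal U p ∧ ∃ i, i ≠ x ∧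
      ∃ᶠ g in 𝓝 p, dist g z ≠ 1 ∧ ∀ w, dist w g = 1 → ¬ T w ⊆ {x, i} := by
  have hpt : ∀ q, dist q z = 1 → ∃ v, pt z v = q := by
    intro q hq
    obtain ⟨θ, hθ⟩ := exists_cis (u := q - z) (by rw [← dist_eq_norm]; exact hq)
    refine ⟨θ / (Real.pi / 3), ?_⟩
    unfold pt
    rw [div_mul_cancel₀ _ (by positivity), ← hθ]; ring
  -- a relative boundary point
  obtain ⟨E, hEdef⟩ : ∃ E : Set ℝ, E = {v | x ∈ Pal U (pt z v)} := ⟨_, rfl⟩
  have hEm : ∀ v, v ∈ E ↔ x ∈ Pal U (pt z v) := by intro v; rw [hEdef]; exact Iff.rfl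
  have hEc : IsClosed E := by
    rw [hEdef]
    exact isClosed_closure.preimage (continuous_pt z)
  obtain ⟨v0, hv0, hv0n⟩ : ∃ v0 ∈ E, E ∉ 𝓝 v0 := by
    by_contra hcon
    push Not at hcon
    obtain ⟨q1, hq1, hx1⟩ := hE
    obtain ⟨q2, hq2, hx2⟩ := hE'
    obtain ⟨v1, rfl⟩ := hpt q1 hq1
    obtain ⟨v2, rfl⟩ := hpt q2 hq2
    have hu := IsClopen.eq_univ ⟨hEc, isOpen_iff_mem_nhds.2 hcon⟩ ⟨v1, (hEm v1).2 hx1⟩
    exact hx2 ((hEm v2).1 (by rw [hu]; exact mem_univ _))
  have hxp : x ∈ Pal U (pt z v0) := (hEm v0).1 hv0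
  -- boundary points off the circle
  have hfr : ∃ᶠ g in 𝓝 (pt z v0), dist g z ≠ 1 ∧ x ∈ Pal U g ∧ g ∉ U x := by
    intro hcon
    have hc1 : ContinuousAt (polar555 z) (1, v0) := (continuous_polar555 z).continuousAt
    have e1 : polar555 z (1, v0) = pt z v0 := by unfold polar555; push_cast; ring
    have hc2 : ∀ᶠ p in 𝓝 ((1 : ℝ), v0), ¬ (dist (polar555 z p) z ≠ 1 ∧
        x ∈ Pal U (polar555 z p) ∧ polar555 z p ∉ U x) := by
      have := hc1.tendsto
      rw [e1] at this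
      exact this.eventually hcon
    obtain ⟨δ', hδ', hb⟩ := Metric.eventually_nhds_iff.1 hc2
    obtain ⟨δ, hδ⟩ : ∃ δ, δ = min δ' (1 / 2) := ⟨_, rfl⟩
    have hδ0 : 0 < δ := by rw [hδ]; positivity
    have hδ1 : δ ≤ δ' := by rw [hδ]; exact min_le_left _ _
    have hδ2 : δ ≤ 1 / 2 := by rw [hδ]; exact min_le_right _ _
    have hprop : ∀ r v, |r - 1| < δ → |v - v0| < δ → r ≠ 1 →
        x ∈ Pal U (polar555 z (r, v)) → polar555 z (r, v) ∈ U x := by
      intro r v hr hv hr1 hx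
      by_contra hn
      refine hb (y := (r, v)) ?_ ⟨?_, hx, hn⟩
      · rw [Prod.dist_eq]
        refine max_lt ?_ ?_
        · rw [Real.dist_eq]; exact lt_of_lt_of_le hr hδ1
        · rw [Real.dist_eq]; exact lt_of_lt_of_le hv hδ1
      · rw [dist_polar555]
        have h3 := abs_lt.1 hr
        rw [abs_of_pos (by show (0 : ℝ) < r; linarith)]
        exact hr1
    obtain ⟨u, hu, r, v, hr, hv, hue⟩ := ((mem_closure_iff_frequently.1 hxp).and_eventually
      (exists_polar555 z v0 hδ0)).exists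
    have hr1 : r ≠ 1 := by
      rintro rfl
      refine h.mx.notMem' hu (y := z) ?_ hxz
      rw [hue, dist_polar555]
      simp
    -- the half annulus
    obtain ⟨I, hI, hIr, hI1, hIcl⟩ : ∃ I : Set ℝ, IsPreconnected I ∧ r ∈ I ∧
        (∀ s ∈ I, |s - 1| < δ ∧ s ≠ 1) ∧ (1 : ℝ) ∈ closure I := by
      have h3 := abs_lt.1 hr
      rcases lt_or_gt_of_ne hr1 with h4 | h4
      · refine ⟨Ioo (1 - δ) 1, isPreconnected_Ioo, ⟨by linarith, h4⟩, fun s hs => ⟨?_, hs.2.ne⟩, ?_⟩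
        · rw [abs_lt]; constructor <;> linarith [hs.1, hs.2]
        · rw [closure_Ioo (by linarith)]; exact ⟨by linarith, le_refl _⟩
      · refine ⟨Ioo 1 (1 + δ), isPreconnected_Ioo, ⟨h4, by linarith⟩,
          fun s hs => ⟨?_, hs.1.ne'⟩, ?_⟩
        · rw [abs_lt]; constructor <;> linarith [hs.1, hs.2]
        · rw [closure_Ioo (by linarith)]; exact ⟨le_refl _, by linarith⟩
    have hpre : IsPreconnected (polar555 z '' (I ×ˢ Ioo (v0 - δ) (v0 + δ))) :=
      (hI.prod isPreconnected_Ioo).image _ (continuous_polar555 z).continuousOn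
    have hop : IsOpen (U x) := h.mx.isOpen x
    have hcov : polar555 z '' (I ×ˢ Ioo (v0 - δ) (v0 + δ)) ⊆ U x ∪ (closure (U x))ᶜ := by
      rintro _ ⟨⟨s, t⟩, ⟨hs, ht⟩, rfl⟩
      by_cases hx : x ∈ Pal U (polar555 z (s, t))
      · exact Or.inl (hprop s t (hI1 s hs).1 (by
          rw [abs_lt]; constructor <;> linarith [ht.1, ht.2]) (hI1 s hs).2 hx)
      · exact Or.inr hx
    have hall : polar555 z '' (I ×ˢ Ioo (v0 - δ) (v0 + δ)) ⊆ U x := by
      rcases (isPreconnected_iff_subset_of_disjoint.1 hpre) _ _ hop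
        isClosed_closure.isOpen_compl hcov (by
          ext y
          simp only [mem_inter_iff, mem_compl_iff, mem_empty_iff_false, iff_false]
          rintro ⟨-, h5, h6⟩
          exact h6 (subset_closure h5)) with h5 | h5
      · exact h5
      · exfalso
        have h6 := h5 ⟨(r, v), ⟨hIr, by
          have := abs_lt.1 hv
          exact ⟨by linarith, by linarith⟩⟩, rfl⟩
        rw [← hue] at h6
        exact h6 (subset_closure hu)
    -- the whole arc is in the closure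
    apply hv0n
    filter_upwards [Ioo_mem_nhds (show v0 - δ < v0 by linarith) (show v0 < v0 + δ by linarith)]
      with t ht
    rw [hEm]
    show pt z t ∈ closure (U x)
    have hc : Continuous fun s : ℝ => polar555 z (s, t) :=
      (continuous_polar555 z).comp (by fun_prop)
    have e2 : polar555 z (1, t) = pt z t := by unfold polar555; push_cast; ring
    rw [← e2]
    refine closure_mono (s := (fun s : ℝ => polar555 z (s, t)) '' I) ?_ ?_
    · rintro _ ⟨s, hs, rfl⟩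
      exact hall ⟨(s, t), ⟨hs, ht⟩, rfl⟩
    · exact image_closure_subset_closure_image hc ⟨1, hIcl, rfl⟩
  -- no point at distance one has its colours in `{x, j}`
  have h3 : ∀ᶠ g in 𝓝 (pt z v0), (T g).ncard ≤ 3 := by
    filter_upwards [h.nhd (pt z v0)] with g hg
    exact (Set.ncard_le_ncard hg (Set.toFinite _)).trans (hcl _ (dist_pt z v0))
  have hfr2 : ∃ᶠ g in 𝓝 (pt z v0), ∃ i : Fin k, i ≠ x ∧ dist g z ≠ 1 ∧
      ∀ w, dist w g = 1 → ¬ T w ⊆ {x, i} := by
    intro hcon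
    obtain ⟨g, ⟨hgz, hxg, hgU⟩, hg3, hgc⟩ :=
      (hfr.and_eventually (h3.and (eventually_eventually_nhds.2 hcon))).exists
    by_cases hxT : x ∈ T g
    · obtain ⟨j, hj, hjx⟩ : ∃ j ∈ T g, j ≠ x := by
        by_contra hc
        push Not at hc
        exact hgU (h.mem_of_single fun j hj => hc j hj)
      refine hgc.self_of_nhds ⟨j, hjx, hgz, fun w hw hT => ?_⟩
      refine h.not_sub hw hg3 (hT.trans ?_)
      rintro i (rfl | rfl)
      · exact hxT
      · exact hj
    · obtain ⟨j, -, hjx, hfj⟩ := h.shadow hxg hxT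
      have hoff : ∀ᶠ u in 𝓝 g, dist u z ≠ 1 := by
        have hc : ContinuousAt (fun u : ℂ => dist u z) g := by fun_prop
        exact hc.eventually_ne hgz
      obtain ⟨u, ⟨hux, huj⟩, huz, huc⟩ := (hfj.and_eventually (hoff.and hgc)).exists
      refine huc ⟨j, hjx, huz, fun w hw hT => ?_⟩
      obtain ⟨i, hi⟩ := h.ne w
      have hw' : dist u w = 1 := by rw [dist_comm]; exact hw
      rcases hT hi with h4 | h4
      · exact h.mx.notMem' hux hw' (h.sub _ (h4 ▸ hi))
      · have h5 : i = j := h4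
        exact h.mx.notMem' huj hw' (h.sub _ (h5 ▸ hi))
  refine ⟨pt z v0, dist_pt z v0, hxp, ?_⟩
  by_contra hcon
  push Not at hcon
  apply hfr2
  have h4 : ∀ i : Fin k, ∀ᶠ g in 𝓝 (pt z v0), i ≠ x → ¬ (dist g z ≠ 1 ∧
      ∀ w, dist w g = 1 → ¬ T w ⊆ {x, i}) := by
    intro i
    by_cases hi : i ≠ x
    · refine (hcon i hi).mono fun g hg _ hc => ?_
      obtain ⟨w, hw, hT⟩ := hg hc.1
      exact hc.2 w hw hT
    · exact Eventually.of_forall fun g h5 => absurd h5 hi
  filter_upwards [eventually_all.2 h4] with g hg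
  rintro ⟨i, hi, h5, h6⟩
  exact hg i hi ⟨h5, h6⟩

end Irr

end Vale.Agent.P032.Six
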