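import Vale.Agent.P032.S5.H555.TypeArc

/-!
# P032: two unit circles tangent to each other: estimates for the cut lemma
-/

open Set Filter Topology Metric

noncomputable section

namespace Vale.Agent.P032.Six

theorem abs_ip_le555 (a b : ℂ) : |ip a b| ≤ ‖a‖ * ‖b‖ := by
  have h1 : ip a b = (a * (starRingEnd ℂ) b).re := by
    unfold ip
    simp [Complex.mul_re]
  rw [h1]
  refine (Complex.abs_re_le_norm _).trans ?_
  rw [norm_mul, RCLike.norm_conj]

/-- the remainder of `1 - cis s` -/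
theorem norm_rem555 {s : ℝ} (hs : |s| ≤ 1) : ‖(1 - cis s) + (s : ℂ) * Complex.I‖ ≤ s ^ 2 := by
  have h1 : ‖((s : ℂ) * Complex.I)‖ = |s| := by simp
  have h2 := Complex.norm_exp_sub_one_sub_id_le (x := (s : ℂ) * Complex.I) (by rw [h1]; exact hs)
  rw [h1, sq_abs] at h2
  have e : (1 - cis s) + (s : ℂ) * Complex.I =
      -(Complex.exp (s * Complex.I) - 1 - s * Complex.I) := by
    unfold cis; ring
  rw [e, norm_neg]
  exact h2

theorem norm_one_sub_cis555 {s : ℝ} (hs : |s| ≤ 1) : ‖1 - cis s‖ ≤ 2 * |s| := by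
  have e : 1 - cis s = ((1 - cis s) + (s : ℂ) * Complex.I) - (s : ℂ) * Complex.I := by ring
  have h1 : ‖((s : ℂ) * Complex.I)‖ = |s| := by simp
  have h2 := norm_sub_le ((1 - cis s) + (s : ℂ) * Complex.I) ((s : ℂ) * Complex.I)
  rw [← e, h1] at h2
  have h3 := norm_rem555 hs
  have h4 : s ^ 2 ≤ |s| := by
    rw [← sq_abs]
    nlinarith [abs_nonneg s]
  linarith

theorem ip_rem555 {n m : ℂ} (hn : ‖n‖ = 1) (hm : ‖m‖ = 1) {s : ℝ} (hs : |s| ≤ 1) :
    |ip (n * (1 - cis s)) m + s * ip (n * Complex.I) m| ≤ s ^ 2 := by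
  have e : ip (n * (1 - cis s)) m + s * ip (n * Complex.I) m =
      ip (n * ((1 - cis s) + (s : ℂ) * Complex.I)) m := by
    unfold ip
    simp
    ring
  rw [e]
  refine (abs_ip_le555 _ _).trans ?_
  rw [norm_mul, hn, hm, one_mul, mul_one]
  exact norm_rem555 hs

theorem c_le_one555 {n m : ℂ} (hn : ‖n‖ = 1) (hm : ‖m‖ = 1) : |ip (n * Complex.I) m| ≤ 1 := by
  have := abs_ip_le555 (n * Complex.I) m
  rw [norm_mul, hn, hm, Complex.norm_I] at this
  simpa using this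

/-- real numbers: the size conditions -/
theorem small555 {c ε ρ : ℝ} (hc : 0 < c) (hc1 : c ≤ 1) (hε : 0 < ε) (hε1 : ε ≤ 1)
    (hρ0 : 0 < ρ) (hsm : 128 * ρ ≤ ε * c ^ 3) :
    ρ / c ≤ ε * c ^ 2 / 128 ∧ ρ ≤ ρ / c ∧ (ρ / c) ^ 2 ≤ ε * c * ρ / 128 := by
  have h1 : ρ / c ≤ ε * c ^ 2 / 128 := by
    rw [div_le_div_iff₀ hc (by norm_num)]
    calc ρ * 128 = 128 * ρ := by ring
      _ ≤ ε * c ^ 3 := hsm
      _ = ε * c ^ 2 * c := by ring
  have h2 : ρ ≤ ρ / c := by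
    rw [le_div_iff₀ hc]
    nlinarith
  refine ⟨h1, h2, ?_⟩
  have h3 : 0 ≤ ρ / c := by positivity
  calc (ρ / c) ^ 2 = (ρ / c) * (ρ / c) := by ring
    _ ≤ (ρ / c) * (ε * c ^ 2 / 128) := mul_le_mul_of_nonneg_left h1 h3
    _ = ε * c * ρ / 128 := by field_simp

/-- the point `z + n (1 - cis s)` of a circle, seen from the point `z + ω` in radial position -/
theorem far555 {n m ω : ℂ} (hn : ‖n‖ = 1) (hm : ‖m‖ = 1) {c ε ρ s : ℝ} (hc : 0 < c)
    (hcm : c ≤ |ip (n * Complex.I) m|) (hε : 0 < ε) (hε1 : ε ≤ 1) (hρ : ‖ω‖ = ρ) (hρ0 : 0 < ρ)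
    (hsm : 128 * ρ ≤ ε * c ^ 3) (hωn : ρ / 2 ≤ |ip ω n|)
    (hs : |s - (-(ip ω m) / ip (n * Complex.I) m)| ≤ ε / 16 * ρ) :
    |ip (ω - n * (1 - cis s)) m| < ε * ‖ω - n * (1 - cis s)‖ := by
  have hs1 : |ip (n * Complex.I) m| ≤ 1 := c_le_one555 hn hm
  have hc1 : c ≤ 1 := hcm.trans hs1
  obtain ⟨k1, k2, k3⟩ := small555 hc hc1 hε hε1 hρ0 hsm
  have hs1pos : 0 < |ip (n * Complex.I) m| := lt_of_lt_of_le hc hcm
  have hs1ne : ip (n * Complex.I) m ≠ 0 := abs_pos.1 hs1pos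
  obtain ⟨s0, hs0⟩ : ∃ s0, s0 = -(ip ω m) / ip (n * Complex.I) m := ⟨_, rfl⟩
  rw [← hs0] at hs
  have hs0e : ip ω m = -s0 * ip (n * Complex.I) m := by
    rw [hs0]; field_simp
  have hωm : |ip ω m| ≤ ρ := by
    have := abs_ip_le555 ω m
    rw [hρ, hm, mul_one] at this
    exact this
  have hs0b : |s0| ≤ ρ / c := by
    rw [hs0, abs_div, abs_neg, div_le_div_iff₀ hs1pos hc]
    exact mul_le_mul hωm hcm hc.le hρ0.le
  have hsb : |s| ≤ 2 * (ρ / c) := by
    have h1 : |s| ≤ |s - s0| + |s0| := by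
      have := abs_add_le (s - s0) s0
      rwa [sub_add_cancel] at this
    have h2 : ε / 16 * ρ ≤ ρ / c := by nlinarith
    linarith
  have hcc : c ^ 2 ≤ 1 := by nlinarith
  have hεc : ε * c ^ 2 ≤ 1 := by nlinarith
  have hs1' : |s| ≤ 1 := by linarith
  have hsq : s ^ 2 ≤ ε * ρ / 32 := by
    have h1 : s ^ 2 ≤ (2 * (ρ / c)) ^ 2 := by
      rw [← sq_abs]
      exact pow_le_pow_left₀ (abs_nonneg _) hsb 2
    have h2 : (2 * (ρ / c)) ^ 2 = 4 * (ρ / c) ^ 2 := by ring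
    have h3 : ε * c * ρ ≤ ε * ρ := by
      have : 0 ≤ ε * ρ := by positivity
      nlinarith
    linarith
  -- the inner product
  have hin : |ip (ω - n * (1 - cis s)) m| ≤ ε / 16 * ρ + s ^ 2 := by
    have e : ip (ω - n * (1 - cis s)) m = (s - s0) * ip (n * Complex.I) m -
        (ip (n * (1 - cis s)) m + s * ip (n * Complex.I) m) := by
      have e1 : ip (ω - n * (1 - cis s)) m = ip ω m - ip (n * (1 - cis s)) m := by
        unfold ip; simp; ring
      rw [e1, hs0e]; ring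
    rw [e]
    refine (abs_sub _ _).trans ?_
    have h1 : |(s - s0) * ip (n * Complex.I) m| ≤ ε / 16 * ρ := by
      rw [abs_mul]
      calc |s - s0| * |ip (n * Complex.I) m| ≤ |s - s0| * 1 :=
            mul_le_mul_of_nonneg_left hs1 (abs_nonneg _)
        _ = |s - s0| := mul_one _
        _ ≤ ε / 16 * ρ := hs
    have h2 := ip_rem555 hn hm hs1'
    linarith
  -- the norm
  have hnorm : ρ / 4 ≤ ‖ω - n * (1 - cis s)‖ := by
    have h1 : |ip (ω - n * (1 - cis s)) n| ≤ ‖ω - n * (1 - cis s)‖ := by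
      have := abs_ip_le555 (ω - n * (1 - cis s)) n
      rwa [hn, mul_one] at this
    have h2 : |ip (n * (1 - cis s)) n| ≤ s ^ 2 := by
      have h3 := ip_rem555 hn hn hs1'
      have h4 : ip (n * Complex.I) n = 0 := by
        unfold ip; simp; ring
      rwa [h4, mul_zero, add_zero] at h3
    have h5 : ip (ω - n * (1 - cis s)) n = ip ω n - ip (n * (1 - cis s)) n := by
      unfold ip; simp; ring
    have h6 := abs_sub_abs_le_abs_sub (ip ω n) (ip (n * (1 - cis s)) n)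
    rw [← h5] at h6
    have h7 : ε * ρ ≤ ρ := by nlinarith
    linarith
  have h8 : ε * (ρ / 4) ≤ ε * ‖ω - n * (1 - cis s)‖ := mul_le_mul_of_nonneg_left hnorm hε.le
  have h9 : 0 < ε * ρ := by positivity
  nlinarith

/-- the parameter where the two points of the tangent circles are opposite in the direction
orthogonal to `m` -/
theorem ivt555 {n m : ℂ} (hn : ‖n‖ = 1) (hm : ‖m‖ = 1) {c ε ρ s0 : ℝ} (hc : 0 < c)
    (hcm : c ≤ |ip (n * Complex.I) m|) (hε : 0 < ε) (hε1 : ε ≤ 1) (hρ0 : 0 < ρ)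
    (hsm : 128 * ρ ≤ ε * c ^ 3) (hs0 : |s0| ≤ ρ / c) :
    ∃ σ, |σ| ≤ ε / 16 * ρ ∧ ip (n * (1 - cis (s0 + σ)) + n * (1 - cis (-s0))) m = 0 := by
  have hs1 : |ip (n * Complex.I) m| ≤ 1 := c_le_one555 hn hm
  have hc1 : c ≤ 1 := hcm.trans hs1
  obtain ⟨k1, k2, k3⟩ := small555 hc hc1 hε hε1 hρ0 hsm
  have hcc : c ^ 2 ≤ 1 := by nlinarith
  have hεc : ε * c ^ 2 ≤ 1 := by nlinarith
  have hκ : 0 < ε / 16 * ρ := by positivity
  have hκρ : ε / 16 * ρ ≤ ρ / c := by nlinarith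
  have hcont : Continuous fun σ : ℝ =>
      ip (n * (1 - cis (s0 + σ)) + n * (1 - cis (-s0))) m := by
    have h1 : Continuous fun σ : ℝ => n * (1 - cis (s0 + σ)) + n * (1 - cis (-s0)) := by
      have h2 : Continuous fun σ : ℝ => cis (s0 + σ) :=
        continuous_cis.comp (continuous_const.add continuous_id)
      fun_prop
    unfold ip
    exact ((Complex.continuous_re.comp h1).mul continuous_const).add
      ((Complex.continuous_im.comp h1).mul continuous_const)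
  have hest : ∀ σ : ℝ, |σ| = ε / 16 * ρ →
      |ip (n * (1 - cis (s0 + σ)) + n * (1 - cis (-s0))) m + σ * ip (n * Complex.I) m| <
        ε / 16 * ρ * c := by
    intro σ hσ
    have a1 : |s0 + σ| ≤ 2 * (ρ / c) := by
      have := abs_add_le s0 σ
      linarith
    have a2 : |s0 + σ| ≤ 1 := by linarith
    have a3 : |(-s0)| ≤ 1 := by
      rw [abs_neg]
      have : 0 ≤ ρ / c := by positivity
      linarith
    have h1 := ip_rem555 hn hm a2
    have h2 := ip_rem555 hn hm a3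
    have e : ip (n * (1 - cis (s0 + σ)) + n * (1 - cis (-s0))) m + σ * ip (n * Complex.I) m =
        (ip (n * (1 - cis (s0 + σ))) m + (s0 + σ : ℝ) * ip (n * Complex.I) m) +
        (ip (n * (1 - cis (-s0))) m + (-s0 : ℝ) * ip (n * Complex.I) m) := by
      have e1 : ip (n * (1 - cis (s0 + σ)) + n * (1 - cis (-s0))) m =
          ip (n * (1 - cis (s0 + σ))) m + ip (n * (1 - cis (-s0))) m := by
        unfold ip; simp; ring
      rw [e1]; ring
    rw [e]
    have h3 := abs_add_le (ip (n * (1 - cis (s0 + σ))) m + (s0 + σ : ℝ) * ip (n * Complex.I) m)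
      (ip (n * (1 - cis (-s0))) m + (-s0 : ℝ) * ip (n * Complex.I) m)
    have h4 : (s0 + σ) ^ 2 ≤ 4 * (ρ / c) ^ 2 := by
      rw [← sq_abs]
      have := pow_le_pow_left₀ (abs_nonneg _) a1 2
      linarith [this, show (2 * (ρ / c)) ^ 2 = 4 * (ρ / c) ^ 2 by ring]
    have h5 : (-s0) ^ 2 ≤ (ρ / c) ^ 2 := by
      rw [neg_sq, ← sq_abs]
      exact pow_le_pow_left₀ (abs_nonneg _) hs0 2
    have h6 : 0 < ε * c * ρ := by positivity
    nlinarith
  have hp := hest (ε / 16 * ρ) (abs_of_pos hκ)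
  have hm' := hest (-(ε / 16 * ρ)) (by rw [abs_neg]; exact abs_of_pos hκ)
  rw [abs_lt] at hp hm'
  have hne : -(ε / 16 * ρ) ≤ ε / 16 * ρ := by linarith
  have hs1pos : 0 < |ip (n * Complex.I) m| := lt_of_lt_of_le hc hcm
  have hkc : ε / 16 * ρ * c ≤ ε / 16 * ρ * |ip (n * Complex.I) m| :=
    mul_le_mul_of_nonneg_left hcm hκ.le
  rcases lt_or_gt_of_ne (abs_pos.1 hs1pos) with h1 | h1
  · rw [abs_of_neg h1] at hkc
    obtain ⟨σ, hσ, hσ0⟩ := intermediate_value_Icc hne hcont.continuousOn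
      (show (0 : ℝ) ∈ Icc _ _ from ⟨by nlinarith [hm'.2], by nlinarith [hp.1]⟩)
    exact ⟨σ, abs_le.2 ⟨hσ.1, hσ.2⟩, hσ0⟩
  · rw [abs_of_pos h1] at hkc
    obtain ⟨σ, hσ, hσ0⟩ := intermediate_value_Icc' hne hcont.continuousOn
      (show (0 : ℝ) ∈ Icc _ _ from ⟨by nlinarith [hp.2], by nlinarith [hm'.1]⟩)
    exact ⟨σ, abs_le.2 ⟨hσ.1, hσ.2⟩, hσ0⟩

end Vale.Agent.P032.Six
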