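import Vale.Agent.P032.S5.H555.Cross

/-!
# P032: a cut colour: the two types of arcs

`T z = {x} ∪ A ∪ B`, all pairs `{a, b}`, `a ∈ A`, `b ∈ B`, broken at `z`, `|A| ≤ 2`.
`Irr.split`: near `z` the points without `x` have colours in `A` only or in `B` only.
`Irr.type_arc`: there is `v` with `dist v z = 1` and circles about points `g ∈ U x` near `v` which
near `z` carry colours of `A` only.
-/

open Set Filter Topology Metric

noncomputable section

namespace Vale.Agent.P032.Six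

variable {k : ℕ} {U : Fin k → Set ℂ} {T : ℂ → Set (Fin k)}

namespace Irr

/-- near `z` the points without `x` have colours in `A` only or in `B` only -/
theorem split (h : Irr U T)
    (hmin : ∀ z, 4 ≤ (T z).ncard → ∀ s, s ⊆ T z → s ≠ T z →
      ¬ ∀ᶠ w in 𝓝 z, ∃ i ∈ s, w ∈ U i ∨ (w ∈ XX U ∧ i ∈ Pal U w)) {z : ℂ} {x : Fin k}
    {A B : Set (Fin k)} (hz : T z ⊆ insert x (A ∪ B)) (hAz : A ⊆ T z) (hBz : B ⊆ T z)
    (hA2 : A.ncard ≤ 2) (hAB : Disjoint A B)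
    (hbr : ∀ a ∈ A, ∀ b ∈ B, ∃ q, dist q z = 1 ∧ T q = {a, b}) :
    ∀ᶠ w in 𝓝 z, x ∉ T w → T w ⊆ A ∨ T w ⊆ B := by
  have hbr' : ∀ a b, ∃ q, a ∈ A → b ∈ B → dist q z = 1 ∧ T q = {a, b} := by
    intro a b
    by_cases h1 : a ∈ A ∧ b ∈ B
    · obtain ⟨q, hq⟩ := hbr a h1.1 b h1.2
      exact ⟨q, fun _ _ => hq⟩
    · exact ⟨0, fun h2 h3 => absurd ⟨h2, h3⟩ h1⟩
  choose q hq using hbr'
  have hnear : ∀ᶠ w in 𝓝 z, ∀ a b, a ∈ A → b ∈ B →
      T (q a b + (w - z)) ⊆ {a, b} ∧ (({a, b} : Set (Fin k)) ⊆ T w → 4 ≤ (T w).ncard) := by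
    rw [eventually_all]
    intro a
    rw [eventually_all]
    intro b
    by_cases h1 : a ∈ A ∧ b ∈ B
    · obtain ⟨hq1, hq2⟩ := hq a b h1.1 h1.2
      have ht : Tendsto (fun w => q a b + (w - z)) (𝓝 z) (𝓝 (q a b)) := by
        have hc : Continuous fun w : ℂ => q a b + (w - z) := by fun_prop
        have := hc.tendsto z
        simpa using this
      filter_upwards [ht.eventually (h.nhd (q a b)), h.no_layer hq1] with w h2 h3 _ _
      rw [hq2] at h2 h3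
      exact ⟨h2, h3⟩
    · exact Eventually.of_forall fun w h2 h3 => absurd ⟨h2, h3⟩ h1
  filter_upwards [h.nhd z, hnear] with w h1 h2 hxw
  by_contra hcon
  rw [not_or] at hcon
  obtain ⟨b, hb, hbA⟩ := not_subset.1 hcon.1
  obtain ⟨a, ha, haB⟩ := not_subset.1 hcon.2
  have hmem : ∀ i ∈ T w, i ∈ A ∨ i ∈ B := by
    intro i hi
    rcases hz (h1 hi) with h3 | h3
    · exact absurd (h3 ▸ hi) hxw
    · exact h3
  have hbB : b ∈ B := (hmem b hb).resolve_left hbA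
  have haA : a ∈ A := (hmem a ha).resolve_right haB
  have hab : a ≠ b := fun h3 => hbA (h3 ▸ haA)
  obtain ⟨-, h4⟩ := h2 a b haA hbB
  have h4w : 4 ≤ (T w).ncard := h4 (by rintro m (rfl | rfl) <;> assumption)
  have hwit : ∀ j ∈ T w, j ∈ B → ∃ p, dist p w = 1 ∧ T p = {a, j} := by
    intro j hj hjB
    obtain ⟨h5, -⟩ := h2 a j haA hjB
    have hqw : dist (q a j + (w - z)) w = 1 := by
      have h6 := (hq a j haA hjB).1
      rw [dist_eq_norm] at h6 ⊢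
      rw [← h6]; congr 1; ring
    exact ⟨_, hqw, h.pair_of_sub hqw (h.sub w ha) (h.sub w hj) h5⟩
  by_cases hcase : ∃ a' ∈ T w, a' ∈ A ∧ a' ≠ a
  · obtain ⟨a', ha', ha'A, hne⟩ := hcase
    refine h.degree hmin h4w ha ha' (Ne.symm hne) fun j hj hja hja' => hwit j hj ?_
    rcases hmem j hj with h7 | h7
    · exfalso
      have h8 : ({a, a', j} : Set (Fin k)) ⊆ A := by
        rintro m (rfl | rfl | rfl) <;> assumption
      have h9 := Set.ncard_le_ncard h8 (Set.toFinite _)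
      rw [Set.ncard_insert_of_notMem (by simp [hne.symm, hja.symm]),
        Set.ncard_pair (Ne.symm hja')] at h9
      omega
    · exact h7
  · push Not at hcase
    refine h.degree hmin h4w ha hb hab fun j hj hja _ => hwit j hj ?_
    rcases hmem j hj with h7 | h7
    · exact absurd (hcase j hj h7) hja
    · exact h7

/-- arcs of type `A` -/
theorem type_arc (h : Irr U T)
    (hmin : ∀ z, 4 ≤ (T z).ncard → ∀ s, s ⊆ T z → s ≠ T z →
      ¬ ∀ᶠ w in 𝓝 z, ∃ i ∈ s, w ∈ U i ∨ (w ∈ XX U ∧ i ∈ Pal U w)) {z : ℂ} {x : Fin k}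
    (h4 : 4 ≤ (T z).ncard) (hx : x ∈ T z) {A : Set (Fin k)} (hAz : A ⊆ T z) (hAne : A.Nonempty)
    (hxA : x ∉ A) (hsp : ∀ᶠ w in 𝓝 z, x ∉ T w → T w ⊆ A ∨ Disjoint A (T w)) :
    ∃ v, dist v z = 1 ∧ ∃ δ > 0, ∃ᶠ g in 𝓝 v, g ∈ U x ∧
      ∀ w, dist w g = 1 → dist w z < δ → T w ⊆ A := by
  have hfr : ∃ᶠ w in 𝓝 z, T w ⊆ A ∧ w ∉ U x := by
    have h1 := hmin z h4 (T z \ A) sdiff_subset (by
      intro h2
      obtain ⟨a, ha⟩ := hAne
      have : a ∈ T z \ A := by rw [h2]; exact hAz ha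
      exact this.2 ha)
    have h2 : ∃ᶠ w in 𝓝 z, ¬ ∃ i ∈ T z \ A, w ∈ U i ∨ (w ∈ XX U ∧ i ∈ Pal U w) :=
      Filter.not_eventually.1 h1
    refine (h2.and_eventually (h.nhd z)).mono ?_
    rintro w ⟨h3, h5⟩
    refine ⟨fun i hi => ?_, fun hwx => h3 ⟨x, ⟨hx, hxA⟩, Or.inl hwx⟩⟩
    by_contra hiA
    exact h3 ⟨i, ⟨h5 hi, hiA⟩, h.suf_mem hi⟩
  -- points `g` of `U x` whose circles pass near `z` through a point of type `A`
  have hG : ∀ n : ℕ, ∃ g w', g ∈ U x ∧ dist w' g = 1 ∧ dist w' z < 1 / (n + 1) ∧ T w' ⊆ A := by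
    intro n
    have hn : (0 : ℝ) < 1 / (n + 1) := by positivity
    obtain ⟨w, ⟨hwA, hwx⟩, hwz⟩ := (hfr.and_eventually (ball_mem_nhds z (half_pos hn))).exists
    obtain ⟨y, hwy, hxy⟩ := h.partner hwx
    obtain ⟨ρ, hρ, hρT⟩ := Metric.eventually_nhds_iff.1 (h.nhd w)
    obtain ⟨g, hgU, hgy⟩ := Metric.mem_closure_iff.1 (show y ∈ closure (U x) from hxy)
      (min ρ (1 / (n + 1) / 2)) (lt_min hρ (half_pos hn))
    rw [dist_comm] at hgy
    have e1 : dist (w + (g - y)) w = dist g y := by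
      rw [dist_eq_norm, dist_eq_norm]; congr 1; ring
    refine ⟨g, w + (g - y), hgU, ?_, ?_, ?_⟩
    · rw [dist_eq_norm] at hwy ⊢
      rw [← hwy]; congr 1; ring
    · have h1 := dist_triangle (w + (g - y)) w z
      rw [e1] at h1
      have h2 := lt_of_lt_of_le hgy (min_le_right _ _)
      have h3 : dist w z < 1 / (n + 1) / 2 := hwz
      linarith
    · exact (hρT (by rw [e1]; exact lt_of_lt_of_le hgy (min_le_left _ _))).trans hwA
  choose g w' hgU hw'g hw'z hw'A using hG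
  have hbd : ∀ n, g n ∈ closedBall z 2 := by
    intro n
    have h1 := dist_triangle_left (g n) z (w' n)
    have h2 := hw'z n
    have h3 : (1 : ℝ) / (n + 1) ≤ 1 := by
      rw [div_le_one (by positivity)]
      have : (0 : ℝ) ≤ n := Nat.cast_nonneg n
      linarith
    rw [mem_closedBall]
    have h4 := hw'g n
    linarith
  obtain ⟨v, -, φ, hφ, hlim⟩ := (isCompact_closedBall z 2).tendsto_subseq hbd
  have hw'lim : Tendsto w' atTop (𝓝 z) := by
    rw [tendsto_iff_dist_tendsto_zero]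
    exact squeeze_zero (fun n => dist_nonneg) (fun n => (hw'z n).le)
      tendsto_one_div_add_atTop_nhds_zero_nat
  have hw'φ : Tendsto (w' ∘ φ) atTop (𝓝 z) := hw'lim.comp hφ.tendsto_atTop
  have hvz : dist v z = 1 := by
    have h1 : Tendsto (fun n => dist ((w' ∘ φ) n) ((g ∘ φ) n)) atTop (𝓝 (dist z v)) :=
      hw'φ.dist hlim
    have h2 : (fun n => dist ((w' ∘ φ) n) ((g ∘ φ) n)) = fun _ => (1 : ℝ) := by
      funext n; exact hw'g _
    rw [h2] at h1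
    rw [dist_comm]
    exact (tendsto_nhds_unique h1 tendsto_const_nhds)
  obtain ⟨r, hr, hrs⟩ := Metric.eventually_nhds_iff.1 hsp
  obtain ⟨δ, hδ, hjoin⟩ := circle_join (z := z) (y := v) (by rw [dist_comm]; exact hvz) hr
  refine ⟨v, hvz, δ, hδ, ?_⟩
  refine hlim.frequently (Eventually.frequently ?_)
  have e1 : ∀ᶠ n in atTop, dist ((g ∘ φ) n) v < δ := hlim.eventually (ball_mem_nhds v hδ)
  have e2 : ∀ᶠ n in atTop, dist ((w' ∘ φ) n) z < δ := hw'φ.eventually (ball_mem_nhds z hδ)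
  filter_upwards [e1, e2] with n hn1 hn2
  refine ⟨hgU _, fun w2 hw2 hw2z => ?_⟩
  obtain ⟨C, hC, hC1, hC2, hCx⟩ := hjoin _ _ _ hn1 hn2 hw2z (hw'g _) hw2
  have hCA : ∀ p ∈ C, T p ⊆ A ∨ Disjoint A (T p) := by
    intro p hp
    refine hrs (hCx p hp).2 fun hxp => ?_
    exact h.mx.notMem' (hgU (φ n)) (by rw [dist_comm]; exact (hCx p hp).1) (h.sub p hxp)
  by_contra hcon
  obtain ⟨j, hj, hjA⟩ := not_subset.1 hcon
  have hcl1 : IsClosed (⋃ b ∈ A, {p | b ∈ T p}) :=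
    (Set.toFinite _).isClosed_biUnion fun b _ => h.closed b
  have hcl2 : IsClosed (⋃ b ∈ Aᶜ, {p | b ∈ T p}) :=
    (Set.toFinite _).isClosed_biUnion fun b _ => h.closed b
  obtain ⟨p, hpC, hp1, hp2⟩ := isPreconnected_closed_iff.1 hC _ _ hcl1 hcl2
    (fun p _ => by
      obtain ⟨b, hb⟩ := h.ne p
      by_cases hbA : b ∈ A
      · exact Or.inl (mem_iUnion₂.2 ⟨b, hbA, hb⟩)
      · exact Or.inr (mem_iUnion₂.2 ⟨b, hbA, hb⟩))
    ⟨_, hC1, by
      obtain ⟨b, hb⟩ := h.ne (w' (φ n))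
      exact mem_iUnion₂.2 ⟨b, hw'A _ hb, hb⟩⟩
    ⟨w2, hC2, mem_iUnion₂.2 ⟨j, hjA, hj⟩⟩
  obtain ⟨b, hbA, hb⟩ := mem_iUnion₂.1 hp1
  obtain ⟨c, hcA, hc⟩ := mem_iUnion₂.1 hp2
  rcases hCA p hpC with h1 | h1
  · exact hcA (h1 hc)
  · exact Set.disjoint_left.1 h1 hbA hb

/-- the circle about `v` carries near `z` colours of `A` -/
theorem type_curve (h : Irr U T) {z v : ℂ} {x : Fin k} {A : Set (Fin k)} {δ : ℝ}
    (hfr : ∃ᶠ g in 𝓝 v, g ∈ U x ∧ ∀ w, dist w g = 1 → dist w z < δ → T w ⊆ A) {p : ℂ}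
    (hpv : dist p v = 1) (hpz : dist p z < δ) : ∃ a ∈ A, a ∈ T p := by
  have ht : Tendsto (fun g => p + (g - v)) (𝓝 v) (𝓝 p) := by
    have hc : Continuous fun g : ℂ => p + (g - v) := by fun_prop
    have := hc.tendsto v
    simpa using this
  have hb : ball z δ ∈ 𝓝 p := isOpen_ball.mem_nhds hpz
  obtain ⟨g, ⟨-, hg⟩, h1, h2⟩ := (hfr.and_eventually
    ((ht.eventually hb).and (ht.eventually (h.nhd p)))).exists
  obtain ⟨a, ha⟩ := h.ne (p + (g - v))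
  refine ⟨a, hg _ ?_ h1 ha, h2 ha⟩
  rw [dist_eq_norm] at hpv ⊢
  rw [← hpv]; congr 1; ring

end Irr

end Vale.Agent.P032.Six
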